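import Vale.Agent.P032.R2.H784.Iso
import Vale.Agent.P032.S5.H767.RawT

/-!
# P032: the exact arcs of a two-pair point

`Irr.dpt_pairs` : at a two-pair point `z = ab | cd` an exact arc of `S(z)` inside `T z` has the
palette `{a, b}` or `{c, d}`.  No assumption on the orders of other points.
-/

open Set Filter Topology Metric

noncomputable section

namespace Vale.Agent.P032.Six

open Vale.Agent.P032.S5.H767

variable {k : ℕ} {U : Fin k → Set ℂ} {T : ℂ → Set (Fin k)}

theorem exists_ptc {z p : ℂ} (hp : dist p z = 1) : ∃ u, p = pt z u := by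
  obtain ⟨t, ht⟩ := exists_cis (u := p - z) (by rw [← dist_eq_norm]; exact hp)
  refine ⟨t / (Real.pi / 3), ?_⟩
  unfold pt
  rw [div_mul_cancel₀ _ (by positivity : Real.pi / 3 ≠ 0), ← ht]
  ring

theorem cr_ptc (z : ℂ) (s t : ℝ) :
    cr (pt z s - z) (pt z t - z) = Real.sin ((t - s) * (Real.pi / 3)) := by
  unfold pt cr
  rw [add_sub_cancel_left, add_sub_cancel_left, cis_re, cis_im, cis_re, cis_im,
    show (t - s) * (Real.pi / 3) = t * (Real.pi / 3) - s * (Real.pi / 3) by ring, Real.sin_sub]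
  ring

/-- an arc has points outside a given finite set -/
theorem Arc.exists_notMem {z p : ℂ} {P : Set (Fin k)} (h : Arc T z p P) {F : Set ℂ}
    (hF : F.Finite) : ∃ q, Arc T z q P ∧ q ∉ F := by
  obtain ⟨u, rfl⟩ := exists_ptc h.1
  obtain ⟨η, hη, hc⟩ := Metric.eventually_nhds_iff.1 (ev_pt z h.2)
  set s := min η 1 with hs
  have hs0 : 0 < s := by positivity
  have hs1 : s ≤ 1 := min_le_right _ _
  have hsη : s ≤ η := min_le_left _ _
  have hinj : InjOn (fun t : ℝ => pt z t) (Ioo u (u + s)) := by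
    intro x hx y hy hxy
    have h0 : pt z x = pt z y := hxy
    have h1 := cr_ptc z x y
    rw [h0] at h1
    have h2 : Real.sin ((y - x) * (Real.pi / 3)) = 0 := by
      rw [← h1]; unfold cr; ring
    have hpi := Real.pi_pos
    have h3 : |y - x| < 1 := by
      rw [abs_lt]; constructor <;> linarith [hx.1, hx.2, hy.1, hy.2]
    rw [abs_lt] at h3
    have h4 := (Real.sin_eq_zero_iff_of_lt_of_lt (x := (y - x) * (Real.pi / 3)) (by nlinarith)
      (by nlinarith)).1 h2
    have h5 : y - x = 0 := by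
      rcases mul_eq_zero.1 h4 with h5 | h5
      · exact h5
      · linarith
    linarith
  have hinf : ((fun t : ℝ => pt z t) '' Ioo u (u + s)).Infinite :=
    (Ioo_infinite (by linarith)).image hinj
  obtain ⟨q, ⟨t, ht, rfl⟩, hq⟩ := hinf.exists_notMem_finite hF
  refine ⟨_, ⟨dist_pt z t, ev_circle z ?_⟩, hq⟩
  filter_upwards [Ioo_mem_nhds ht.1 ht.2] with t' ht'
  refine hc ?_
  rw [Real.dist_eq, abs_lt]
  constructor <;> linarith [ht'.1, ht'.2]

/-- the two rays orthogonal to a direction of an exact arc avoid the colours of the arc -/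
theorem Irr.ray_avoid' (h : Irr U T) {z p : ℂ} {P : Set (Fin k)} (hp : Arc T z p P) {i : Fin k}
    (hi : i ∈ P) {σ : ℝ} (hσ : σ = 1 ∨ σ = -1) :
    ∀ᶠ r : ℝ in 𝓝[>] 0, i ∉ Pal U (z + r * (σ * (Complex.I * (p - z)))) := by
  obtain ⟨t0, ht0⟩ := exists_cis (u := p - z) (by rw [← dist_eq_norm]; exact hp.1)
  have hp' : p = z + cis t0 := by rw [← ht0]; ring
  rw [hp'] at hp
  obtain ⟨η, hη, hc⟩ := hp.exists_eta
  rw [ht0]
  exact h.mx.ray_avoid hη (fun t ht => h.sub _ (by rw [hc t ht]; exact hi)) hσ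

/-- a colour absent on the inner or outer side of a circle through `z` is absent on rays -/
theorem rayc_in {z g v : ℂ} (hg : dist g z = 1) (hv : 0 < ip v (g - z)) :
    ∀ᶠ r : ℝ in 𝓝[>] 0, dist (z + r * v) g < 1 := by
  have h0 : 0 ≤ ip v v := by unfold ip; nlinarith [sq_nonneg v.re, sq_nonneg v.im]
  have h1 : ∀ᶠ r : ℝ in 𝓝[>] 0, 0 < r ∧ r < ip v (g - z) / (ip v v + 1) := by
    filter_upwards [self_mem_nhdsWithin, mem_nhdsWithin_of_mem_nhds (Iio_mem_nhds
      (show (0 : ℝ) < ip v (g - z) / (ip v v + 1) by positivity))] with r h1 h2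
    exact ⟨h1, h2⟩
  filter_upwards [h1] with r hr
  have h2 := sq_line z v g r
  rw [dist_comm z g, hg] at h2
  have h3 := hr.2
  rw [lt_div_iff₀ (by linarith)] at h3
  have h4 := dist_nonneg (x := z + r * v) (y := g)
  nlinarith [mul_pos hr.1 hr.1, mul_nonneg hr.1.le h0]

theorem rayc_out {z g v : ℂ} (hg : dist g z = 1) (hv : ip v (g - z) < 0) :
    ∀ᶠ r : ℝ in 𝓝[>] 0, 1 < dist (z + r * v) g := by
  have h0 : 0 ≤ ip v v := by unfold ip; nlinarith [sq_nonneg v.re, sq_nonneg v.im]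
  filter_upwards [self_mem_nhdsWithin] with r hr
  rw [mem_Ioi] at hr
  have h2 := sq_line z v g r
  rw [dist_comm z g, hg] at h2
  have h4 := dist_nonneg (x := z + r * v) (y := g)
  nlinarith [mul_pos hr hr, mul_pos hr (neg_pos.2 hv)]

theorem tendsto_rayc (z v : ℂ) : Tendsto (fun r : ℝ => z + r * v) (𝓝[>] 0) (𝓝 z) := by
  have : Continuous fun r : ℝ => z + r * v := by fun_prop
  have h2 := this.tendsto 0
  simp only [Complex.ofReal_zero, zero_mul, add_zero] at h2
  exact h2.mono_left nhdsWithin_le_nhds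

theorem Ray.smul {V : Set ℂ} {z v : ℂ} (h : Ray V z v) {s : ℝ} (hs : 0 < s) :
    Ray V z (s * v) := by
  have h1 : Tendsto (fun r : ℝ => r * s) (𝓝[>] 0) (𝓝[>] 0) := by
    refine tendsto_nhdsWithin_of_tendsto_nhds_of_eventually_within _ ?_ ?_
    · have : Continuous fun r : ℝ => r * s := by fun_prop
      have h2 := this.tendsto 0
      rw [zero_mul] at h2
      exact h2.mono_left nhdsWithin_le_nhds
    · filter_upwards [self_mem_nhdsWithin] with r hr
      rw [mem_Ioi] at hr ⊢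
      positivity
  filter_upwards [h1.eventually h] with r hr
  rw [show z + (r : ℂ) * (s * v) = z + ((r * s : ℝ) : ℂ) * v by push_cast; ring]
  exact hr

/-- the direction of the ray in `U a` fixes which colour of the pair is inside -/
theorem Irr.sd_of_ray (h : Irr U T) {z g v : ℂ} {a b : Fin k} (hg : Arc T z g {a, b})
    (hs : Sd U z g a b ∨ Sd U z g b a) (hr : Ray (U a) z v) :
    (0 < ip v (g - z) → Sd U z g a b) ∧ (ip v (g - z) < 0 → Sd U z g b a) := by
  constructor
  · intro hv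
    rcases hs with hs | hs
    · exact hs
    · exfalso
      have h1 := h.sd_center (by rwa [pair_comm] at hg) hs
      obtain ⟨r, h2, h3, h4⟩ := ((tendsto_rayc z v).eventually h1 |>.and
        ((rayc_in hg.1 hv).and hr)).exists
      exact h2.2 h3 (subset_closure h4)
  · intro hv
    rcases hs with hs | hs
    · exfalso
      have h1 := h.sd_center hg hs
      obtain ⟨r, h2, h3, h4⟩ := ((tendsto_rayc z v).eventually h1 |>.and
        ((rayc_out hg.1 hv).and hr)).exists
      exact h2.1 h3 (subset_closure h4)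
    · exact hs

/-- the absence rules of an exact arc on rays at the centre -/
theorem Irr.ray_side (h : Irr U T) {z g v : ℂ} {a b : Fin k} (hg : Arc T z g {a, b})
    (hs : Sd U z g a b) :
    (0 < ip v (g - z) → ∀ᶠ r : ℝ in 𝓝[>] 0, b ∉ Pal U (z + r * v)) ∧
      (ip v (g - z) < 0 → ∀ᶠ r : ℝ in 𝓝[>] 0, a ∉ Pal U (z + r * v)) := by
  have h1 := h.sd_center hg hs
  constructor
  · intro hv
    filter_upwards [(tendsto_rayc z v).eventually h1, rayc_in hg.1 hv] with r h2 h3
    exact h2.2 h3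
  · intro hv
    filter_upwards [(tendsto_rayc z v).eventually h1, rayc_out hg.1 hv] with r h2 h3
    exact h2.1 h3

/-- the rays orthogonal to a direction of an exact `cd`-arc, sign form -/
theorem Irr.d0' (h : Irr U T) {z g : ℂ} {a b c d : Fin k} (hz : DPt T z a b c d)
    (hg : Arc T z g {c, d}) : ∃ σ : ℝ, (σ = 1 ∨ σ = -1) ∧
      Ray (U a) z (σ * (Complex.I * (g - z))) ∧ Ray (U b) z (-σ * (Complex.I * (g - z))) := by
  rcases h.d0 hz hg with ⟨h1, h2⟩ | ⟨h1, h2⟩
  · exact ⟨1, Or.inl rfl, by simpa using h1, by simpa using h2⟩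
  · exact ⟨-1, Or.inr rfl, by simpa using h2, by simpa using h1⟩

/-- no exact arc with one colour of each pair, first distribution of the sides -/
theorem Irr.no_mixed_arc_aux (h : Irr U T) {z p : ℂ} {a b c d : Fin k} (hz : DPt T z a b c d)
    (hp : Arc T z p {a, c}) (hs : Sd U z p a c) : False := by
  obtain ⟨g2, hg2⟩ := hz.arc2
  obtain ⟨g0, hg0⟩ := hz.arc1
  obtain ⟨g1, hg1, hg1n⟩ := hg0.exists_notMem (F := {g2, 2 * z - g2, p, 2 * z - p}) (by simp)
  obtain ⟨g3, hg3, hg3n⟩ := hg2.exists_notMem (F := {p, 2 * z - p, g1, 2 * z - g1}) (by simp)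
  simp only [mem_insert_iff, mem_singleton_iff, not_or] at hg1n hg3n
  set n1 := g1 - z with hn1
  set n2 := g3 - z with hn2
  set n3 := p - z with hn3
  have hc12 : cr n1 n2 ≠ 0 := cr_ne_of hg1.1 hg3.1 (fun e => hg3n.2.2.1 e.symm)
    (fun e => hg3n.2.2.2 (by linear_combination e))
  have hc13 : cr n1 n3 ≠ 0 := cr_ne_of hg1.1 hp.1 hg1n.2.2.1
    (fun e => hg1n.2.2.2 (by linear_combination e))
  have hc23 : cr n2 n3 ≠ 0 := cr_ne_of hg3.1 hp.1 hg3n.1
    (fun e => hg3n.2.1 (by linear_combination e))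
  obtain ⟨σ2, hσ2, hA, -⟩ := h.d0' hz hg3
  obtain ⟨σ1, hσ1, hC, -⟩ := h.d0' hz.swap hg1
  rw [← hn2] at hA
  rw [← hn1] at hC
  -- the sides at the three arcs
  have e1 : ∀ (σ : ℝ) (m n : ℂ), ip (σ * (Complex.I * m)) n = σ * cr m n := by
    intro σ m n; rw [ip_smul, ip_I]
  have hpA : 0 < σ2 * cr n2 n3 := by
    have h1 : ¬ σ2 * cr n2 n3 < 0 := by
      intro h2
      have h3 := (h.ray_side (v := σ2 * (Complex.I * n2)) hp hs).2 (by rw [e1]; exact h2)
      obtain ⟨r, h4, h5⟩ := (h3.and hA).exists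
      exact h4 (subset_closure h5)
    have h2 : σ2 * cr n2 n3 ≠ 0 := by
      rcases hσ2 with rfl | rfl <;> simpa using hc23
    exact lt_of_le_of_ne (not_lt.1 h1) h2.symm
  have hpC : σ1 * cr n1 n3 < 0 := by
    have h1 : ¬ 0 < σ1 * cr n1 n3 := by
      intro h2
      have h3 := (h.ray_side (v := σ1 * (Complex.I * n1)) hp hs).1 (by rw [e1]; exact h2)
      obtain ⟨r, h4, h5⟩ := (h3.and hC).exists
      exact h4 (subset_closure h5)
    have h2 : σ1 * cr n1 n3 ≠ 0 := by
      rcases hσ1 with rfl | rfl <;> simpa using hc13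
    exact lt_of_le_of_ne (not_lt.1 h1) h2
  have hsd1 := h.sd_of_ray hg1 (h.sides hz hg1.1) hA
  have hsd2 := h.sd_of_ray hg3 (h.sides hz.swap hg3.1) hC
  rw [e1, ← hn1] at hsd1
  rw [e1, ← hn2] at hsd2
  -- `b` is absent on the side of `n1` with the sign of `σ2 * cr n2 n1`
  have hb : ∀ v : ℂ, 0 < (σ2 * cr n2 n1) * ip v n1 →
      ∀ᶠ r : ℝ in 𝓝[>] 0, b ∉ Pal U (z + r * v) := by
    intro v hv
    rcases lt_trichotomy (σ2 * cr n2 n1) 0 with h1 | h1 | h1
    · have h2 := h.ray_side (v := v) (by rwa [pair_comm] at hg1) (hsd1.2 h1)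
      exact h2.2 (by nlinarith)
    · rw [h1, zero_mul] at hv; exact absurd hv (lt_irrefl _)
    · have h2 := h.ray_side (v := v) hg1 (hsd1.1 h1)
      exact h2.1 (by nlinarith)
  have hd : ∀ v : ℂ, 0 < (σ1 * cr n1 n2) * ip v n2 →
      ∀ᶠ r : ℝ in 𝓝[>] 0, d ∉ Pal U (z + r * v) := by
    intro v hv
    rcases lt_trichotomy (σ1 * cr n1 n2) 0 with h1 | h1 | h1
    · have h2 := h.ray_side (v := v) (by rwa [pair_comm] at hg3) (hsd2.2 h1)
      exact h2.2 (by nlinarith)
    · rw [h1, zero_mul] at hv; exact absurd hv (lt_irrefl _)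
    · have h2 := h.ray_side (v := v) hg3 (hsd2.1 h1)
      exact h2.1 (by nlinarith)
  have key : ∀ σ : ℝ, (σ = 1 ∨ σ = -1) → 0 < (σ2 * cr n2 n1) * (σ * cr n3 n1) →
      0 < (σ1 * cr n1 n2) * (σ * cr n3 n2) → False := by
    intro σ hσ h1 h2
    have h3 := hb (σ * (Complex.I * n3)) (by rw [e1]; exact h1)
    have h4 := hd (σ * (Complex.I * n3)) (by rw [e1]; exact h2)
    have h5 := h.ray_avoid' hp (i := a) (by simp) hσ
    have h6 := h.ray_avoid' hp (i := c) (by simp) hσ
    rw [← hn3] at h5 h6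
    obtain ⟨r, h7, h8, h9, h10, h11⟩ := (h3.and (h4.and (h5.and (h6.and
      ((tendsto_rayc z _).eventually (h.nhd z)))))).exists
    obtain ⟨i, hi⟩ := h.ne (z + r * (σ * (Complex.I * n3)))
    have h12 := h11 hi
    rw [hz.pal] at h12
    rcases h12 with rfl | rfl | rfl | h13
    · exact h9 (h.sub _ hi)
    · exact h7 (h.sub _ hi)
    · exact h10 (h.sub _ hi)
    · rw [mem_singleton_iff] at h13; subst h13; exact h8 (h.sub _ hi)
  have s1 : σ1 ^ 2 = 1 := by rcases hσ1 with rfl | rfl <;> norm_num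
  have s2 : σ2 ^ 2 = 1 := by rcases hσ2 with rfl | rfl <;> norm_num
  have a21 : cr n2 n1 = -cr n1 n2 := by unfold cr; ring
  have a31 : cr n3 n1 = -cr n1 n3 := by unfold cr; ring
  have a32 : cr n3 n2 = -cr n2 n3 := by unfold cr; ring
  rw [a21, a31, a32] at key
  set α := cr n1 n2
  set β := cr n1 n3
  set γ := cr n2 n3
  have hprod : 0 < (σ2 * -α * -β) * (σ1 * α * -γ) := by
    have e : (σ2 * -α * -β) * (σ1 * α * -γ) = α ^ 2 * ((σ2 * γ) * (-(σ1 * β))) := by ring
    rw [e]
    have := mul_pos hpA (neg_pos.2 hpC)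
    positivity
  rcases lt_or_ge 0 (σ2 * -α * -β) with h1 | h1
  · refine key 1 (Or.inl rfl) (by linarith) ?_
    by_contra h4
    push Not at h4
    nlinarith
  · have h2 : σ2 * -α * -β < 0 := lt_of_le_of_ne h1 (by
      intro h0; rw [h0, zero_mul] at hprod; exact absurd hprod (lt_irrefl _))
    refine key (-1) (Or.inr rfl) (by linarith) ?_
    have h3 : σ1 * α * -γ < 0 := by
      by_contra h4
      push Not at h4
      nlinarith
    linarith

/-- **no exact arc with one colour of each pair** -/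
theorem Irr.no_mixed_arc (h : Irr U T) {z p : ℂ} {a b c d : Fin k} (hz : DPt T z a b c d)
    (hp : Arc T z p {a, c}) : False := by
  have hoff : ∀ s : Set ℂ, s ∈ 𝓝 p → (∃ x ∈ s, 1 < dist x z) ∧ ∃ x ∈ s, dist x z < 1 := by
    intro s hs
    have h1 : Tendsto (fun r : ℝ => p + r * (p - z)) (𝓝 0) (𝓝 p) := by
      have : Continuous fun r : ℝ => p + r * (p - z) := by fun_prop
      have h2 := this.tendsto 0
      simpa using h2
    have hd : ∀ r : ℝ, -1 < r → dist (p + r * (p - z)) z = 1 + r := by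
      intro r hr
      have e : p + r * (p - z) - z = ((1 + r : ℝ) : ℂ) * (p - z) := by push_cast; ring
      rw [dist_eq_norm, e, norm_mul, Complex.norm_real, ← dist_eq_norm, hp.1, mul_one,
        Real.norm_of_nonneg (by linarith)]
    obtain ⟨ε, hε, hball⟩ := Metric.eventually_nhds_iff.1 (h1.eventually hs)
    set r := min (ε / 2) (1 / 2) with hr
    have hr0 : 0 < r := by positivity
    have hr1 : r ≤ 1 / 2 := min_le_right _ _
    have hrε : r < ε := lt_of_le_of_lt (min_le_left _ _) (by linarith)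
    refine ⟨⟨p + (r : ℝ) * (p - z), hball ?_, ?_⟩, ⟨p + ((-r : ℝ) : ℂ) * (p - z), hball ?_, ?_⟩⟩
    · rw [Real.dist_eq, sub_zero, abs_of_pos hr0]; exact hrε
    · rw [hd r (by linarith)]; linarith
    · rw [Real.dist_eq, sub_zero, abs_neg, abs_of_pos hr0]; exact hrε
    · rw [hd (-r) (by linarith)]; linarith
  have hemp : ∀ x, T x ⊆ T p → a ∉ Pal U x → c ∉ Pal U x → False := by
    intro x h1 h2 h3
    obtain ⟨i, hi⟩ := h.ne x
    have h4 := h1 hi
    rw [hp.mem] at h4
    rcases h4 with rfl | h4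
    · exact h2 (h.sub _ hi)
    · rw [mem_singleton_iff] at h4; subst h4; exact h3 (h.sub _ hi)
  rcases h.sides hz hp.1 with h1 | h1 <;> rcases h.sides hz.swap hp.1 with h2 | h2
  · obtain ⟨⟨x, ⟨hx1, hx2, hx3⟩, hx4⟩, -⟩ := hoff _ (h1.and (h2.and (h.nhd p)))
    exact hemp x hx3 (hx1.1 hx4) (hx2.1 hx4)
  · refine h.no_mixed_arc_aux hz hp ?_
    filter_upwards [h1, h2] with x h3 h4
    exact ⟨h3.1, h4.2⟩
  · refine h.no_mixed_arc_aux hz.swap (by rwa [pair_comm] at hp) ?_
    filter_upwards [h1, h2] with x h3 h4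
    exact ⟨h4.1, h3.2⟩
  · obtain ⟨-, ⟨x, ⟨hx1, hx2, hx3⟩, hx4⟩⟩ := hoff _ (h1.and (h2.and (h.nhd p)))
    exact hemp x hx3 (hx1.2 hx4) (hx2.2 hx4)

/-- **the exact arcs of a two-pair point** -/
theorem Irr.dpt_pairs (h : Irr U T) {z p : ℂ} {a b c d : Fin k} {P : Set (Fin k)}
    (hz : DPt T z a b c d) (hp : Arc T z p P) (hP : P ⊆ T z) : P = {a, b} ∨ P = {c, d} := by
  have hTp : T p = P := hp.mem
  have hzp : dist z p = 1 := by rw [dist_comm]; exact hp.1
  obtain ⟨p1, hp1⟩ := hz.arc1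
  have haz : a ∈ T z := by rw [hz.pal]; simp
  have hzX : z ∈ XX U := h.mem_XX (y := p1) (by rw [dist_comm]; exact hp1.1) haz
    (h.sub _ (by rw [hp1.mem]; simp))
  have h1 : ∀ x, ¬ P ⊆ {x} := by
    intro x hx
    have hpU : p ∈ U x := h.mem_of_single (by rw [hTp]; exact hx)
    have hxT : x ∈ T z := by
      obtain ⟨i, hi⟩ := h.ne p
      have h2 := hx (hTp ▸ hi)
      rw [mem_singleton_iff] at h2
      subst h2
      exact hP (hTp ▸ hi)
    exact h.mx.notMem (h.sub _ hxT) hp.1 hpU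
  have h2 : ∀ x, ¬ T z ⊆ insert x P := by
    intro x
    refine h.gap hzX hp.1 ?_ x
    filter_upwards [hp.2] with q hq
    rw [← hq]
    exact h.sub q
  have hPs : ∀ i ∈ P, i = a ∨ i = b ∨ i = c ∨ i = d := by
    intro i hi
    have := hP hi
    rw [hz.pal] at this
    simpa using this
  -- two colours missing, so at most two colours; at least two colours
  have e1 : ∀ x y, x ∈ P → y ∈ P → (∀ i ∈ P, i = x ∨ i = y) → P = {x, y} := by
    intro x y hx hy hall
    ext i
    simp only [mem_insert_iff, mem_singleton_iff]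
    exact ⟨hall i, by rintro (rfl | rfl) <;> assumption⟩
  have miss : ∀ x, (∀ i ∈ T z, i ∉ P → i = x) → False := by
    intro x hx
    refine h2 x fun i hi => ?_
    by_cases hiP : i ∈ P
    · exact Or.inr hiP
    · exact Or.inl (hx i hi hiP)
  have hzs : ∀ i ∈ T z, i = a ∨ i = b ∨ i = c ∨ i = d := by
    intro i hi; rw [hz.pal] at hi; simpa using hi
  by_cases ha : a ∈ P <;> by_cases hb : b ∈ P <;> by_cases hc : c ∈ P <;> by_cases hd : d ∈ P
  · exact (miss a fun i hi hiP => by rcases hzs i hi with rfl | rfl | rfl | rfl <;> tauto).elim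
  · exact (miss d fun i hi hiP => by rcases hzs i hi with rfl | rfl | rfl | rfl <;> tauto).elim
  · exact (miss c fun i hi hiP => by rcases hzs i hi with rfl | rfl | rfl | rfl <;> tauto).elim
  · exact Or.inl (e1 a b ha hb fun i hi => by
      rcases hPs i hi with rfl | rfl | rfl | rfl <;> tauto)
  · exact (miss b fun i hi hiP => by rcases hzs i hi with rfl | rfl | rfl | rfl <;> tauto).elim
  · exact (h.no_mixed_arc hz (e1 a c ha hc (fun i hi => by
      rcases hPs i hi with rfl | rfl | rfl | rfl <;> tauto) ▸ hp)).elim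
  · exact (h.no_mixed_arc hz.swap34 (e1 a d ha hd (fun i hi => by
      rcases hPs i hi with rfl | rfl | rfl | rfl <;> tauto) ▸ hp)).elim
  · exact (h1 a fun i hi => by rcases hPs i hi with rfl | rfl | rfl | rfl <;> simp <;> tauto).elim
  · exact (miss a fun i hi hiP => by rcases hzs i hi with rfl | rfl | rfl | rfl <;> tauto).elim
  · exact (h.no_mixed_arc hz.swap12 (e1 b c hb hc (fun i hi => by
      rcases hPs i hi with rfl | rfl | rfl | rfl <;> tauto) ▸ hp)).elim
  · exact (h.no_mixed_arc hz.swap12.swap34 (e1 b d hb hd (fun i hi => by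
      rcases hPs i hi with rfl | rfl | rfl | rfl <;> tauto) ▸ hp)).elim
  · exact (h1 b fun i hi => by rcases hPs i hi with rfl | rfl | rfl | rfl <;> simp <;> tauto).elim
  · exact Or.inr (e1 c d hc hd fun i hi => by
      rcases hPs i hi with rfl | rfl | rfl | rfl <;> tauto)
  · exact (h1 c fun i hi => by rcases hPs i hi with rfl | rfl | rfl | rfl <;> simp <;> tauto).elim
  · exact (h1 d fun i hi => by rcases hPs i hi with rfl | rfl | rfl | rfl <;> simp <;> tauto).elim
  · exact (h1 a fun i hi => by rcases hPs i hi with rfl | rfl | rfl | rfl <;> tauto).elim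

end Vale.Agent.P032.Six
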