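import Vale.Agent.P032.R2.H939.S2Flank

/-!
# P032, contact S2: the kinds of `y`
-/

open Set Filter Topology Metric

noncomputable section

namespace Vale.Agent.P032.Six

open Vale.Agent.P032.S5.H767

variable {U : Fin 6 → Set ℂ} {T : ℂ → Set (Fin 6)} {z y p : ℂ} {a b c d e f : Fin 6}

/-- a two-pair point with an exact arc `{p, q}`: the other pair is the complement -/
theorem Irr.dpt_of_arc (h : Irr U T) {y g : ℂ} {a' b' c' d' p q r s : Fin 6}
    (hD : DPt T y a' b' c' d') (hT : T y = {p, q, r, s}) (nd : [p, q, r, s].Nodup)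
    (hg : Arc T y g {p, q}) : DPt T y p q r s := by
  simp only [List.nodup_cons, List.mem_cons, not_or, List.not_mem_nil, not_false_eq_true,
    List.nodup_nil, and_true] at nd
  obtain ⟨⟨pq, pr, ps⟩, ⟨qr, qs⟩, rs⟩ := nd
  have hsub : ({p, q} : Set (Fin 6)) ⊆ T y := by
    rw [hT]; rintro i (rfl | hi)
    · simp
    · rw [mem_singleton_iff] at hi; subst hi; simp
  have main : ∀ {a' b' c' d' : Fin 6}, DPt T y a' b' c' d' → ({p, q} : Set (Fin 6)) = {a', b'} →
      DPt T y p q r s := by
    intro a' b' c' d' hD e1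
    obtain ⟨g2, hg2⟩ := hD.arc2
    have e2 : ({c', d'} : Set (Fin 6)) = {r, s} := by
      ext i
      constructor
      · intro hi
        have h1 : i ∈ T y := by rw [hD.pal]; rcases hi with rfl | hi
                                · simp
                                · rw [mem_singleton_iff] at hi; subst hi; simp
        have h2 : i ∉ ({p, q} : Set (Fin 6)) := by
          rw [e1]
          rintro (h2 | h2) <;> rcases hi with h3 | h3
          · exact hD.ac (h2.symm.trans h3)
          · exact hD.ad (h2.symm.trans h3)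
          · rw [mem_singleton_iff] at h2; exact hD.bc (h2.symm.trans h3)
          · rw [mem_singleton_iff] at h2; exact hD.bd (h2.symm.trans h3)
        rw [hT] at h1
        simp only [mem_insert_iff, mem_singleton_iff, not_or] at h1 h2 ⊢
        tauto
      · intro hi
        have h1 : i ∈ T y := by rw [hT]; rcases hi with rfl | hi
                                · simp
                                · rw [mem_singleton_iff] at hi; subst hi; simp
        have h2 : i ∉ ({a', b'} : Set (Fin 6)) := by
          rw [← e1]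
          rintro (h2 | h2) <;> rcases hi with h3 | h3
          · exact pr (h2.symm.trans h3)
          · exact ps (h2.symm.trans h3)
          · rw [mem_singleton_iff] at h2; exact qr (h2.symm.trans h3)
          · rw [mem_singleton_iff] at h2; exact qs (h2.symm.trans h3)
        rw [hD.pal] at h1
        simp only [mem_insert_iff, mem_singleton_iff, not_or] at h1 h2 ⊢
        tauto
    exact ⟨hT, pr, ps, qr, qs, pq, rs, ⟨g, hg⟩, ⟨g2, e2 ▸ hg2⟩⟩
  rcases h.dpt_pairs hD hg hsub with e1 | e1
  · exact main hD e1
  · exact main hD.swap e1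

namespace S2at

/-- `[Mn]`, **the kinds of `y`**: `bc | ae`, `ac | be`, or harmless with the pair `{b, c}` or
`{a, c}` -/
theorem kinds (C : S2at U T z y a b c d e f) (hmin : Mn U T) :
    DPt T y b c a e ∨ DPt T y a c b e ∨ Harm T y {b, c} ∨ Harm T y {a, c} := by
  have h := C.irr
  obtain ⟨⟨ab, ac, ad, ae, af⟩, ⟨bc, bd, be, bf⟩, ⟨cd, ce, cf⟩, ⟨de, df⟩, ef⟩ := C.ne
  have hT1 : T y = {b, c, a, e} := by
    rw [C.pal]; ext i; simp only [mem_insert_iff, mem_singleton_iff]; tauto
  have hT2 : T y = {a, c, b, e} := by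
    rw [C.pal]; ext i; simp only [mem_insert_iff, mem_singleton_iff]; tauto
  by_cases hD : ∃ a' b' c' d', DPt T y a' b' c' d'
  · obtain ⟨a', b', c', d', hD⟩ := hD
    rcases C.exists_arc with ⟨g, hg⟩ | ⟨g, hg⟩
    · exact Or.inl (h.dpt_of_arc hD hT1 (by simp [bc, ab.symm, be, ac.symm, ce, ae]) hg)
    · exact Or.inr (Or.inl (h.dpt_of_arc hD hT2 (by simp [ac, ab, ae, bc.symm, ce, be]) hg))
  · have key : ∀ x : Fin 6, x ∈ T y → x ≠ c → ∀ g, Arc T y g {x, c} → Harm T y {x, c} := by
      intro x hx hxc g hg
      obtain ⟨A, hA⟩ := h.harm_of_noD hmin C.card ⟨g, hg.1, by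
        rw [hg.mem]; rintro i (rfl | hi)
        · exact hx
        · rw [mem_singleton_iff] at hi; subst hi; exact C.c_mem⟩
        fun a' b' c' d' h' => hD ⟨a', b', c', d', h'⟩
      have h1 : A ⊆ {x, c} := by
        have := hA.h1 g hg.1 (by
          rw [hg.mem]; rintro i (rfl | hi)
          · exact hx
          · rw [mem_singleton_iff] at hi; subst hi; exact C.c_mem)
        rwa [hg.mem] at this
      have h2 : A = {x, c} :=
        Set.eq_of_subset_of_ncard_le h1 (by rw [hA.cardA, Set.ncard_pair hxc]) (Set.toFinite _)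
      rw [← h2]; exact hA
    rcases C.exists_arc with ⟨g, hg⟩ | ⟨g, hg⟩
    · exact Or.inr (Or.inr (Or.inl (key b C.b_mem bc g hg)))
    · exact Or.inr (Or.inr (Or.inr (key a C.a_mem ac g hg)))

end S2at

end Vale.Agent.P032.Six
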