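import Vale.Agent.P032.R2.H939.HW2
import Vale.Agent.P032.R2.H939.S2Kind
import Vale.Agent.P032.R2.H609.W2Conv
import Vale.Agent.P032.R2.H659.Tri

/-!
# P032: the world `WT`, no two four-coloured points of a circle at distance one

`z = {a, b | c, d}` in the world `WT`.

* `WT.no_tri_same`, `WT.no_tri_mixed`, `WT.no_tri` : two four-coloured points of `S(z)` are not at
  distance one;
* `WT.swap_s4r` : a neighbour of a contact `y` on `S(z)` which carries both missing colours `e, f`
  forces `y = {i, j | e, f}` with `i ∈ {a, b}`, `j ∈ {c, d}`;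
* `WT.conv_r` : every arc longer than 180 degrees contains a real end of class one or a contact
  `{i, j | e, f}`.
-/

open Set Filter Topology Metric

noncomputable section

namespace Vale.Agent.P032.Six

open Vale.Agent.P032.S5.H767

variable {U : Fin 6 → Set ℂ} {T : ℂ → Set (Fin 6)} {z y p : ℂ} {a b c d e f : Fin 6}

/-- the two missing colours -/
theorem exists_missing939 (hz : DPt T z a b c d) : ∃ e f : Fin 6, [a, b, c, d, e, f].Nodup := by
  obtain ⟨e, f, he, hf, hef⟩ : ∃ e f : Fin 6, e ∉ T z ∧ f ∉ T z ∧ e ≠ f := by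
    have h1 : (T z)ᶜ.ncard = 2 := by
      have := Set.ncard_add_ncard_compl (T z)
      rw [hz.card] at this
      simp at this
      omega
    obtain ⟨e, f, hef, hs⟩ := Set.ncard_eq_two.1 h1
    refine ⟨e, f, ?_, ?_, hef⟩
    · have : e ∈ (T z)ᶜ := by rw [hs]; simp
      exact this
    · have : f ∈ (T z)ᶜ := by rw [hs]; simp
      exact this
  have hea : ∀ i ∈ T z, e ≠ i ∧ f ≠ i := fun i hi =>
    ⟨fun h5 => he (h5 ▸ hi), fun h5 => hf (h5 ▸ hi)⟩
  have haz : a ∈ T z := by rw [hz.pal]; simp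
  have hbz : b ∈ T z := by rw [hz.pal]; simp
  have hcz : c ∈ T z := by rw [hz.pal]; simp
  have hdz : d ∈ T z := by rw [hz.pal]; simp
  exact ⟨e, f, by
    simp [hz.ab, hz.ac, hz.ad, hz.bc, hz.bd, hz.cd, (hea a haz).1.symm, (hea a haz).2.symm,
      (hea b hbz).1.symm, (hea b hbz).2.symm, (hea c hcz).1.symm, (hea c hcz).2.symm,
      (hea d hdz).1.symm, (hea d hdz).2.symm, hef]⟩

namespace WT

/-- **no triangle** with `{a, b, e, f}` and `{c, d, e, f}` -/
theorem no_tri_same (H : WT U T) (hmin : MinF U T) (hz : DPt T z a b c d)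
    (nd : [a, b, c, d, e, f].Nodup) (hyz : dist y z = 1) (hTy : T y = {a, b, e, f})
    (hpz : dist p z = 1) (hTp : T p = {c, d, e, f}) (hpy : dist p y = 1) : False := by
  have h := H.irr
  have hn := nd
  simp only [List.nodup_cons, List.mem_cons, List.not_mem_nil, or_false, not_or, List.nodup_nil,
    and_true, not_false_eq_true] at hn
  obtain ⟨⟨ab, ac, ad, ae, af⟩, ⟨bc, bd, be, bf⟩, ⟨cd, ce, cf⟩, ⟨de, df⟩, ef⟩ := hn
  have hyp : dist y p = 1 := by rw [dist_comm]; exact hpy
  have d1 : dist (z + y - p) z = 1 := by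
    rw [dist_eq_norm, show z + y - p - z = y - p by ring, ← dist_eq_norm]; exact hyp
  have d2 : dist (z + y - p) y = 1 := by
    rw [dist_eq_norm, show z + y - p - y = z - p by ring, ← dist_eq_norm, dist_comm]; exact hpz
  have d3 : dist (z + p - y) z = 1 := by
    rw [dist_eq_norm, show z + p - y - z = p - y by ring, ← dist_eq_norm]; exact hpy
  have d4 : dist (z + p - y) p = 1 := by
    rw [dist_eq_norm, show z + p - y - p = z - y by ring, ← dist_eq_norm, dist_comm]; exact hyz
  have h1 := H.flank_same hmin hz nd hyz hTy d1 d2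
  have h2 := H.flank_same hmin hz.swap (e := e) (f := f) (by
    simp only [List.nodup_cons, List.mem_cons, List.not_mem_nil, or_false, not_or, List.nodup_nil,
      and_true, not_false_eq_true]
    exact ⟨⟨cd, Ne.symm ac, Ne.symm bc, ce, cf⟩, ⟨Ne.symm ad, Ne.symm bd, de, df⟩, ⟨ab, ae, af⟩,
      ⟨be, bf⟩, ef⟩) hpz hTp d3 d4
  refine h.anti hz d3 (h.sub _ h2.1.1) (h.sub _ h2.1.2) ?_ ?_
  · rw [show 2 * z - (z + p - y) = z + y - p by ring]; exact h.sub _ h1.1.1
  · rw [show 2 * z - (z + p - y) = z + y - p by ring]; exact h.sub _ h1.1.2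

/-- **no triangle** with `{a, c, e, f}` and `{b, d, e, f}` -/
theorem no_tri_mixed (H : WT U T) (hmin : MinF U T) (hz : DPt T z a b c d)
    (nd : [a, b, c, d, e, f].Nodup) (hyz : dist y z = 1) (hTy : T y = {a, c, e, f})
    (hpz : dist p z = 1) (hTp : T p = {b, d, e, f}) (hpy : dist p y = 1) : False := by
  have h := H.irr
  have hn := nd
  simp only [List.nodup_cons, List.mem_cons, List.not_mem_nil, or_false, not_or, List.nodup_nil,
    and_true, not_false_eq_true] at hn
  obtain ⟨⟨ab, ac, ad, ae, af⟩, ⟨bc, bd, be, bf⟩, ⟨cd, ce, cf⟩, ⟨de, df⟩, ef⟩ := hn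
  have hzy : dist z y = 1 := by rw [dist_comm]; exact hyz
  have hzp : dist z p = 1 := by rw [dist_comm]; exact hpz
  have hyp : dist y p = 1 := by rw [dist_comm]; exact hpy
  -- `y = ac | ef` and `p = bd | ef` are triangles of the first kind
  have ky : DPt T y a c e f → False := by
    intro hD
    refine H.no_tri_same hmin (z := y) (y := z) (p := p) (a := a) (b := c) (c := e) (d := f)
      (e := b) (f := d) hD ?_ hzy ?_ hpy ?_ hpz
    · simp only [List.nodup_cons, List.mem_cons, List.not_mem_nil, or_false, not_or,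
        List.nodup_nil, and_true, not_false_eq_true]
      exact ⟨⟨ac, ae, af, ab, ad⟩, ⟨ce, cf, Ne.symm bc, cd⟩, ⟨ef, Ne.symm be, Ne.symm de⟩,
        ⟨Ne.symm bf, Ne.symm df⟩, bd⟩
    · rw [hz.pal]; ext m; simp only [mem_insert_iff, mem_singleton_iff]; tauto
    · rw [hTp]; ext m; simp only [mem_insert_iff, mem_singleton_iff]; tauto
  have kp : DPt T p b d e f → False := by
    intro hD
    refine H.no_tri_same hmin (z := p) (y := z) (p := y) (a := b) (b := d) (c := e) (d := f)
      (e := a) (f := c) hD ?_ hzp ?_ hyp ?_ hyz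
    · simp only [List.nodup_cons, List.mem_cons, List.not_mem_nil, or_false, not_or,
        List.nodup_nil, and_true, not_false_eq_true]
      exact ⟨⟨bd, be, bf, Ne.symm ab, bc⟩, ⟨de, df, Ne.symm ad, Ne.symm cd⟩,
        ⟨ef, Ne.symm ae, Ne.symm ce⟩, ⟨Ne.symm af, Ne.symm cf⟩, ac⟩
    · rw [hz.pal]; ext m; simp only [mem_insert_iff, mem_singleton_iff]; tauto
    · rw [hTy]; ext m; simp only [mem_insert_iff, mem_singleton_iff]; tauto
  have hy4 : (T y).ncard = 4 := by
    rw [hTy]; exact card_four (by simp [ac, ae, af, ce, cf, ef])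
  have hp4 : (T p).ncard = 4 := by
    rw [hTp]; exact card_four (by simp [bd, be, bf, de, df, ef])
  obtain ⟨n1, n2⟩ := off609 hyz hpz
  rcases h.tri hz hpz hpy n1 n2 hTp (by rw [hTy]; simp) (by rw [hTy]; simp) with h1 | h1
  · -- an exact `bd`-arc of `S(p)`
    obtain ⟨q, hq⟩ := h1.exists
    have hqs : ({b, d} : Set (Fin 6)) ⊆ T p := by
      rw [hTp]; rintro i (rfl | hi)
      · simp
      · rw [mem_singleton_iff] at hi; rw [hi]; simp
    rcases H.cases hmin hp4 with ⟨B, hB⟩ | ⟨p1, q1, r1, s1, hD⟩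
    · have h2 : B ⊆ {b, d} := by
        have := hB.h1 q hq.1 (by rw [hq.mem]; exact hqs)
        rwa [hq.mem] at this
      have h3 : B = {b, d} :=
        Set.eq_of_subset_of_ncard_le h2 (by rw [hB.cardA, Set.ncard_pair bd]) (Set.toFinite _)
      subst h3
      refine H.no_hmix_ac hmin (z := z) (y := p) (a := b) (b := a) (c := d) (d := c) (e := e)
        (f := f) hz.swap12.swap34 ?_ hpz hTp hB
      simp only [List.nodup_cons, List.mem_cons, List.not_mem_nil, or_false, not_or,
        List.nodup_nil, and_true, not_false_eq_true]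
      exact ⟨⟨Ne.symm ab, bd, bc, be, bf⟩, ⟨ad, ac, ae, af⟩, ⟨Ne.symm cd, de, df⟩, ⟨ce, cf⟩, ef⟩
    · exact kp (h.dpt_of_arc hD hTp (by simp [bd, be, bf, de, df, ef]) hq)
  · -- an exact `ef`-arc of `S(y)`
    obtain ⟨q, hq⟩ := h1.exists
    have hqs : ({e, f} : Set (Fin 6)) ⊆ T y := by
      rw [hTy]; rintro i (rfl | hi)
      · simp
      · rw [mem_singleton_iff] at hi; rw [hi]; simp
    rcases H.cases hmin hy4 with ⟨B, hB⟩ | ⟨p1, q1, r1, s1, hD⟩
    · have h2 : B ⊆ {e, f} := by
        have := hB.h1 q hq.1 (by rw [hq.mem]; exact hqs)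
        rwa [hq.mem] at this
      have h3 : B = {e, f} :=
        Set.eq_of_subset_of_ncard_le h2 (by rw [hB.cardA, Set.ncard_pair ef]) (Set.toFinite _)
      subst h3
      exact h.hmix_ne hz nd hyz hTy hB
    · have hT' : T y = {e, f, a, c} := by
        rw [hTy]; ext m; simp only [mem_insert_iff, mem_singleton_iff]; tauto
      exact ky (h.dpt_of_arc hD hT' (by simp [ef, Ne.symm ae, Ne.symm ce, Ne.symm af, Ne.symm cf,
        ac]) hq).swap

/-- a palette inside four colours, two of which are missing -/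
theorem pal_of {S : Set (Fin 6)} {i j : Fin 6} (hS : S ⊆ {i, j, e, f})
    (h4 : 4 ≤ S.ncard) (nd : [i, j, e, f].Nodup) : S = {i, j, e, f} :=
  Set.eq_of_subset_of_ncard_le hS (by rw [card_four nd]; exact h4) (Set.toFinite _)

/-- **no two four-coloured points of the circle of a two-pair point are at distance one** -/
theorem no_tri (H : WT U T) (hmin : MinF U T) (hz : DPt T z a b c d) (hyz : dist y z = 1)
    (hpz : dist p z = 1) (hpy : dist p y = 1) (hy4 : 4 ≤ (T y).ncard) (hp4 : 4 ≤ (T p).ncard) :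
    False := by
  have h := H.irr
  obtain ⟨e, f, nd⟩ := exists_missing939 hz
  have hall := all_six nd
  have hn := nd
  simp only [List.nodup_cons, List.mem_cons, List.not_mem_nil, or_false, not_or, List.nodup_nil,
    and_true, not_false_eq_true] at hn
  obtain ⟨⟨ab, ac, ad, ae, af⟩, ⟨bc, bd, be, bf⟩, ⟨cd, ce, cf⟩, ⟨de, df⟩, ef⟩ := hn
  have hy4' : (T y).ncard = 4 := by have := H.le4 hz.card.ge hyz; omega
  have hp4' : (T p).ncard = 4 := by have := H.le4 hz.card.ge hpz; omega
  obtain ⟨i, j, hij, hi, hj, hTy⟩ := H.contact_pal hz nd hyz hy4'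
  obtain ⟨k, l, hkl, hk, hl, hTp⟩ := H.contact_pal hz nd hpz hp4'
  have pe : e ∈ T p := by rw [hTp]; simp
  have pf : f ∈ T p := by rw [hTp]; simp
  have ye : e ∈ T y := by rw [hTy]; simp
  have yf : f ∈ T y := by rw [hTy]; simp
  have hoff : ∀ m ∈ T z, m ∈ T y → m ∉ T p := by
    intro m hmz hmy hmp
    refine H.no_three hpy hp4' hy4' (i := m) (j := e) (m := f) ?_ ?_ ef ⟨hmp, hmy⟩ ⟨pe, ye⟩
      ⟨pf, yf⟩
    · rw [hz.pal] at hmz
      rcases hmz with h1 | h1 | h1 | h1 <;> rw [h1]
      exacts [ae, be, ce, de]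
    · rw [hz.pal] at hmz
      rcases hmz with h1 | h1 | h1 | h1 <;> rw [h1]
      exacts [af, bf, cf, df]
  have yi : i ∈ T y := by rw [hTy]; simp
  have yj : j ∈ T y := by rw [hTy]; simp
  have pi : i ∉ T p := hoff i hi yi
  have pj : j ∉ T p := hoff j hj yj
  have key : ∀ {a b c d : Fin 6}, DPt T z a b c d → [a, b, c, d, e, f].Nodup → T y = {a, b, e, f} →
      a ∉ T p → b ∉ T p → False := by
    intro a b c d hz nd hTy h1 h2
    have hall := all_six nd
    simp only [List.nodup_cons, List.mem_cons, List.not_mem_nil, or_false, not_or,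
      List.nodup_nil, and_true, not_false_eq_true] at nd
    obtain ⟨⟨ab, ac, ad, ae, af⟩, ⟨bc, bd, be, bf⟩, ⟨cd, ce, cf⟩, ⟨de, df⟩, ef⟩ := nd
    refine H.no_tri_same hmin hz (by simp [ab, ac, ad, ae, af, bc, bd, be, bf, cd, ce, cf, de, df,
      ef]) hyz hTy hpz (pal_of (fun m hm => ?_) hp4 (by simp [cd, ce, cf, de, df, ef])) hpy
    rcases hall m with h3 | h3 | h3 | h3 | h3 | h3
    · exact absurd (h3 ▸ hm) h1
    · exact absurd (h3 ▸ hm) h2
    · left; exact h3
    · right; left; exact h3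
    · right; right; left; exact h3
    · right; right; right; exact h3
  have key2 : ∀ {a b c d : Fin 6}, DPt T z a b c d → [a, b, c, d, e, f].Nodup →
      T y = {a, c, e, f} → a ∉ T p → c ∉ T p → False := by
    intro a b c d hz nd hTy h1 h2
    have hall := all_six nd
    simp only [List.nodup_cons, List.mem_cons, List.not_mem_nil, or_false, not_or,
      List.nodup_nil, and_true, not_false_eq_true] at nd
    obtain ⟨⟨ab, ac, ad, ae, af⟩, ⟨bc, bd, be, bf⟩, ⟨cd, ce, cf⟩, ⟨de, df⟩, ef⟩ := nd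
    refine H.no_tri_mixed hmin hz (by simp [ab, ac, ad, ae, af, bc, bd, be, bf, cd, ce, cf, de, df,
      ef]) hyz hTy hpz (pal_of (fun m hm => ?_) hp4 (by simp [bd, be, bf, de, df, ef])) hpy
    rcases hall m with h3 | h3 | h3 | h3 | h3 | h3
    · exact absurd (h3 ▸ hm) h1
    · left; exact h3
    · exact absurd (h3 ▸ hm) h2
    · right; left; exact h3
    · right; right; left; exact h3
    · right; right; right; exact h3
  have nd12 : [b, a, c, d, e, f].Nodup := by
    simp [Ne.symm ab, ac, ad, ae, af, bc, bd, be, bf, cd, ce, cf, de, df, ef]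
  have nd34 : [a, b, d, c, e, f].Nodup := by
    simp [ab, ac, ad, ae, af, bc, bd, be, bf, Ne.symm cd, ce, cf, de, df, ef]
  have nd1234 : [b, a, d, c, e, f].Nodup := by
    simp [Ne.symm ab, ac, ad, ae, af, bc, bd, be, bf, Ne.symm cd, ce, cf, de, df, ef]
  have ndsw : [c, d, a, b, e, f].Nodup := by
    simp [ab, Ne.symm ac, Ne.symm ad, ae, af, Ne.symm bc, Ne.symm bd, be, bf, cd, ce, cf, de, df,
      ef]
  have sw : ∀ u v : Fin 6, ({u, v, e, f} : Set (Fin 6)) = {v, u, e, f} := by
    intro u v; ext m; simp only [mem_insert_iff, mem_singleton_iff]; tauto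
  rw [hz.pal] at hi hj
  rcases hi with h1 | h1 | h1 | h1 <;> rcases hj with h2 | h2 | h2 | h2 <;>
    rw [h1] at pi <;> rw [h2] at pj <;> rw [h1, h2] at hTy
  · exact absurd (h1.trans h2.symm) hij
  · exact key hz nd hTy pi pj
  · exact key2 hz nd hTy pi pj
  · exact key2 hz.swap34 nd34 hTy pi pj
  · exact key hz nd (hTy.trans (sw _ _)) pj pi
  · exact absurd (h1.trans h2.symm) hij
  · exact key2 hz.swap12 nd12 hTy pi pj
  · exact key2 hz.swap12.swap34 nd1234 hTy pi pj
  · exact key2 hz nd (hTy.trans (sw _ _)) pj pi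
  · exact key2 hz.swap12 nd12 (hTy.trans (sw _ _)) pj pi
  · exact absurd (h1.trans h2.symm) hij
  · exact key hz.swap ndsw hTy pi pj
  · exact key2 hz.swap34 nd34 (hTy.trans (sw _ _)) pj pi
  · exact key2 hz.swap12.swap34 nd1234 (hTy.trans (sw _ _)) pj pi
  · exact key hz.swap ndsw (hTy.trans (sw _ _)) pj pi
  · exact absurd (h1.trans h2.symm) hij

/-- a contact `y` with a neighbour on `S(z)` carrying both missing colours, one set of names -/
theorem swap_aux (H : WT U T) (hmin : MinF U T) (hz : DPt T z a b c d)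
    (nd : [a, b, c, d, e, f].Nodup) (hyz : dist y z = 1) (hpz : dist p z = 1) (hpy : dist p y = 1)
    (hy4 : 4 ≤ (T y).ncard) (he : e ∈ T p) (hf : f ∈ T p) :
    ∃ q, dist q y = 1 ∧ T q ⊆ {e, f} := by
  by_contra hcon
  push Not at hcon
  have h := H.irr
  have hp3 : (T p).ncard ≤ 3 := by
    by_contra h4
    exact H.no_tri hmin hz hyz hpz hpy hy4 (by omega)
  have hall := all_six nd
  simp only [List.nodup_cons, List.mem_cons, List.not_mem_nil, or_false, not_or, List.nodup_nil,
    and_true, not_false_eq_true] at nd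
  obtain ⟨⟨ab, ac, ad, ae, af⟩, ⟨bc, bd, be, bf⟩, ⟨cd, ce, cf⟩, ⟨de, df⟩, ef⟩ := nd
  obtain ⟨x, hxz, hx⟩ : ∃ x ∈ T z, T p ⊆ insert x {e, f} := by
    by_cases hx : ∃ x ∈ T p, x ≠ e ∧ x ≠ f
    · obtain ⟨x, hx, hxe, hxf⟩ := hx
      refine ⟨x, ?_, ?_⟩
      · rw [hz.pal]
        rcases hall x with h1 | h1 | h1 | h1 | h1 | h1
        · left; exact h1
        · right; left; exact h1
        · right; right; left; exact h1
        · right; right; right; exact h1
        · exact absurd h1 hxe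
        · exact absurd h1 hxf
      · intro i hi
        by_cases h1 : i = x
        · left; exact h1
        by_cases h2 : i = e
        · right; left; exact h2
        by_cases h4 : i = f
        · right; right; exact h4
        exact (four_false hp3 he hf hx hi ef (Ne.symm hxe) (Ne.symm h2) (Ne.symm hxf)
          (Ne.symm h4) (Ne.symm h1)).elim
    · push Not at hx
      refine ⟨a, by rw [hz.pal]; simp, fun i hi => ?_⟩
      by_cases h2 : i = e
      · right; left; exact h2
      · right; right; exact hx i hi h2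
  exact lemmaFz h hpz hyz hpy (s := {e, f}) hcon hx hxz

/-- **a neighbour with both missing colours**: the contact is `{i, j | e, f}` -/
theorem swap_s4r (H : WT U T) (hmin : MinF U T) (hz : DPt T z a b c d)
    (nd : [a, b, c, d, e, f].Nodup) (hyz : dist y z = 1) (hpz : dist p z = 1) (hpy : dist p y = 1)
    (hy4 : 4 ≤ (T y).ncard) (he : e ∈ T p) (hf : f ∈ T p) :
    ∃ i j, (i = a ∨ i = b) ∧ (j = c ∨ j = d) ∧ DPt T y i j e f := by
  have h := H.irr
  obtain ⟨q, hq, hqs⟩ := H.swap_aux hmin hz nd hyz hpz hpy hy4 he hf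
  have hn := nd
  simp only [List.nodup_cons, List.mem_cons, List.not_mem_nil, or_false, not_or, List.nodup_nil,
    and_true, not_false_eq_true] at hn
  obtain ⟨⟨ab, ac, ad, ae, af⟩, ⟨bc, bd, be, bf⟩, ⟨cd, ce, cf⟩, ⟨de, df⟩, ef⟩ := hn
  have hy4' : (T y).ncard = 4 := by have := H.le4 hz.card.ge hyz; omega
  have nd12 : [b, a, c, d, e, f].Nodup := by
    simp [Ne.symm ab, ac, ad, ae, af, bc, bd, be, bf, cd, ce, cf, de, df, ef]
  have nd34 : [a, b, d, c, e, f].Nodup := by
    simp [ab, ac, ad, ae, af, bc, bd, be, bf, Ne.symm cd, ce, cf, de, df, ef]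
  have nd1234 : [b, a, d, c, e, f].Nodup := by
    simp [Ne.symm ab, ac, ad, ae, af, bc, bd, be, bf, Ne.symm cd, ce, cf, de, df, ef]
  have ndsw : [c, d, a, b, e, f].Nodup := by
    simp [ab, Ne.symm ac, Ne.symm ad, ae, af, Ne.symm bc, Ne.symm bd, be, bf, cd, ce, cf, de, df,
      ef]
  -- the pair `{e, f}` of `y`
  have kind : ∀ i j : Fin 6, T y = {i, j, e, f} → [i, j, e, f].Nodup →
      Harm T y {e, f} ∨ DPt T y i j e f := by
    intro i j hT hnd
    have hef : ({e, f} : Set (Fin 6)) ⊆ T y := by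
      rw [hT]; rintro m (rfl | hm)
      · simp
      · rw [mem_singleton_iff] at hm; rw [hm]; simp
    rcases H.cases hmin hy4' with ⟨A, hA⟩ | ⟨p1, q1, r1, s1, hD⟩
    · left
      have h1 : A ⊆ {e, f} := (hA.h1 q hq (hqs.trans hef)).trans hqs
      have h2 : A = {e, f} :=
        Set.eq_of_subset_of_ncard_le h1 (by rw [hA.cardA, Set.ncard_pair ef]) (Set.toFinite _)
      rw [← h2]; exact hA
    · right
      have h1 : T q = {e, f} := by
        rcases H.inside hD hq (hqs.trans hef) with h1 | h1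
        · exact h1.trans (Set.eq_of_subset_of_ncard_le (h1 ▸ hqs)
            (by rw [Set.ncard_pair hD.ab, Set.ncard_pair ef]) (Set.toFinite _))
        · exact h1.trans (Set.eq_of_subset_of_ncard_le (h1 ▸ hqs)
            (by rw [Set.ncard_pair hD.cd, Set.ncard_pair ef]) (Set.toFinite _))
      rcases hD.ways hT hnd with h2 | h2 | h2
      · exact h2
      · exfalso
        simp only [List.nodup_cons, List.mem_cons, List.not_mem_nil, or_false, not_or,
          List.nodup_nil, and_true, not_false_eq_true] at hnd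
        rcases H.inside h2 hq (hqs.trans hef) with h3 | h3
        · have h4 : i ∈ T q := by rw [h3]; simp
          rw [h1] at h4
          rcases h4 with h4 | h4
          · exact hnd.1.2.1 h4
          · exact hnd.1.2.2 h4
        · have h4 : j ∈ T q := by rw [h3]; simp
          rw [h1] at h4
          rcases h4 with h4 | h4
          · exact hnd.2.1.1 h4
          · exact hnd.2.1.2 h4
      · exfalso
        simp only [List.nodup_cons, List.mem_cons, List.not_mem_nil, or_false, not_or,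
          List.nodup_nil, and_true, not_false_eq_true] at hnd
        rcases H.inside h2 hq (hqs.trans hef) with h3 | h3
        · have h4 : i ∈ T q := by rw [h3]; simp
          rw [h1] at h4
          rcases h4 with h4 | h4
          · exact hnd.1.2.1 h4
          · exact hnd.1.2.2 h4
        · have h4 : j ∈ T q := by rw [h3]; simp
          rw [h1] at h4
          rcases h4 with h4 | h4
          · exact hnd.2.1.1 h4
          · exact hnd.2.1.2 h4
  have same : ∀ {a b c d : Fin 6}, DPt T z a b c d → [a, b, c, d, e, f].Nodup →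
      T y = {a, b, e, f} → False := by
    intro a b c d hz nd hTy
    have hn := nd
    simp only [List.nodup_cons, List.mem_cons, List.not_mem_nil, or_false, not_or,
      List.nodup_nil, and_true, not_false_eq_true] at hn
    obtain ⟨⟨ab, ac, ad, ae, af⟩, ⟨bc, bd, be, bf⟩, ⟨cd, ce, cf⟩, ⟨de, df⟩, ef⟩ := hn
    rcases kind a b hTy (by simp [ab, ae, af, be, bf, ef]) with h1 | h1
    · exact H.no_harm hmin hz nd hyz hTy h1
    · exact H.no_lock hz hyz h1
  have mixed : ∀ {a b c d : Fin 6}, DPt T z a b c d → [a, b, c, d, e, f].Nodup →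
      T y = {a, c, e, f} → DPt T y a c e f := by
    intro a b c d hz nd hTy
    have hn := nd
    simp only [List.nodup_cons, List.mem_cons, List.not_mem_nil, or_false, not_or,
      List.nodup_nil, and_true, not_false_eq_true] at hn
    obtain ⟨⟨ab, ac, ad, ae, af⟩, ⟨bc, bd, be, bf⟩, ⟨cd, ce, cf⟩, ⟨de, df⟩, ef⟩ := hn
    rcases kind a c hTy (by simp [ac, ae, af, ce, cf, ef]) with h1 | h1
    · exact (h.hmix_ne hz nd hyz hTy h1).elim
    · exact h1
  have sw : ∀ u v : Fin 6, ({u, v, e, f} : Set (Fin 6)) = {v, u, e, f} := by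
    intro u v; ext m; simp only [mem_insert_iff, mem_singleton_iff]; tauto
  obtain ⟨i, j, hij, hi, hj, hTy⟩ := H.contact_pal hz nd hyz hy4'
  rw [hz.pal] at hi hj
  rcases hi with h1 | h1 | h1 | h1 <;> rcases hj with h2 | h2 | h2 | h2 <;> rw [h1, h2] at hTy
  · exact absurd (h1.trans h2.symm) hij
  · exact (same hz nd hTy).elim
  · exact ⟨a, c, Or.inl rfl, Or.inl rfl, mixed hz nd hTy⟩
  · exact ⟨a, d, Or.inl rfl, Or.inr rfl, mixed hz.swap34 nd34 hTy⟩
  · exact (same hz nd (hTy.trans (sw _ _))).elim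
  · exact absurd (h1.trans h2.symm) hij
  · exact ⟨b, c, Or.inr rfl, Or.inl rfl, mixed hz.swap12 nd12 hTy⟩
  · exact ⟨b, d, Or.inr rfl, Or.inr rfl, mixed hz.swap12.swap34 nd1234 hTy⟩
  · exact ⟨a, c, Or.inl rfl, Or.inl rfl, mixed hz nd (hTy.trans (sw _ _))⟩
  · exact ⟨b, c, Or.inr rfl, Or.inl rfl, mixed hz.swap12 nd12 (hTy.trans (sw _ _))⟩
  · exact absurd (h1.trans h2.symm) hij
  · exact (same hz.swap ndsw hTy).elim
  · exact ⟨a, d, Or.inl rfl, Or.inr rfl, mixed hz.swap34 nd34 (hTy.trans (sw _ _))⟩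
  · exact ⟨b, d, Or.inr rfl, Or.inr rfl, mixed hz.swap12.swap34 nd1234 (hTy.trans (sw _ _))⟩
  · exact (same hz.swap ndsw (hTy.trans (sw _ _))).elim
  · exact absurd (h1.trans h2.symm) hij

/-- a contact of type S4r: `{i, j | e, f}` with `i ∈ {a, b}`, `j ∈ {c, d}` -/
def RCt (T : ℂ → Set (Fin 6)) (a b c d e f : Fin 6) (y : ℂ) : Prop :=
  ∃ i j, (i = a ∨ i = b) ∧ (j = c ∨ j = d) ∧ DPt T y i j e f

/-- **Convexity in the world `WT`**, class one: every arc longer than 180 degrees contains an end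
`{a, b, e}` or `{c, d, f}` of an exact arc, or a contact `{i, j | e, f}` -/
theorem conv_r (H : WT U T) (hmin : MinF U T) (hz : DPt T z a b c d)
    (nd : [a, b, c, d, e, f].Nodup) {x y : ℝ} (hxy : x + 3 < y) :
    ∃ u ∈ Ioo x y, REnd T z a b c d e f (pt z u) ∨ RCt T a b c d e f (pt z u) := by
  rcases H.conv hmin hz nd hxy with ⟨u, hu, h1⟩ | ⟨u, hu, h4, hu1, hu2⟩
  · exact ⟨u, hu, Or.inl h1⟩
  · rcases h4 with h4 | h4
    · refine ⟨u, ⟨hu.1, by linarith [hu.2]⟩, Or.inr ?_⟩
      exact H.swap_s4r hmin hz nd (dist_pt z u) (dist_pt z (u + 1))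
        (by rw [dist_comm]; exact dist_pt_one z u) h4 hu2.1 hu2.2
    · refine ⟨u + 1, ⟨by linarith [hu.1], by linarith [hu.2]⟩, Or.inr ?_⟩
      exact H.swap_s4r hmin hz nd (dist_pt z (u + 1)) (dist_pt z u) (dist_pt_one z u) h4
        hu1.1 hu1.2

/-- class two -/
theorem conv_r' (H : WT U T) (hmin : MinF U T) (hz : DPt T z a b c d)
    (nd : [a, b, c, d, e, f].Nodup) {x y : ℝ} (hxy : x + 3 < y) :
    ∃ u ∈ Ioo x y, REnd T z a b c d f e (pt z u) ∨ RCt T a b c d e f (pt z u) := by
  rcases H.conv' hmin hz nd hxy with ⟨u, hu, h1⟩ | ⟨u, hu, h4, hu1, hu2⟩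
  · exact ⟨u, hu, Or.inl h1⟩
  · rcases h4 with h4 | h4
    · refine ⟨u, ⟨hu.1, by linarith [hu.2]⟩, Or.inr ?_⟩
      exact H.swap_s4r hmin hz nd (dist_pt z u) (dist_pt z (u + 1))
        (by rw [dist_comm]; exact dist_pt_one z u) h4 hu2.1 hu2.2
    · refine ⟨u + 1, ⟨by linarith [hu.1], by linarith [hu.2]⟩, Or.inr ?_⟩
      exact H.swap_s4r hmin hz nd (dist_pt z (u + 1)) (dist_pt z u) (dist_pt_one z u) h4
        hu1.1 hu1.2

end WT

end Vale.Agent.P032.Six
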