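import Vale.Agent.P032.R2.H939.RawN
import Vale.Agent.P032.R2.H659.Tie3
import Vale.Agent.P032.R2.H833.Rule2Top

/-!
# P032: exact arcs of a two-pair point without contacts S4, S4r end in three-coloured points

No bound for the orders of the points.

* `WT.no_crossedH` : `z` without contacts S4r, the contacts `{c, d, e, f}` harmless: a harmless contact
  `{a, b, e, f}` with the arc pair `{a, e}` is not an end.
* `WT.end3H` : `z` without contacts S4r, the contacts with a pair of `z` harmless: exact arcs of `z` end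
  in three-coloured points.
* `WT.raw3N` : the word of `z` is a `RawT3`.
* `NoD T z`: no point of `S(z)` is a two-pair point; `WT.end3N` for such centres.
-/

open Set Filter Topology Metric

noncomputable section

namespace Vale.Agent.P032.Six

open Vale.Agent.P032.S5.H767 Vale.Agent.P032.Words

variable {U : Fin 6 → Set ℂ} {T : ℂ → Set (Fin 6)} {z y p q x : ℂ} {a b c d e f : Fin 6}

/-- no point of `S(z)` is a two-pair point -/
def NoD (T : ℂ → Set (Fin 6)) (z : ℂ) : Prop :=
  ∀ (y : ℂ) (i j m n : Fin 6), dist y z = 1 → ¬ DPt T y i j m n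

theorem NoD.noR (h : NoD T z) : NoR T z := fun y i j m n hy hD _ _ => h y i j m n hy hD

/-- the first point outside an open set, to the right -/
theorem first_right {O : Set ℝ} (hO : IsOpen O) {u w : ℝ} (hu : u ∈ O) (hw : w ∉ O) (huw : u < w) :
    ∃ r, u < r ∧ r ≤ w ∧ r ∉ O ∧ ∀ v, u ≤ v → v < r → v ∈ O := by
  have hS : IsClosed (Ici u ∩ Oᶜ) := isClosed_Ici.inter hO.isClosed_compl
  have hne : (Ici u ∩ Oᶜ).Nonempty := ⟨w, huw.le, hw⟩
  have hbd : BddBelow (Ici u ∩ Oᶜ) := ⟨u, fun v hv => hv.1⟩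
  have hr := hS.csInf_mem hne hbd
  refine ⟨sInf (Ici u ∩ Oᶜ), ?_, csInf_le hbd ⟨huw.le, hw⟩, hr.2, fun v h1 h2 => ?_⟩
  · refine lt_of_le_of_ne hr.1 fun h => hr.2 ?_
    rw [← h]; exact hu
  · by_contra h3
    exact absurd (csInf_le hbd ⟨h1, h3⟩) (not_le.2 h2)

/-- the first point outside an open set, to the left -/
theorem first_left {O : Set ℝ} (hO : IsOpen O) {u w : ℝ} (hu : u ∈ O) (hw : w ∉ O) (huw : w < u) :
    ∃ r, r < u ∧ w ≤ r ∧ r ∉ O ∧ ∀ v, v ≤ u → r < v → v ∈ O := by
  have hS : IsClosed (Iic u ∩ Oᶜ) := isClosed_Iic.inter hO.isClosed_compl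
  have hne : (Iic u ∩ Oᶜ).Nonempty := ⟨w, huw.le, hw⟩
  have hbd : BddAbove (Iic u ∩ Oᶜ) := ⟨u, fun v hv => hv.1⟩
  have hr := hS.csSup_mem hne hbd
  refine ⟨sSup (Iic u ∩ Oᶜ), ?_, le_csSup hbd ⟨huw.le, hw⟩, hr.2, fun v h1 h2 => ?_⟩
  · refine lt_of_le_of_ne hr.1 fun h => hr.2 ?_
    rw [h]; exact hu
  · by_contra h3
    exact absurd (le_csSup hbd ⟨h1, h3⟩) (not_le.2 h2)

/-- **the two ends of the exact arcs in a half circle** -/
theorem two_ends (h : Irr U T) {P : Set (Fin 6)} (hP2 : P.ncard = 2) (hPz : P ⊆ T z) {s t u : ℝ}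
    (hs : pt z s ∉ closure (Ex T z P)) (ht : pt z t ∉ closure (Ex T z P)) (hu : u ∈ Ioo s t)
    (hcl : pt z u ∈ closure (Ex T z P)) :
    ∃ l r, s < l ∧ l < r ∧ r < t ∧ pt z l ∈ closure (Ex T z P) ∧ T (pt z l) ≠ P ∧
      pt z r ∈ closure (Ex T z P) ∧ T (pt z r) ≠ P := by
  set O : Set ℝ := {v | pt z v ∈ Ex T z P} with hOdef
  have hO : IsOpen O := by
    rw [isOpen_iff_mem_nhds]
    intro v hv
    exact ev_pt z (ex_open hv)
  obtain ⟨v, hv, hvI⟩ : ∃ v, v ∈ O ∧ v ∈ Ioo s t := by
    have h1 : ∃ᶠ v in 𝓝 u, v ∈ O := by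
      intro h2
      have h3 := ev_sphere (z := z) (u := u) (p := fun q => q ∉ Ex T z P) h2
      rw [eventually_nhdsWithin_iff] at h3
      obtain ⟨q, hq1, hq2⟩ := mem_closure_iff_nhds.1 hcl _ h3
      exact hq1 hq2.1 hq2
    obtain ⟨v, h2, h3⟩ := (h1.and_eventually (Ioo_mem_nhds hu.1 hu.2)).exists
    exact ⟨v, h2, h3⟩
  have hex : ∀ {w : ℝ}, w ∉ O → T (pt z w) ≠ P := by
    intro w hw hT
    exact hw ⟨dist_pt z w, h.pair_open hP2 hPz hT.subset⟩
  have hsO : s ∉ O := fun h' => hs (subset_closure h')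
  have htO : t ∉ O := fun h' => ht (subset_closure h')
  obtain ⟨r, r1, r2, r3, r4⟩ := first_right hO hv htO hvI.2
  obtain ⟨l, l1, l2, l3, l4⟩ := first_left hO hv hsO hvI.1
  have hrcl : pt z r ∈ closure (Ex T z P) := by
    have h1 : r ∈ closure (Ioo v r) := by
      rw [closure_Ioo r1.ne]; exact ⟨r1.le, le_rfl⟩
    have h2 := image_closure_subset_closure_image (continuous_pt z) (mem_image_of_mem (pt z) h1)
    refine closure_mono ?_ h2
    rintro _ ⟨w, hw, rfl⟩
    exact r4 w hw.1.le hw.2
  have hlcl : pt z l ∈ closure (Ex T z P) := by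
    have h1 : l ∈ closure (Ioo l v) := by
      rw [closure_Ioo l1.ne]; exact ⟨le_rfl, l1.le⟩
    have h2 := image_closure_subset_closure_image (continuous_pt z) (mem_image_of_mem (pt z) h1)
    refine closure_mono ?_ h2
    rintro _ ⟨w, hw, rfl⟩
    exact l4 w hw.2.le hw.1
  refine ⟨l, r, lt_of_le_of_ne l2 ?_, l1.trans r1, lt_of_le_of_ne r2 ?_, hlcl, hex l3, hrcl, hex r3⟩
  · rintro rfl; exact hs hlcl
  · rintro rfl; exact ht hrcl

namespace WT

/-- over the limits of the `cd`-arcs of `z` the circle of a harmless contact `{a, b, e, f}` carries its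
arc pair -/
theorem over_cl (H : WT U T) (hz : DPt T z a b c d) (nd : [a, b, c, d, e, f].Nodup)
    (hyz : dist y z = 1) (hTy : T y = {a, b, e, f}) {A : Set (Fin 6)} (hy : Harm T y A)
    (hq : q ∈ closure (Ex T z {c, d})) : A ⊆ T (y + q - z) := by
  intro i hi
  have h1 : closure (Ex T z {c, d}) ⊆ {x | i ∈ T (y + x - z)} := by
    refine closure_minimal (fun x hx => ?_) ?_
    · have h2 := H.over_same hz nd hyz hTy (g := x) hx
      refine hy.h1 _ ?_ h2 hi
      rw [dist_eq_norm, show y + x - z - y = x - z by ring, ← dist_eq_norm]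
      exact hx.1
    · have hc : Continuous fun x : ℂ => y + x - z := by fun_prop
      exact (H.irr.closed i).preimage hc
  exact h1 hq

/-- **END RULE** for a harmless contact, limits of exact arcs -/
theorem end_cl (H : WT U T) (hz : DPt T z a b c d) (nd : [a, b, c, d, e, f].Nodup)
    (hyz : dist y z = 1) (hTy : T y = {a, b, e, f}) (hy : Harm T y {a, e})
    (hq : q ∈ closure (Ex T z {c, d})) (hne : T q ≠ {c, d}) :
    T q = {c, d, f} ∨ T q = {c, d, e, f} ∧
      (T (y + q - z) = {a, e, c} ∨ T (y + q - z) = {a, e, d}) := by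
  have h1 := H.over_cl hz nd hyz hTy hy hq
  have h2 := sub_of_closure H.irr hq
  exact H.end_same hz nd hyz hTy (Or.inr hy) (acc_of_closure hq)
    ⟨h2, fun h3 => hne (h3.antisymm h2)⟩ (h1 (by simp)) (h1 (by simp))

/-- the flanks of a contact with both colours `a, b` are limits of `cd`-arcs -/
theorem flank_cl (H : WT U T) (hmin : MinF U T) (hz : DPt T z a b c d)
    (nd : [a, b, c, d, e, f].Nodup) (hp : dist p z = 1) (h4 : 4 ≤ (T p).ncard) (ha : a ∈ T p)
    (hb : b ∈ T p) (hq : dist q z = 1) (hqp : dist q p = 1) : q ∈ closure (Ex T z {c, d}) := by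
  have h := H.irr
  have C := ctr_of_dpt h hz nd
  obtain ⟨⟨ab, ac, ad, ae, af⟩, ⟨bc, bd, be, bf⟩, ⟨cd, ce, cf⟩, ⟨de, df⟩, ef⟩ := nodup_sep nd
  obtain ⟨⟨qc, qd⟩, qa, qb⟩ := H.flankA hmin hz nd hp h4 ha hb hq hqp
  obtain ⟨pe, pf⟩ := H.ef_of_four hz nd hp h4
  have hq3 : (T q).ncard ≤ 3 := by
    by_contra h5
    exact H.no_tri hmin hz hp hq hqp h4 (by omega)
  have notef : ¬ (e ∈ T q ∧ f ∈ T q) := fun h5 =>
    four_false hq3 qc qd h5.1 h5.2 cd ce cf de df ef
  have m2 : q ∉ Lt T z a b c d e f 2 := fun h5 => qa (let2 h h5).1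
  by_contra h6
  have m3 : q ∉ Lt T z a b c d e f 3 := h6
  by_cases qe : e ∈ T q
  · refine C.int (l := 0) hq (fun m hm => ?_) hp hqp ⟨hp, pe⟩
    rcases fin4_939 m with rfl | rfl | rfl | rfl
    · rfl
    · exact absurd ⟨qe, hm.2⟩ notef
    · exact absurd hm m2
    · exact absurd hm m3
  · refine C.int (l := 1) hq (fun m hm => ?_) hp hqp ⟨hp, pf⟩
    rcases fin4_939 m with rfl | rfl | rfl | rfl
    · exact absurd hm.2 qe
    · rfl
    · exact absurd hm m2
    · exact absurd hm m3

/-- **crossed ends do not occur**: no harmless contact `{a, b, e, f}` with the arc pair `{a, e}` is a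
limit of exact `ab`-arcs -/
theorem no_crossedH (H : WT U T) (hmin : MinF U T) (hR : NoR T z) (hz : DPt T z a b c d)
    (nd : [a, b, c, d, e, f].Nodup)
    (hH : ∀ q, dist q z = 1 → T q = {c, d, e, f} → ∃ B, Harm T q B) (hyz : dist y z = 1)
    (hTy : T y = {a, b, e, f}) (hy : Harm T y {a, e}) (hcl : y ∈ closure (Ex T z {a, b})) :
    False := by
  have h := H.irr
  have hall := all_six nd
  have nd2 := nd_swap939 nd
  obtain ⟨⟨ab, ac, ad, ae, af⟩, ⟨bc, bd, be, bf⟩, ⟨cd, ce, cf⟩, ⟨de, df⟩, ef⟩ := nodup_sep nd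
  have he : e ∉ T z := by rw [hz.pal]; simp [Ne.symm ae, Ne.symm be, Ne.symm ce, Ne.symm de]
  have hf : f ∉ T z := by rw [hz.pal]; simp [Ne.symm af, Ne.symm bf, Ne.symm cf, Ne.symm df]
  have hy4 : 4 ≤ (T y).ncard := by rw [hy.card]
  have hay : a ∈ T y := by rw [hTy]; simp
  have hby : b ∈ T y := by rw [hTy]; simp
  obtain ⟨x, ⟨hTx, hxcl⟩ | ⟨hTx, hxcl⟩⟩ := H.e_end hmin hz nd hR
  · by_cases hq : ∃ q, q ∈ closure (Ex T z {c, d}) ∧ T q = {c, d, e, f}
    · -- a crossed end of a `cd`-arc
      obtain ⟨q, hqcl, hTq⟩ := hq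
      have hqz := dist_of_closure hqcl
      obtain ⟨B, hB⟩ : ∃ B, Harm T q B := hH q hqz hTq
      have hne : T q ≠ {c, d} := by
        intro h1
        have : e ∈ T q := by rw [hTq]; simp
        rw [h1] at this
        rcases this with h2 | h2
        · exact ce h2.symm
        · exact de h2.symm
      have hBs := H.over_cl hz.swap nd2 hqz hTq hB hcl
      have e1 : q + y - z = y + q - z := by ring
      rw [e1] at hBs
      have key : ∀ {c d : Fin 6}, DPt T z a b c d → [a, b, c, d, e, f].Nodup → T q = {c, d, e, f} →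
          T (y + q - z) = {a, e, c} → False := by
        intro c d hz nd hTq hT
        have nd2 := nd_swap939 nd
        obtain ⟨⟨ab, ac, ad, ae, af⟩, ⟨bc, bd, be, bf⟩, ⟨cd, ce, cf⟩, ⟨de, df⟩, ef⟩ := nodup_sep nd
        have hBce : B ⊆ {c, e} := by
          intro i hi
          have h1 := hBs hi
          rw [hT] at h1
          have h2 := hB.sub hi
          rw [hTq] at h2
          rcases h1 with h1 | h1 | h1
          · exfalso
            rw [h1] at h2
            rcases h2 with h2 | h2 | h2 | h2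
            exacts [ac h2, ad h2, ae h2, af h2]
          · right; exact h1
          · left; exact h1
        have hBe : B = {c, e} :=
          Set.eq_of_subset_of_ncard_le hBce (by rw [hB.cardA, Set.ncard_pair ce]) (Set.toFinite _)
        rw [hBe] at hB
        rcases H.end_cl hz.swap nd2 hqz hTq hB hxcl (by
          rw [hTx]; intro h1
          have : e ∈ ({a, b} : Set (Fin 6)) := by rw [← h1]; simp
          rcases this with h2 | h2
          · exact ae h2.symm
          · exact be h2.symm) with h1 | ⟨h1, -⟩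
        · have : e ∈ T x := by rw [hTx]; simp
          rw [h1] at this
          rcases this with h2 | h2 | h2
          exacts [ae h2.symm, be h2.symm, ef h2]
        · have : f ∈ T x := by rw [h1]; simp
          rw [hTx] at this
          rcases this with h2 | h2 | h2
          exacts [af h2.symm, bf h2.symm, ef h2.symm]
      rcases H.end_cl hz nd hyz hTy hy hqcl hne with h1 | ⟨-, h1 | h1⟩
      · have : e ∈ T q := by rw [hTq]; simp
        rw [h1] at this
        rcases this with h2 | h2 | h2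
        exacts [ce h2.symm, de h2.symm, ef h2]
      · exact key hz nd hTq h1
      · refine key (c := d) (d := c) hz.swap34 ?_ ?_ h1
        · simp [ab, ac, ad, ae, af, bc, bd, be, bf, Ne.symm cd, ce, cf, de, df, ef]
        · rw [hTq]; ext m; simp only [mem_insert_iff, mem_singleton_iff]; tauto
    · -- all ends of the `cd`-arcs are `{c, d, f}`
      have hxz := dist_of_closure hxcl
      have hend : ∀ w, w ∈ closure (Ex T z {c, d}) → T w ≠ {c, d} → T w = {c, d, f} := by
        intro w hw hne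
        rcases H.end_cl hz nd hyz hTy hy hw hne with h1 | ⟨h1, -⟩
        · exact h1
        · exact absurd ⟨w, hw, h1⟩ hq
      obtain ⟨Y, rfl⟩ := exists_pt hyz
      have hPz : ({c, d} : Set (Fin 6)) ⊆ T z := by
        rw [hz.pal]; rintro i (rfl | hi)
        · simp
        · rw [mem_singleton_iff] at hi; rw [hi]; simp
      have nY : pt z Y ∉ closure (Ex T z {c, d}) := by
        intro h1
        have : c ∈ T (pt z Y) := sub_of_closure h h1 (by simp)
        rw [hTy] at this
        rcases this with h2 | h2 | h2 | h2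
        exacts [ac h2.symm, bc h2.symm, ce h2, cf h2]
      have nY3 : pt z (Y + 3) ∉ closure (Ex T z {c, d}) := by
        intro h1
        have s1 := sub_of_closure h h1
        rw [pt_three] at s1
        exact h.anti hz (dist_pt z Y) (h.sub _ hay) (h.sub _ hby) (h.sub _ (s1 (by simp)))
          (h.sub _ (s1 (by simp)))
      have nYm : pt z (Y - 3) ∉ closure (Ex T z {c, d}) := by
        intro h1
        have e3 : Y - 3 + 6 = Y + 3 := by ring
        have := pt_six z (Y - 3)
        rw [e3] at this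
        rw [← this] at h1
        exact nY3 h1
      have r1 : pt z (Y + 1) ∈ closure (Ex T z {c, d}) :=
        H.flank_cl hmin hz nd (dist_pt z Y) hy4 hay hby (dist_pt z _)
          (by rw [dist_comm]; exact dist_pt_one z Y)
      have l1 : pt z (Y - 1) ∈ closure (Ex T z {c, d}) := by
        refine H.flank_cl hmin hz nd (dist_pt z Y) hy4 hay hby (dist_pt z _) ?_
        have := dist_pt_one z (Y - 1)
        rwa [sub_add_cancel] at this
      obtain ⟨s1, s2, k1, k2, k3, k4, k5, k6, k7⟩ := two_ends h (Set.ncard_pair cd) hPz nY nY3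
        (u := Y + 1) ⟨by linarith, by linarith⟩ r1
      obtain ⟨t1, t2, m1, m2, m3, m4, m5, m6, m7⟩ := two_ends h (Set.ncard_pair cd) hPz nYm nY
        (u := Y - 1) ⟨by linarith, by linarith⟩ l1
      have hT1 := hend _ k4 k5
      have hT2 := hend _ k6 k7
      have hT3 := hend _ m4 m5
      have diff : ∀ {u v : ℝ}, u < v → v < u + 6 → pt z u ≠ pt z v := by
        intro u v h1 h2 h3
        obtain ⟨n, hn⟩ := pt_eq_int h3
        have h5 : (n : ℝ) < 0 := by linarith
        have h6 : (-1 : ℝ) < n := by linarith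
        have h7 : n < 0 := by exact_mod_cast h5
        have h8 : -1 < n := by exact_mod_cast h6
        omega
      have nd3 : [c, d, a, b, f, e].Nodup := by
        simp [cd, Ne.symm ac, Ne.symm bc, cf, ce, Ne.symm ad, Ne.symm bd, df, de, ab, af, ae, bf,
          be, Ne.symm ef]
      exact h.rule2_top hz.swap nd3 hxz hTx (dist_pt z s1) hT1 (dist_pt z s2) hT2 (dist_pt z t1) hT3
        (diff k2 (by linarith)) (diff (by linarith) (by linarith)).symm
        (diff (by linarith) (by linarith)).symm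
  · -- a real end `{c, d, e}`
    have hne : T x ≠ {c, d} := by
      intro h1
      have : e ∈ T x := by rw [hTx]; simp
      rw [h1] at this
      rcases this with h2 | h2
      · exact ce h2.symm
      · exact de h2.symm
    rcases H.end_cl hz nd hyz hTy hy hxcl hne with h1 | ⟨h1, -⟩
    · have : e ∈ T x := by rw [hTx]; simp
      rw [h1] at this
      rcases this with h2 | h2 | h2
      exacts [ce h2.symm, de h2.symm, ef h2]
    · have : f ∈ T x := by rw [h1]; simp
      rw [hTx] at this
      rcases this with h2 | h2 | h2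
      exacts [cf h2.symm, df h2.symm, ef h2.symm]

/-- **exact arcs of a two-pair point end in three-coloured points**, if there are no contacts
`{i, j | e, f}` and if the contacts with both colours of a pair of the centre are harmless -/
theorem end3H (H : WT U T) (hmin : MinF U T) (hR : NoR T z) (hz : DPt T z a b c d)
    (hH : ∀ q, dist q z = 1 → (T q).ncard = 4 →
      (({a, b} : Set (Fin 6)) ⊆ T q ∨ ({c, d} : Set (Fin 6)) ⊆ T q) → ∃ B, Harm T q B)
    (hcl : y ∈ closure (Ex T z {a, b})) : (T y).ncard ≤ 3 := by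
  by_contra hcon
  have h := H.irr
  obtain ⟨e, f, nd⟩ := exists_missing939 hz
  have hyz := dist_of_closure hcl
  have hs := sub_of_closure h hcl
  have hy4 : 4 ≤ (T y).ncard := by omega
  have hTy := H.pal_same939 hz nd hyz hy4 (hs (by simp)) (hs (by simp))
  obtain ⟨⟨ab, ac, ad, ae, af⟩, ⟨bc, bd, be, bf⟩, ⟨cd, ce, cf⟩, ⟨de, df⟩, ef⟩ := nodup_sep nd
  have hyc : (T y).ncard = 4 := by have := H.le4 hz.card.ge hyz; omega
  obtain ⟨A, hA⟩ : ∃ A, Harm T y A := hH y hyz hyc (Or.inl hs)
  have hq : ∀ q, dist q z = 1 → T q = {c, d, e, f} → ∃ B, Harm T q B := by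
    intro q hqz hTq
    refine hH q hqz (by rw [hTq]; exact card_four (by simp [cd, ce, cf, de, df, ef])) (Or.inr ?_)
    rw [hTq]; rintro m (rfl | hm)
    · simp
    · rw [mem_singleton_iff] at hm; rw [hm]; simp
  have hq' : ∀ q, dist q z = 1 → T q = {c, d, f, e} → ∃ B, Harm T q B := by
    intro q hqz hTq
    refine hq q hqz ?_
    rw [hTq]; ext m; simp only [mem_insert_iff, mem_singleton_iff]; tauto
  obtain ⟨i, j, hij, hAij⟩ := Set.ncard_eq_two.1 hA.cardA
  have hi : i ∈ T y := hA.sub (by rw [hAij]; simp)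
  have hj : j ∈ T y := hA.sub (by rw [hAij]; simp)
  rw [hAij] at hA
  rw [hTy] at hi hj
  have hsw : ∀ u v : Fin 6, ({u, v} : Set (Fin 6)) = {v, u} := fun u v => pair_comm u v
  have k_ab : ¬ Harm T y {a, b} := fun h1 => h.harm_not_end h1 subset_rfl hcl
  have k_ef : ¬ Harm T y {e, f} := fun h1 => H.no_harm hmin hz nd hyz hTy h1
  have k_ae : ¬ Harm T y {a, e} := fun h1 => H.no_crossedH hmin hR hz nd hq hyz hTy h1 hcl
  have k_af : ¬ Harm T y {a, f} := by
    intro h1
    refine H.no_crossedH hmin hR (e := f) (f := e) hz ?_ hq' hyz ?_ h1 hcl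
    · simp [ab, ac, ad, ae, af, bc, bd, be, bf, cd, ce, cf, de, df, Ne.symm ef]
    · rw [hTy]; ext m; simp only [mem_insert_iff, mem_singleton_iff]; tauto
  have hcl' : y ∈ closure (Ex T z {b, a}) := by rw [hsw]; exact hcl
  have k_be : ¬ Harm T y {b, e} := by
    intro h1
    refine H.no_crossedH hmin hR hz.swap12 (e := e) (f := f) ?_ hq hyz ?_ h1 hcl'
    · simp [Ne.symm ab, ac, ad, ae, af, bc, bd, be, bf, cd, ce, cf, de, df, ef]
    · rw [hTy]; ext m; simp only [mem_insert_iff, mem_singleton_iff]; tauto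
  have k_bf : ¬ Harm T y {b, f} := by
    intro h1
    refine H.no_crossedH hmin hR hz.swap12 (e := f) (f := e) ?_ hq' hyz ?_ h1 hcl'
    · simp [Ne.symm ab, ac, ad, ae, af, bc, bd, be, bf, cd, ce, cf, de, df, Ne.symm ef]
    · rw [hTy]; ext m; simp only [mem_insert_iff, mem_singleton_iff]; tauto
  rcases hi with h1 | h1 | h1 | h1 <;> rcases hj with h2 | h2 | h2 | h2 <;> rw [h1, h2] at hA
  · exact hij (h1.trans h2.symm)
  · exact k_ab hA
  · exact k_ae hA
  · exact k_af hA
  · rw [hsw] at hA; exact k_ab hA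
  · exact hij (h1.trans h2.symm)
  · exact k_be hA
  · exact k_bf hA
  · rw [hsw] at hA; exact k_ae hA
  · rw [hsw] at hA; exact k_be hA
  · exact hij (h1.trans h2.symm)
  · exact k_ef hA
  · rw [hsw] at hA; exact k_af hA
  · rw [hsw] at hA; exact k_bf hA
  · rw [hsw] at hA; exact k_ef hA
  · exact hij (h1.trans h2.symm)

/-- the case without two-pair contacts -/
theorem end3N (H : WT U T) (hmin : MinF U T) (hN : NoD T z) (hz : DPt T z a b c d)
    (hcl : y ∈ closure (Ex T z {a, b})) : (T y).ncard ≤ 3 := by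
  refine H.end3H hmin hN.noR hz (fun q hqz hq4 _ => ?_) hcl
  rcases H.cases hmin hq4 with h1 | ⟨i, j, m, n, hD⟩
  · exact h1
  · exact absurd hD (hN q i j m n hqz)

/-- **the word of a centre** without contacts `{i, j | e, f}`, the exact arcs of which end in
three-coloured points -/
theorem raw3N (H : WT U T) (hmin : MinF U T) (hz : DPt T z a b c d)
    (nd : [a, b, c, d, e, f].Nodup) (hR : NoR T z)
    (hA : ∀ x, x ∈ closure (Ex T z {a, b}) → (T x).ncard ≤ 3)
    (hC : ∀ x, x ∈ closure (Ex T z {c, d}) → (T x).ncard ≤ 3) : RawT3 (Xs T z a b c d e f) := by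
  have w := H.rawX hmin hz nd hR
  have C := ctr_of_dpt H.irr hz nd
  refine
    { closed := w.closed
      cover := w.cover
      per := w.per
      anti := w.anti
      ac := fun u h2 h3 => ?_
      two := fun u l m n hl hm hn => ?_
      own := w.own
      own' := w.own'
      swap := w.swap
      dbl := w.dbl }
  · obtain ⟨x1, x2⟩ := let2 H.irr (show pt z u ∈ Lt T z a b c d e f 2 from h2)
    obtain ⟨x3, x4⟩ := let3 H.irr (show pt z u ∈ Lt T z a b c d e f 3 from h3)
    exact H.not_abcd hz nd (dist_pt z u) x1 x2 x3 x4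
  · by_cases h3 : (T (pt z u)).ncard ≤ 3
    · exact C.x_two h3 hl hm hn
    · have key : ∀ k, u ∈ Xs T z a b c d e f k → k = 0 ∨ k = 1 := by
        intro k hk
        rcases fin4_939 k with rfl | rfl | rfl | rfl
        · exact Or.inl rfl
        · exact Or.inr rfl
        · exact absurd (hA _ hk) h3
        · exact absurd (hC _ hk) h3
      rcases key l hl with rfl | rfl <;> rcases key m hm with rfl | rfl <;>
        rcases key n hn with rfl | rfl <;> simp

end WT

end Vale.Agent.P032.Six
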