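import Vale.Agent.P032.R2.H659.Top4
import Vale.Agent.P032.R2.H939.End3N

/-!
# P032: the first certificate is needed for two-pair contacts only

* `CertS1w`: a contact `{a, e | b, f}` of `z = {a, b | c, d}` gives a contact of `z` of type S4r.
* `WT.certS1` : `CertS1w` and `CertS2` give `CertS1` (no order bound).
-/

open Set Filter Topology Metric

noncomputable section

namespace Vale.Agent.P032.Six

open Vale.Agent.P032.S5.H767 Vale.Agent.P032.Words

variable {U : Fin 6 → Set ℂ} {T : ℂ → Set (Fin 6)} {z y w p : ℂ} {a b c d e f : Fin 6}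

/-- the first certificate, two-pair contacts -/
def CertS1w (T : ℂ → Set (Fin 6)) : Prop :=
  ∀ {z y : ℂ} {a b c d e f : Fin 6}, DPt T z a b c d → [a, b, c, d, e, f].Nodup → dist y z = 1 →
    DPt T y a e b f →
    ∃ w, dist w z = 1 ∧ (DPt T w a c e f ∨ DPt T w a d e f ∨ DPt T w b c e f ∨ DPt T w b d e f)

namespace WT

/-- **no contacts of type S4** -/
theorem no_s4w (S1 : CertS1w T) (S2 : CertS2 T) (hz : DPt T z a b c d)
    (nd : [a, b, c, d, e, f].Nodup) (hyz : dist y z = 1) (hy : DPt T y a e b f) : False := by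
  have n2 : [b, a, c, d, e, f].Nodup := nd_swap12 nd
  have n3 : [a, b, d, c, e, f].Nodup := nd_swap34 nd
  have n4 : [b, a, c, d, f, e].Nodup := nd_swap56 n2
  have n5 : [b, a, d, c, f, e].Nodup := nd_swap34 n4
  obtain ⟨w, hwz, hw | hw | hw | hw⟩ := S1 hz nd hyz hy
  · exact S2 hz nd hyz hy hwz hw
  · exact S2 hz.swap34 n3 hyz hy hwz hw
  · exact S2 hz.swap12 n4 hyz hy.swap hwz hw.swap34
  · exact S2 hz.swap12.swap34 n5 hyz hy.swap hwz hw.swap34

/-- **no contacts of type S4r** -/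
theorem no_s4rw (S1 : CertS1w T) (S2 : CertS2 T) (hz : DPt T z a b c d)
    (nd : [a, b, c, d, e, f].Nodup) (hwz : dist w z = 1) (hw : DPt T w a c e f) : False :=
  no_s4w S1 S2 hw (nd_s4r nd) (by rw [dist_comm]; exact hwz) hz

/-- no contact has the two missing colours as a pair -/
theorem noRw (H : WT U T) (S1 : CertS1w T) (S2 : CertS2 T)
    (hz : DPt T z a b c d) : NoR T z := by
  intro y i j m n hyz hD hm hn
  have hy4 : (T y).ncard = 4 := hD.card
  obtain ⟨e, f, nd⟩ := exists_missing939 hz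
  have hall := all_six nd
  have hmn : m ≠ n := hD.cd
  -- the missing colours are `m, n`
  have hT' : ∀ g, g ∉ T z → g = e ∨ g = f := by
    intro g hg
    rcases hall g with h1 | h1 | h1 | h1 | h1 | h1
    · exact absurd (by rw [hz.pal, h1]; simp) hg
    · exact absurd (by rw [hz.pal, h1]; simp) hg
    · exact absurd (by rw [hz.pal, h1]; simp) hg
    · exact absurd (by rw [hz.pal, h1]; simp) hg
    · exact Or.inl h1
    · exact Or.inr h1
  have hD2 : DPt T y i j e f := by
    rcases hT' m hm with h1 | h1 <;> rcases hT' n hn with h2 | h2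
    · exact absurd (h1.trans h2.symm) hmn
    · rw [h1, h2] at hD; exact hD
    · rw [h1, h2] at hD; exact hD.swap34
    · exact absurd (h1.trans h2.symm) hmn
  obtain ⟨i', j', hij, hi, hj, hTy⟩ := H.contact_pal hz nd hyz hy4
  have hnd := nd
  obtain ⟨⟨ab, ac, ad, ae, af⟩, ⟨bc, bd, be, bf⟩, ⟨cd, ce, cf⟩, ⟨de, df⟩, ef⟩ := nd_ne6 nd
  have hii : i = a ∨ i = b ∨ i = c ∨ i = d := by
    rcases hall i with h1 | h1 | h1 | h1 | h1 | h1
    · exact Or.inl h1
    · exact Or.inr (Or.inl h1)
    · exact Or.inr (Or.inr (Or.inl h1))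
    · exact Or.inr (Or.inr (Or.inr h1))
    · exact absurd h1 hD2.ac
    · exact absurd h1 hD2.ad
  have hjj : j = a ∨ j = b ∨ j = c ∨ j = d := by
    rcases hall j with h1 | h1 | h1 | h1 | h1 | h1
    · exact Or.inl h1
    · exact Or.inr (Or.inl h1)
    · exact Or.inr (Or.inr (Or.inl h1))
    · exact Or.inr (Or.inr (Or.inr h1))
    · exact absurd h1 hD2.bc
    · exact absurd h1 hD2.bd
  have n2 : [b, a, c, d, e, f].Nodup := nd_swap12 nd
  have n3 : [a, b, d, c, e, f].Nodup := nd_swap34 nd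
  have n4 : [b, a, d, c, e, f].Nodup := nd_swap34 n2
  rcases hii with h1 | h1 | h1 | h1 <;> rcases hjj with h2 | h2 | h2 | h2 <;>
    rw [h1, h2] at hD2
  · exact hD2.ab rfl
  · exact H.no_lock hz hyz hD2
  · exact no_s4rw S1 S2 hz nd hyz hD2
  · exact no_s4rw S1 S2 hz.swap34 n3 hyz hD2
  · exact H.no_lock hz hyz hD2.swap12
  · exact hD2.ab rfl
  · exact no_s4rw S1 S2 hz.swap12 n2 hyz hD2
  · exact no_s4rw S1 S2 hz.swap12.swap34 n4 hyz hD2
  · exact no_s4rw S1 S2 hz nd hyz hD2.swap12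
  · exact no_s4rw S1 S2 hz.swap12 n2 hyz hD2.swap12
  · exact hD2.ab rfl
  · exact H.no_lock hz.swap hyz hD2
  · exact no_s4rw S1 S2 hz.swap34 n3 hyz hD2.swap12
  · exact no_s4rw S1 S2 hz.swap12.swap34 n4 hyz hD2.swap12
  · exact H.no_lock hz.swap hyz hD2.swap12
  · exact hD2.ab rfl

/-- a contact with both colours of a pair is harmless -/
theorem harm_same (H : WT U T) (hmin : MinF U T) (S1 : CertS1w T) (S2 : CertS2 T)
    (hz : DPt T z a b c d) (nd : [a, b, c, d, e, f].Nodup) (hyz : dist y z = 1)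
    (hT : T y = {a, b, e, f}) : ∃ A, Harm T y A := by
  rcases H.contact_same hmin hz nd hyz hT with h1 | h1 | ⟨A, h1, -⟩
  · exact (no_s4w S1 S2 hz nd hyz h1).elim
  · exact (no_s4w S1 S2 hz (nd_swap56 nd) hyz h1).elim
  · exact ⟨A, h1⟩

/-- **exact arcs of two-pair points end in three-coloured points** -/
theorem end3w (H : WT U T) (hmin : MinF U T) (S1 : CertS1w T) (S2 : CertS2 T) : End3 T := by
  intro z y a b c d hz hcl
  obtain ⟨e, f, nd⟩ := exists_missing939 hz
  refine H.end3H hmin (H.noRw S1 S2 hz) hz (fun q hqz hq4 hs => ?_) hcl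
  rcases hs with hs | hs
  · exact H.harm_same hmin S1 S2 hz nd hqz
      (H.pal_same939 hz nd hqz hq4.ge (hs (by simp)) (hs (by simp)))
  · exact H.harm_same hmin S1 S2 hz.swap (nd_swap nd) hqz
      (H.pal_same939 hz.swap (nd_swap nd) hqz hq4.ge (hs (by simp)) (hs (by simp)))

/-- **the first certificate for all four-coloured ends follows from the one for two-pair contacts** -/
theorem certS1 (H : WT U T) (hmin : MinF U T) (S1 : CertS1w T) (S2 : CertS2 T) : CertS1 T := by
  intro z y a b c d e f hz nd hyz hT hcl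
  exfalso
  have h1 := H.end3w hmin S1 S2 hz hcl
  obtain ⟨⟨ab, ac, ad, ae, af⟩, ⟨bc, bd, be, bf⟩, ⟨cd, ce, cf⟩, ⟨de, df⟩, ef⟩ := nd_ne6 nd
  rw [hT, ncard_four (by simp [ab, ae, af, be, bf, ef])] at h1
  omega

/-- the circle of a two-pair point is a word with T3 contacts (no order bound) -/
theorem okC3w (H : WT U T) (hmin : MinF U T) (S1 : CertS1w T) (S2 : CertS2 T)
    (hz : DPt T z a b c d) : Net3.OkC3 U T z :=
  H.okC3' hmin (H.certS1 hmin S1 S2) S2 hz

/-- **the world `WT` with at most four colours is empty**, from the certificates for two-pair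
contacts -/
theorem top4w (H : WT U T) (hmin : Mn U T) (h4 : ∀ z, (T z).ncard ≤ 4) (S1 : CertS1w T)
    (S2 : CertS2 T) : False :=
  H.top4 hmin h4 (H.certS1 (fun z hz s hs hne => hmin z hz s hs hne) S1 S2) S2

end WT

end Vale.Agent.P032.Six
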