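import Vale.Agent.P032.R2.H939.HLock
import Vale.Agent.P032.R2.H609.W2
import Vale.Agent.P032.S5.H306.Ends
import Vale.Agent.P032.S5.H678.DEnds

/-!
# P032: the world `WT`, harmless contacts with one colour of each pair

In the world in which four-coloured points at distance one share at most two colours:

* `WT.no_dstar` : there are no `D`-star pairs;
* `WT.no_hmix_ac` : no harmless contact `{a, c, e, f}` of `z = {a, b | c, d}` has the arc pair
  `{a, c}`;
* `WT.hmix` : the arc pair is one of `{a, e}`, `{a, f}`, `{c, e}`, `{c, f}`.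
-/

open Set Filter Topology Metric

noncomputable section

namespace Vale.Agent.P032.Six

open Vale.Agent.P032.S5.H767

variable {U : Fin 6 → Set ℂ} {T : ℂ → Set (Fin 6)} {z y : ℂ} {A B : Set (Fin 6)}

namespace DP

/-- an end of the set of directions -/
theorem exists_end939 (h : Irr U T) (P : DP T z y A B) :
    ∃ ξ : ℂ, ‖ξ‖ = 1 ∧ ξ ∈ closure (Dir T z) ∧ ¬ T (z + ξ) ⊆ T z := by
  by_contra hcon
  push Not at hcon
  have hcont : Continuous fun t : ℝ => z + cis t := continuous_const.add continuous_cis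
  have hopen : IsOpen {t : ℝ | T (z + cis t) ⊆ T z} := by
    rw [isOpen_iff_mem_nhds]
    intro t ht
    have h1 := hcont.tendsto t (h.nhd (z + cis t))
    filter_upwards [h1] with s hs
    exact Subset.trans hs ht
  have hclosed : IsClosed {t : ℝ | T (z + cis t) ⊆ T z} := by
    refine isClosed_of_closure_subset fun t ht => ?_
    have h1 : cis t ∈ closure (Dir T z) := by
      refine map_mem_closure continuous_cis ht fun s hs => ⟨?_, hs⟩
      have := dist_add_cis z s
      rwa [dist_eq_norm, add_sub_cancel_left] at this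
    have h2 : ‖cis t‖ = 1 := by
      have := dist_add_cis z t
      rwa [dist_eq_norm, add_sub_cancel_left] at this
    exact hcon _ h2 h1
  rcases isClopen_iff.1 ⟨hclosed, hopen⟩ with h1 | h1
  · obtain ⟨p, hp, hJ⟩ := P.hz.arc
    obtain ⟨t, ht⟩ := exists_cis (u := p - z) (by rw [← dist_eq_norm]; exact hp)
    have h2 : T p = A := hJ.self_of_nhdsWithin hp
    have h3 : t ∈ {t : ℝ | T (z + cis t) ⊆ T z} := by
      show T (z + cis t) ⊆ T z
      rw [← ht, add_sub_cancel, h2]
      exact P.hz.sub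
    rw [h1] at h3
    exact h3
  · obtain ⟨t, ht⟩ := exists_cis (u := z - y) (by rw [← dist_eq_norm]; exact P.d)
    have h3 : t ∈ {t : ℝ | T (z + cis t) ⊆ T z} := by rw [h1]; exact mem_univ _
    refine (P.not_axis h).1 (subset_closure ⟨by rw [← dist_eq_norm]; exact P.d, ?_⟩)
    rw [ht]
    exact h3

end DP

namespace WT

/-- the palette of an end with four colours -/
theorem dstar_end (H : WT U T) (P : DP T z y A B) {ξ : ℂ} (hξ : ‖ξ‖ = 1)
    (hcl : ξ ∈ closure (Dir T z)) (h4 : 4 ≤ (T (z + ξ)).ncard) : T (z + ξ) = A ∪ B := by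
  have h := H.irr
  have hd : dist (z + ξ) z = 1 := DP.d_add hξ
  have hA : A ⊆ T (z + ξ) := DP.sub_cl h P.hz hcl
  have h2 := H.two hd h4 P.hz.card.ge
  have h3 : A = T (z + ξ) ∩ T z := by
    refine Set.eq_of_subset_of_ncard_le (fun i hi => ⟨hA hi, P.hz.sub hi⟩) ?_ (Set.toFinite _)
    rw [P.hz.cardA]; exact h2
  refine Set.eq_of_subset_of_ncard_le (fun i hi => ?_) ?_ (Set.toFinite _)
  · by_cases hiz : i ∈ T z
    · left; rw [h3]; exact ⟨hi, hiz⟩
    · right
      rw [P.cz, mem_compl_iff, not_not] at hiz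
      exact hiz
  · refine (Set.ncard_union_le A B).trans ?_
    rw [P.hz.cardA, P.hy.cardA]
    exact h4

theorem dstar_aux (H : WT U T) (hmin : MinF U T) (P : DP T z y A B) {ξ : ℂ} (hξ : ‖ξ‖ = 1)
    (hcl : ξ ∈ closure (Dir T z)) (hn' : ¬ T (y + ξ) ⊆ T y) (h4 : 4 ≤ (T (z + ξ)).ncard)
    (h3 : (T (y + ξ)).ncard ≤ 3) : False := by
  have h := H.irr
  have hV := H.dstar_end P hξ hcl h4
  have hdy : dist (y + ξ) y = 1 := DP.d_add hξ
  have hdVV : dist (y + ξ) (z + ξ) = 1 := DP.d_tr (by rw [dist_comm]; exact P.d)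
  have hB : B ⊆ T (y + ξ) := by
    refine DP.sub_cl h P.hy ?_
    rw [← P.dir_eq h]; exact hcl
  rw [not_subset] at hn'
  obtain ⟨x, hx, hxy⟩ := hn'
  have hxA : x ∈ A := by
    rw [P.cy, mem_compl_iff, not_not] at hxy
    exact hxy
  have hxB : x ∉ B := fun h1 => hxy (P.hy.sub h1)
  have hTw : T (y + ξ) = insert x B := by
    symm
    refine Set.eq_of_subset_of_ncard_le ?_ ?_ (Set.toFinite _)
    · rintro i (rfl | hi)
      · exact hx
      · exact hB hi
    · rw [Set.ncard_insert_of_notMem hxB, P.hy.cardA]; exact h3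
  have hsub : T (y + ξ) ⊆ T (z + ξ) := by
    rw [hTw, hV]
    rintro i (rfl | hi)
    · left; exact hxA
    · right; exact hi
  have hle : (T (z + ξ)).ncard = 4 := by
    have := H.le4 P.hz.card.ge (DP.d_add hξ (z := z))
    omega
  have hne1 : y ≠ z + ξ := fun h1 => (P.not_axis h).2 (by rw [h1, add_sub_cancel_left]; exact hcl)
  have hne2 : y + (z + ξ) ≠ 2 * (y + ξ) := fun h1 => (P.not_axis h).1 (by
    rw [show z - y = ξ by linear_combination h1]; exact hcl)
  rcases H.cases hmin hle with ⟨A', hA'⟩ | ⟨p, q, r, s, hD⟩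
  · have h5 := hA'.h1 _ hdVV hsub
    obtain ⟨t, ht, htx⟩ : ∃ t ∈ A', t ≠ x := by
      by_contra hcon
      push Not at hcon
      have h6 : A' ⊆ {x} := fun i hi => hcon i hi
      have h7 := Set.ncard_le_ncard h6 (Set.toFinite _)
      rw [hA'.cardA, Set.ncard_singleton] at h7
      omega
    have htB : t ∈ B := by
      have h6 := h5 ht
      rw [hTw] at h6
      exact h6.resolve_left htx
    refine line_free h hdVV ?_ hdy hne1 hne2 (h.sub y (P.hy.sub htB))
    filter_upwards [mem_nhdsWithin_of_mem_nhds (h.nhd (y + ξ)), self_mem_nhdsWithin] with q h6 h7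
    exact hA'.h1 q h7 (h6.trans hsub) ht
  · have h5 : (T (y + ξ)).ncard = 3 := by
      rw [hTw, Set.ncard_insert_of_notMem hxB, P.hy.cardA]
    rcases H.inside hD hdVV hsub with h6 | h6
    · rw [h6, Set.ncard_pair hD.ab] at h5; omega
    · rw [h6, Set.ncard_pair hD.cd] at h5; omega

/-- **there are no `D`-star pairs** -/
theorem no_dstar (H : WT U T) (hmin : MinF U T) (P : DP T z y A B) : False := by
  have h := H.irr
  obtain ⟨ξ, hξ, hcl, hn⟩ := P.exists_end939 h
  have hdir := P.dir_eq h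
  have hcl' : ξ ∈ closure (Dir T y) := by rw [← hdir]; exact hcl
  have hn' : ¬ T (y + ξ) ⊆ T y := by
    intro h1
    have h2 : ξ ∈ Dir T y := ⟨hξ, h1⟩
    rw [← hdir] at h2
    exact hn h2.2
  have hdVV : dist (y + ξ) (z + ξ) = 1 := DP.d_tr (by rw [dist_comm]; exact P.d)
  rcases Nat.lt_or_ge (T (z + ξ)).ncard 4 with hz3 | hz4 <;>
    rcases Nat.lt_or_ge (T (y + ξ)).ncard 4 with hy3 | hy4
  · -- two points with three colours
    have hdy : dist (y + ξ) y = 1 := DP.d_add hξ
    have hA : A ⊆ T (z + ξ) := DP.sub_cl h P.hz hcl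
    have hB : B ⊆ T (y + ξ) := DP.sub_cl h P.hy hcl'
    have hne1 : y ≠ z + ξ := fun h1 => (P.not_axis h).2 (by rw [h1, add_sub_cancel_left]; exact hcl)
    have hne2 : y + (z + ξ) ≠ 2 * (y + ξ) := fun h1 => (P.not_axis h).1 (by
      rw [show z - y = ξ by linear_combination h1]; exact hcl)
    rw [not_subset] at hn hn'
    obtain ⟨x, hx, hxz⟩ := hn
    obtain ⟨x', hx', hxy'⟩ := hn'
    have hxB : x ∈ B := by
      rw [P.cz, mem_compl_iff, not_not] at hxz
      exact hxz
    have hxA' : x' ∈ A := by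
      rw [P.cy, mem_compl_iff, not_not] at hxy'
      exact hxy'
    have hxB' : x' ∉ B := fun h1 => hxy' (P.hy.sub h1)
    obtain ⟨x2, hx2, hx2x, hBe⟩ := pair_of306 P.hy.cardA hxB
    have hTw : T (y + ξ) = insert x' B := by
      symm
      refine Set.eq_of_subset_of_ncard_le ?_ ?_ (Set.toFinite _)
      · rintro i (rfl | hi)
        · exact hx'
        · exact hB hi
      · rw [Set.ncard_insert_of_notMem hxB', P.hy.cardA]; omega
    obtain ⟨q, hq, hqs, hqn⟩ := h.esc678 hdVV hdy hne1 hne2 (P.hy.sub hx2)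
    refine h.not_sub hq (by omega) fun i hi => ?_
    have h1 := hqs hi
    rw [hTw, hBe] at h1
    rcases h1 with h1 | h1 | h1
    · rw [h1]; exact hA hxA'
    · rw [h1]; exact hx
    · rw [mem_singleton_iff] at h1; exact absurd (h1 ▸ hi) hqn
  · exact H.dstar_aux hmin P.symm hξ hcl' hn hy4 (by omega)
  · exact H.dstar_aux hmin P hξ hcl hn' hz4 (by omega)
  · have h1 := H.dstar_end P hξ hcl hz4
    have h2 := H.dstar_end P.symm hξ hcl' hy4
    have h3 := H.two hdVV hy4 hz4
    rw [h1, h2, union_comm B A, inter_self] at h3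
    rw [h1] at hz4
    omega

variable {a b c d e f : Fin 6}

/-- **no harmless contact `{a, c, e, f}` has the arc pair `{a, c}`** -/
theorem no_hmix_ac (H : WT U T) (hmin : MinF U T) (hz : DPt T z a b c d)
    (nd : [a, b, c, d, e, f].Nodup) (hyz : dist y z = 1) (hT : T y = {a, c, e, f})
    (hy : Harm T y {a, c}) : False := by
  have h := H.irr
  obtain ⟨p, hpz, hpy⟩ := exists_flank hyz
  have hn := nd
  simp only [List.nodup_cons, List.mem_cons, List.not_mem_nil, or_false, not_or, List.nodup_nil,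
    and_true, not_false_eq_true] at hn
  obtain ⟨⟨ab, ac, ad, ae, af⟩, ⟨bc, bd, be, bf⟩, ⟨cd, ce, cf⟩, ⟨de, df⟩, ef⟩ := hn
  have h4 := h.hmix_ac hz nd hyz hT hy hpz hpy
  have hp4 : (T p).ncard = 4 := by have := H.le4 hz.card.ge hpz; omega
  have hyp : dist y p = 1 := by rw [dist_comm]; exact hpy
  obtain ⟨i, j, hij, hi, hj, hTp⟩ := H.contact_pal hz nd hpz hp4
  have pe : e ∈ T p := by rw [hTp]; simp
  have pf : f ∈ T p := by rw [hTp]; simp
  have hya : ∀ m, m = a ∨ m = c → m ∉ T p := by
    intro m hm hmp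
    refine H.no_three hpy hp4 hy.card (i := m) (j := e) (m := f) ?_ ?_ ef ⟨hmp, ?_⟩
      ⟨pe, by rw [hT]; simp⟩ ⟨pf, by rw [hT]; simp⟩
    · rcases hm with rfl | rfl
      · exact ae
      · exact ce
    · rcases hm with rfl | rfl
      · exact af
      · exact cf
    · rcases hm with rfl | rfl <;> rw [hT] <;> simp
  have hTp' : T p = {b, d, e, f} := by
    have hsub : T p ⊆ {b, d, e, f} := by
      intro m hm
      have hm' := all_six nd m
      rcases hm' with h1 | h1 | h1 | h1 | h1 | h1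
      · exact absurd (h1 ▸ hm) (hya a (Or.inl rfl))
      · left; exact h1
      · exact absurd (h1 ▸ hm) (hya c (Or.inr rfl))
      · right; left; exact h1
      · right; right; left; exact h1
      · right; right; right; exact h1
    refine Set.eq_of_subset_of_ncard_le hsub ?_ (Set.toFinite _)
    rw [hp4, Set.ncard_insert_of_notMem, Set.ncard_insert_of_notMem, Set.ncard_pair ef]
    · simp [de, df]
    · simp [bd, be, bf]
  rcases H.cases hmin hp4 with ⟨B, hB⟩ | ⟨p1, q1, r1, s1, hD⟩
  · -- `p` harmless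
    have hC : T y \ {a, c} = {e, f} := by
      rw [hT]; ext m
      simp only [Set.mem_sdiff, mem_insert_iff, mem_singleton_iff]
      constructor
      · tauto
      · rintro (rfl | rfl)
        · exact ⟨by tauto, by rintro (h1 | h1); exacts [ae h1.symm, ce h1.symm]⟩
        · exact ⟨by tauto, by rintro (h1 | h1); exacts [af h1.symm, cf h1.symm]⟩
    rcases Harm.unit_pair h hmin hy hB hpy (by
      rw [hC]; rintro m (rfl | hm)
      · exact pe
      · rw [mem_singleton_iff] at hm; rw [hm]; exact pf) with h1 | ⟨h1, -⟩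
    · rw [hC] at h1
      subst h1
      refine h.hmix_ne (z := z) (a := b) (b := a) (c := d) (d := c) (e := e) (f := f)
        hz.swap12.swap34 ?_ hpz hTp' hB
      simp only [List.nodup_cons, List.mem_cons, List.not_mem_nil, or_false, not_or,
        List.nodup_nil, and_true, not_false_eq_true]
      exact ⟨⟨Ne.symm ab, bd, bc, be, bf⟩, ⟨ad, ac, ae, af⟩, ⟨Ne.symm cd, de, df⟩, ⟨ce, cf⟩, ef⟩
    · exact H.no_dstar hmin (DP.of h hy hB hyp h1)
  · rcases hD.ways hTp' (by
      simp only [List.nodup_cons, List.mem_cons, List.not_mem_nil, or_false, not_or,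
        List.nodup_nil, and_true, not_false_eq_true]
      exact ⟨⟨bd, be, bf⟩, ⟨de, df⟩, ef⟩) with h1 | h1 | h1
    · -- `bd | ef`
      refine H.no_harm hmin (z := p) (y := y) (a := e) (b := f) (c := b) (d := d) (e := a)
        (f := c) h1.swap ?_ hyp ?_ hy
      · simp only [List.nodup_cons, List.mem_cons, List.not_mem_nil, or_false, not_or,
          List.nodup_nil, and_true, not_false_eq_true]
        exact ⟨⟨ef, Ne.symm be, Ne.symm de, Ne.symm ae, Ne.symm ce⟩, ⟨Ne.symm bf, Ne.symm df, Ne.symm af, Ne.symm cf⟩,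
          ⟨bd, Ne.symm ab, bc⟩, ⟨Ne.symm ad, Ne.symm cd⟩, ac⟩
      · rw [hT]; ext m; simp only [mem_insert_iff, mem_singleton_iff]; tauto
    · -- `be | df`
      refine h.hmix_ne (z := p) (y := y) (a := e) (b := b) (c := f) (d := d) (e := a) (f := c)
        h1.swap12.swap34 ?_ hyp ?_ hy
      · simp only [List.nodup_cons, List.mem_cons, List.not_mem_nil, or_false, not_or,
          List.nodup_nil, and_true, not_false_eq_true]
        exact ⟨⟨Ne.symm be, ef, Ne.symm de, Ne.symm ae, Ne.symm ce⟩, ⟨bf, bd, Ne.symm ab, bc⟩,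
          ⟨Ne.symm df, Ne.symm af, Ne.symm cf⟩, ⟨Ne.symm ad, Ne.symm cd⟩, ac⟩
      · rw [hT]; ext m; simp only [mem_insert_iff, mem_singleton_iff]; tauto
    · -- `bf | de`
      refine h.hmix_ne (z := p) (y := y) (a := f) (b := b) (c := e) (d := d) (e := a) (f := c)
        h1.swap12.swap34 ?_ hyp ?_ hy
      · simp only [List.nodup_cons, List.mem_cons, List.not_mem_nil, or_false, not_or,
          List.nodup_nil, and_true, not_false_eq_true]
        exact ⟨⟨Ne.symm bf, Ne.symm ef, Ne.symm df, Ne.symm af, Ne.symm cf⟩, ⟨be, bd, Ne.symm ab, bc⟩,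
          ⟨Ne.symm de, Ne.symm ae, Ne.symm ce⟩, ⟨Ne.symm ad, Ne.symm cd⟩, ac⟩
      · rw [hT]; ext m; simp only [mem_insert_iff, mem_singleton_iff]; tauto

/-- **the arc pair of a harmless contact `{a, c, e, f}`** -/
theorem hmix (H : WT U T) (hmin : MinF U T) (hz : DPt T z a b c d)
    (nd : [a, b, c, d, e, f].Nodup) (hyz : dist y z = 1) (hT : T y = {a, c, e, f})
    (hy : Harm T y A) : A = {a, e} ∨ A = {a, f} ∨ A = {c, e} ∨ A = {c, f} := by
  have h := H.irr
  obtain ⟨i, j, hij, hA⟩ := Set.ncard_eq_two.1 hy.cardA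
  have hi : i ∈ T y := hy.sub (by rw [hA]; simp)
  have hj : j ∈ T y := hy.sub (by rw [hA]; simp)
  have k1 : A ≠ {a, c} := fun h1 => H.no_hmix_ac hmin hz nd hyz hT (h1 ▸ hy)
  have k2 : A ≠ {e, f} := fun h1 => h.hmix_ne hz nd hyz hT (h1 ▸ hy)
  rw [hT] at hi hj
  have hc : ∀ u v : Fin 6, ({u, v} : Set (Fin 6)) = {v, u} := fun u v => pair_comm u v
  rcases hi with h1 | h1 | h1 | h1 <;> rcases hj with h2 | h2 | h2 | h2 <;> rw [h1, h2] at hA
  · exact absurd (h1.trans h2.symm) hij
  · exact absurd hA k1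
  · left; exact hA
  · right; left; exact hA
  · exact absurd (hA.trans (hc _ _)) k1
  · exact absurd (h1.trans h2.symm) hij
  · right; right; left; exact hA
  · right; right; right; exact hA
  · left; rw [hA]; exact hc _ _
  · right; right; left; rw [hA]; exact hc _ _
  · exact absurd (h1.trans h2.symm) hij
  · exact absurd hA k2
  · right; left; rw [hA]; exact hc _ _
  · right; right; right; rw [hA]; exact hc _ _
  · exact absurd (hA.trans (hc _ _)) k2
  · exact absurd (h1.trans h2.symm) hij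

/-- the palette of a four-coloured common neighbour of `z = {a, b | c, d}` and
`T y = {a, c, e, f}` -/
theorem tri_pal (H : WT U T) (hz : DPt T z a b c d) (nd : [a, b, c, d, e, f].Nodup)
    (hT : T y = {a, c, e, f}) {p : ℂ} (hpz : dist p z = 1) (hpy : dist p y = 1)
    (hp4 : (T p).ncard = 4) : T p = {b, d, e, f} := by
  have hn := nd
  simp only [List.nodup_cons, List.mem_cons, List.not_mem_nil, or_false, not_or, List.nodup_nil,
    and_true, not_false_eq_true] at hn
  obtain ⟨⟨ab, ac, ad, ae, af⟩, ⟨bc, bd, be, bf⟩, ⟨cd, ce, cf⟩, ⟨de, df⟩, ef⟩ := hn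
  have hy4 : (T y).ncard = 4 := by
    rw [hT, Set.ncard_insert_of_notMem, Set.ncard_insert_of_notMem, Set.ncard_pair ef]
    · simp [ce, cf]
    · simp [ac, ae, af]
  obtain ⟨i, j, hij, hi, hj, hTp⟩ := H.contact_pal hz nd hpz hp4
  have pe : e ∈ T p := by rw [hTp]; simp
  have pf : f ∈ T p := by rw [hTp]; simp
  have hya : ∀ m, m = a ∨ m = c → m ∉ T p := by
    intro m hm hmp
    refine H.no_three hpy hp4 hy4 (i := m) (j := e) (m := f) ?_ ?_ ef ⟨hmp, ?_⟩
      ⟨pe, by rw [hT]; simp⟩ ⟨pf, by rw [hT]; simp⟩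
    · rcases hm with rfl | rfl
      · exact ae
      · exact ce
    · rcases hm with rfl | rfl
      · exact af
      · exact cf
    · rcases hm with rfl | rfl <;> rw [hT] <;> simp
  have hsub : T p ⊆ {b, d, e, f} := by
    intro m hm
    have hm' := all_six nd m
    rcases hm' with h1 | h1 | h1 | h1 | h1 | h1
    · exact absurd (h1 ▸ hm) (hya a (Or.inl rfl))
    · left; exact h1
    · exact absurd (h1 ▸ hm) (hya c (Or.inr rfl))
    · right; left; exact h1
    · right; right; left; exact h1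
    · right; right; right; exact h1
  refine Set.eq_of_subset_of_ncard_le hsub ?_ (Set.toFinite _)
  rw [hp4, Set.ncard_insert_of_notMem, Set.ncard_insert_of_notMem, Set.ncard_pair ef]
  · simp [de, df]
  · simp [bd, be, bf]

end WT

end Vale.Agent.P032.Six
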