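import Vale.Agent.P032.S5.H767.Pts
import Vale.Agent.P032.S5.H80.Ray
import Vale.Agent.P032.S5.H827.Edge

/-!
# P032: translates at a limit of exact arcs

* `Irr.close_prism` : if exact `P`-arcs of `S(z)` accumulate at `y` and `m` is on `S(y)`, not on the
  line of `z` and `y`, then near `m` there are points without the colours of `P`;
* `Irr.harm_not_end` : a harmless point `y` with the arc pair `A` is not a limit of exact `P`-arcs of
  `S(z)` if `A ⊆ P`.
-/

open Set Filter Topology Metric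

noncomputable section

namespace Vale.Agent.P032.Six

open Vale.Agent.P032.S5.H767

variable {k : ℕ} {U : Fin k → Set ℂ} {T : ℂ → Set (Fin k)} {z y m : ℂ} {P : Set (Fin k)}

/-- near `m` there are points without the colours of `P` -/
theorem Irr.close_prism (h : Irr U T) (hy : y ∈ closure (Ex T z P)) (hm : dist m y = 1)
    (n1 : m ≠ z) (n2 : m + z ≠ 2 * y) :
    ∃ᶠ x in 𝓝 m, T x ⊆ T m ∧ ∀ i ∈ P, i ∉ Pal U x := by
  have hcont : Tendsto (fun g : ℂ => m + g - y) (𝓝 y) (𝓝 m) := by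
    have : Continuous fun g : ℂ => m + g - y := by fun_prop
    have h2 := this.tendsto y
    simpa using h2
  have e1 : ∀ᶠ g in 𝓝 y, m + g - y ≠ z := hcont.eventually (isOpen_ne.mem_nhds n1)
  have e2 : ∀ᶠ g : ℂ in 𝓝 y, m - y + z - g ≠ 0 := by
    have hc2 : Continuous fun g : ℂ => m - y + z - g := by fun_prop
    refine hc2.tendsto y (isOpen_ne.mem_nhds ?_)
    intro h0
    exact n2 (by linear_combination h0)
  have hf : ∃ᶠ g in 𝓝 y, g ∈ Ex T z P := mem_closure_iff_frequently.1 hy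
  have h3 : ∃ᶠ g in 𝓝 y, T (m + g - y) ⊆ T m ∧ ∀ i ∈ P, i ∉ Pal U (m + g - y) := by
    refine (hf.and_eventually (e1.and (e2.and (hcont.eventually (h.nhd m))))).mono ?_
    rintro g ⟨hg, h1, h2, h4⟩
    refine ⟨h4, fun i hi => ?_⟩
    refine line_free h hg.1 ?_ ?_ h1 ?_
    · filter_upwards [hg.2] with q hq
      rw [hq]; exact hi
    · rw [dist_eq_norm, show g - (m + g - y) = y - m by ring, ← dist_eq_norm, dist_comm]
      exact hm
    · intro h5
      exact h2 (by linear_combination h5)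
  exact hcont.frequently h3

/-- no palette inside `P` on `S(y)` off the line -/
theorem Irr.not_sub_end (h : Irr U T) (hy : y ∈ closure (Ex T z P)) (hm : dist m y = 1)
    (n1 : m ≠ z) (n2 : m + z ≠ 2 * y) : ¬ T m ⊆ P := by
  intro hs
  obtain ⟨x, h1, h2⟩ := (h.close_prism hy hm n1 n2).exists
  obtain ⟨i, hi⟩ := h.ne x
  exact h2 i (hs (h1 hi)) (h.sub x hi)

/-- **a harmless point is not a limit of exact arcs which carry its arc pair** -/
theorem Irr.harm_not_end (h : Irr U T) {A : Set (Fin k)} (hy : Harm T y A) (hAP : A ⊆ P) :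
    y ∉ closure (Ex T z P) := by
  intro hcl
  obtain ⟨g0, hg0, hJ0⟩ := hy.arc
  obtain ⟨g, hg, hgz, hgz2⟩ := Arc.exists_off_line (y := z) (⟨hg0, hJ0⟩ : Arc T y g0 A)
  exact h.not_sub_end hcl hg.1 hgz hgz2 (by rw [hg.mem]; exact hAP)

/-- a colour outside `P` of an exact arc of `S(y)` is pure near the arc -/
theorem Irr.pure_side (h : Irr U T) (hy : y ∈ closure (Ex T z P)) {a e : Fin k}
    (hm : Arc T y m {a, e}) (n1 : m ≠ z) (n2 : m + z ≠ 2 * y) (ha : a ∈ P) :
    ∃ᶠ x in 𝓝 m, T x = {e} := by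
  refine (h.close_prism hy hm.1 n1 n2).mono ?_
  rintro x ⟨h1, h2⟩
  rw [hm.mem] at h1
  have h3 : ∀ i ∈ T x, i = e := by
    intro i hi
    rcases h1 hi with h4 | h4
    · exact absurd (h.sub x hi) (h4 ▸ h2 a ha)
    · exact h4
  obtain ⟨i, hi⟩ := h.ne x
  ext j
  exact ⟨fun hj => h3 j hj, fun hj => by rw [mem_singleton_iff] at hj; rw [hj, ← h3 i hi]; exact hi⟩

end Vale.Agent.P032.Six
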