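import Vale.Agent.P032.R2.H939.TopW
import Vale.Agent.P032.R2.H544.Corner3
import Vale.Agent.P032.R2.H544.Six3
import Vale.Agent.P032.R2.H479.Final7

/-!
# P032: the world `WT` is empty

The two hypotheses `H5`, `H6` of `resultW6` and `resultW7` from the certificates.

* `WT.cl5` : the circles of points with five or six colours are clean.
* `WT.l3pW`, `WT.no5W` : the convexity statement; there are no points with five colours.
* `h5W`, `h6W` : the hypotheses `H5`, `H6`.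
* `actW` : with `Act5` the six-coloured points of the world are active.
-/

set_option autoImplicit false

open Set Filter Topology Metric

noncomputable section

namespace Vale.Agent.P032.Six

open Vale.Agent.P032.S5.H767 Vale.Agent.P032.S5.H843 Vale.Agent.P032.Words
open Vale.Agent.P032.S5.H450 Vale.Agent.P032.R2.H544

variable {U : Fin 6 → Set ℂ} {T : ℂ → Set (Fin 6)} {z : ℂ}

/-- the first certificate holds in the world -/
def AllS1 : Prop :=
  ∀ (U : Fin 6 → Set ℂ) (T : ℂ → Set (Fin 6)), WT U T → MinF U T → CertS1w T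

/-- the second certificate holds in the world -/
def AllS2 : Prop :=
  ∀ (U : Fin 6 → Set ℂ) (T : ℂ → Set (Fin 6)), WT U T → MinF U T → CertS2 T

namespace WT

/-- the circles of points with five or six colours are clean -/
theorem cl5 (H : WT U T) : Cl5 T := by
  intro z v hzv hv hz
  have h1 := H.le4 (x := v) (y := z) hv hzv
  omega

/-- the convexity statement -/
theorem l3pW (H : WT U T) (hmin : Mn U T) (S1 : CertS1w T) (S2 : CertS2 T) : L3p T :=
  L3p_of_ok3 H.irr hmin fun _ _ _ _ _ hD =>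
    H.okC3w (fun z hz s hs hne => hmin z hz s hs hne) S1 S2 hD

/-- no points with five colours -/
theorem no5W (H : WT U T) (hmin : Mn U T) (S1 : CertS1w T) (S2 : CertS2 T) (z : ℂ) :
    (T z).ncard ≠ 5 := by
  intro h5
  refine no_five_L3 H.irr hmin (H.l3pW hmin S1 S2) h5 fun y hy => ?_
  by_contra h3
  push Not at h3
  exact H.cl5 z y (by rw [dist_comm]; exact hy) (by omega) (by omega)

/-- the world with at most five colours is empty -/
theorem empty5 (H : WT U T) (hmin : Mn U T) (h5 : ∀ z, (T z).ncard ≤ 5) (S1 : CertS1w T)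
    (S2 : CertS2 T) : False :=
  H.top4w hmin (fun z => by
    have h1 := h5 z
    have h2 := H.no5W hmin S1 S2 z
    omega) S1 S2

/-- no active points with six colours -/
theorem no6W (htab : ∀ L ∈ Vale.Agent.P032.Words6.H122.Lets35, Vale.Agent.P032.Words6.H358.TreeOK L)
    (H : WT U T) (hmin : Mn U T) (S1 : CertS1w T) (S2 : CertS2 T) (h6 : (T z).ncard = 6)
    (hact : ∀ i, ∃ q, dist q z = 1 ∧ i ∈ T q ∧ (T q).ncard = 2) : False := by
  refine no_six_L3 H.irr hmin htab (H.l3pW hmin S1 S2) (H.no5W hmin S1 S2) h6 (fun y hy => ?_) hact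
  by_contra h3
  push Not at h3
  exact H.cl5 z y (by rw [dist_comm]; exact hy) (by omega) (by omega)

end WT

/-- **`H5` of `resultW6`, `resultW7`** -/
theorem h5W (s1 : AllS1) (s2 : AllS2) (V : Fin 6 → Set ℂ) (T : ℂ → Set (Fin 6)) (_ : Irr V T)
    (hmin : Mn V T) (H : WT V T) (h5 : ∀ z, (T z).ncard ≤ 5) (_ : Cl5 T) : False :=
  H.empty5 hmin h5 (s1 V T H fun z hz s hs hne => hmin z hz s hs hne)
    (s2 V T H fun z hz s hs hne => hmin z hz s hs hne)

/-- **`H6` of `resultW6`, `resultW7`**, given the tree table -/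
theorem h6W (htab : ∀ L ∈ Vale.Agent.P032.Words6.H122.Lets35, Vale.Agent.P032.Words6.H358.TreeOK L)
    (s1 : AllS1) (s2 : AllS2) (V : Fin 6 → Set ℂ) (T : ℂ → Set (Fin 6)) (_ : Irr V T)
    (hmin : Mn V T) (H : WT V T) (_ : Cl5 T) (z : ℂ) (h6 : (T z).ncard = 6)
    (hact : ∀ i, ∃ q, dist q z = 1 ∧ i ∈ T q ∧ (T q).ncard = 2) : False :=
  H.no6W htab hmin (s1 V T H fun z hz s hs hne => hmin z hz s hs hne)
    (s2 V T H fun z hz s hs hne => hmin z hz s hs hne) h6 hact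

/-- clean points with six colours are active if there are no points with five colours near them -/
def Act5 : Prop :=
  ∀ (U : Fin 6 → Set ℂ) (T : ℂ → Set (Fin 6)), Irr U T → Mn U T → ∀ z, (T z).ncard = 6 →
    (∀ y, dist y z = 1 → (T y).ncard ≤ 3) → (∀ w, dist w z ≤ 2 → (T w).ncard ≠ 5) →
      ∀ i, ∃ q, dist q z = 1 ∧ i ∈ T q ∧ (T q).ncard = 2

theorem Act.act5 (h : Act) : Act5 := fun U T h1 h2 z h6 hc _ => h U T h1 h2 z h6 hc

/-- **the world `WT` is empty** -/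
theorem WT.emptyW
    (htab : ∀ L ∈ Vale.Agent.P032.Words6.H122.Lets35, Vale.Agent.P032.Words6.H358.TreeOK L)
    (hact : Act5) (H : WT U T) (hmin : Mn U T) (S1 : CertS1w T) (S2 : CertS2 T) : False := by
  refine H.empty5 hmin (fun z => ?_) S1 S2
  have h1 := Set.ncard_le_ncard (s := T z) (t := univ) (subset_univ _) (Set.toFinite _)
  rw [Set.ncard_univ, Nat.card_eq_fintype_card, Fintype.card_fin] at h1
  by_contra hcon
  have h6 : (T z).ncard = 6 := by omega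
  refine H.no6W htab hmin S1 S2 h6 (hact U T H.irr hmin z h6 (fun y hy => ?_) fun w _ =>
    H.no5W hmin S1 S2 w)
  by_contra h3
  push Not at h3
  exact H.cl5 z y (by rw [dist_comm]; exact hy) (by omega) (by omega)

section plane

variable {U : Fin 6 → Set (EuclideanSpace ℝ (Fin 2))}
  {P : (Fin 6 → Set ℂ) → (ℂ → Set (Fin 6)) → Prop} {RC : (Fin 6 → Set ℂ) → ℂ → ℂ → Prop}
  {RE : (Fin 6 → Set (EuclideanSpace ℝ (Fin 2))) → EuclideanSpace ℝ (Fin 2) →
      EuclideanSpace ℝ (Fin 2) → Prop}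

/-- **Statement in the plane for an empty world.** -/
theorem rel8_of (W : RelW P RC RE)
    (top : ∀ (V : Fin 6 → Set ℂ) (T : ℂ → Set (Fin 6)), Irr V T → Mn V T → P V T → Cl5 T → False)
    (hU : ∀ i, Maximal (fun W : Set (EuclideanSpace ℝ (Fin 2)) =>
      IsOpen W ∧ ∀ x ∈ W, ∀ y ∈ W, dist x y ≠ 1) (U i))
    (hd : Dense (⋃ i, U i)) :
    ∃ z z', dist z z' = 1 ∧ z ∈ XU U 3 ∧ z' ∈ XU U 3 ∧
      (z ∈ XU U 4 ∨ (z, z') ∈ closure {p : EuclideanSpace ℝ (Fin 2) ×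
        EuclideanSpace ℝ (Fin 2) | RE U p.1 p.2}) := by
  rcases rel5_of W (m := 6) (by norm_num) (fun V T h1 h2 h3 _ h5 => top V T h1 h2 h3 h5) hU hd with
    ⟨z₀, hz₀⟩ | h
  · have h1 := hz₀ univ (by rw [Set.ncard_univ, Nat.card_eq_fintype_card, Fintype.card_fin])
    have h2 : (⋃ j, U j) \ ⋃ i ∈ (univ : Set (Fin 6)), U i = ∅ := by
      rw [sdiff_eq_empty]
      exact fun x hx => by
        obtain ⟨j, hj⟩ := mem_iUnion.1 hx
        exact mem_iUnion₂.2 ⟨j, mem_univ j, hj⟩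
    rw [h2, closure_empty] at h1
    exact absurd h1 (notMem_empty _)
  · exact h

/-- **World `WT` empty: the pair in the plane.** -/
theorem exists_pairW8_of
    (top : ∀ (V : Fin 6 → Set ℂ) (T : ℂ → Set (Fin 6)), Irr V T → Mn V T → WT V T → Cl5 T → False)
    (hU : ∀ i, Maximal (fun W : Set (EuclideanSpace ℝ (Fin 2)) =>
      IsOpen W ∧ ∀ x ∈ W, ∀ y ∈ W, dist x y ≠ 1) (U i))
    (hd : Dense (⋃ i, U i)) :
    ∃ z z', dist z z' = 1 ∧ z ∈ XU U 3 ∧ z' ∈ XU U 3 ∧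
      (z, z') ∈ closure {p : EuclideanSpace ℝ (Fin 2) × EuclideanSpace ℝ (Fin 2) |
        WV U p.1 p.2} := by
  obtain ⟨z, z', h1, h2, h3, h4 | h4⟩ := rel8_of relW_WT top hU hd
  · exact ⟨z, z', h1, h2, h3, subset_closure (WV_of_XU h1 h4 h3)⟩
  · exact ⟨z, z', h1, h2, h3, h4⟩

end plane

/-- **World `WT`**, written out, no bound for the order, no first alternative. -/
theorem resultW8
    (top : ∀ (V : Fin 6 → Set ℂ) (T : ℂ → Set (Fin 6)), Irr V T → Mn V T → WT V T → Cl5 T →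
      False) :
    (∀ V : Fin 6 → Set (EuclideanSpace ℝ (Fin 2)), (∀ i, IsOpen (V i)) →
      (∀ i, ∀ x ∈ V i, ∀ y ∈ V i, dist x y ≠ 1) → Dense (⋃ i, V i) →
      ∃ U : Fin 6 → Set (EuclideanSpace ℝ (Fin 2)), (∀ i, V i ⊆ U i) ∧ Dense (⋃ i, U i) ∧
        ∀ i, Maximal (fun W : Set (EuclideanSpace ℝ (Fin 2)) =>
          IsOpen W ∧ ∀ x ∈ W, ∀ y ∈ W, dist x y ≠ 1) (U i)) ∧
    (∀ U : Fin 6 → Set (EuclideanSpace ℝ (Fin 2)), Dense (⋃ i, U i) →
      (∀ i, Maximal (fun W : Set (EuclideanSpace ℝ (Fin 2)) =>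
        IsOpen W ∧ ∀ x ∈ W, ∀ y ∈ W, dist x y ≠ 1) (U i)) →
      ∃ z z', dist z z' = 1 ∧
        (∀ s : Set (Fin 6), s.ncard ≤ 3 → z ∈ closure ((⋃ j, U j) \ ⋃ i ∈ s, U i)) ∧
        (∀ s : Set (Fin 6), s.ncard ≤ 3 → z' ∈ closure ((⋃ j, U j) \ ⋃ i ∈ s, U i)) ∧
        (z, z') ∈ closure {p : EuclideanSpace ℝ (Fin 2) × EuclideanSpace ℝ (Fin 2) |
          dist p.1 p.2 = 1 ∧ ∃ Q Q' : Set (Fin 6),
            (p.1 ∉ closure ((⋃ j, U j) \ ⋃ i ∈ Q, U i) ∧
              ∀ s ⊂ Q, p.1 ∈ closure ((⋃ j, U j) \ ⋃ i ∈ s, U i)) ∧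
            (p.2 ∉ closure ((⋃ j, U j) \ ⋃ i ∈ Q', U i) ∧
              ∀ s ⊂ Q', p.2 ∈ closure ((⋃ j, U j) \ ⋃ i ∈ s, U i)) ∧
            4 ≤ Q.ncard ∧ 4 ≤ Q'.ncard ∧ 3 ≤ (Q ∩ Q').ncard}) := by
  refine ⟨fun V hV hfree hd => ?_, fun U hd hU => exists_pairW8_of top hU hd⟩
  choose U hVU hU using fun i => Vale.Agent.P032.S5.H926.exists_maximal_ge (hV i) (hfree i)
  exact ⟨U, hVU, hd.mono (iUnion_mono hVU), hU⟩

/-- **the form with at most four colours**, certificates with the order bound -/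
theorem h4W
    (s1 : ∀ (U : Fin 6 → Set ℂ) (T : ℂ → Set (Fin 6)), WT U T → MinF U T →
      (∀ z, (T z).ncard ≤ 4) → CertS1w T)
    (s2 : ∀ (U : Fin 6 → Set ℂ) (T : ℂ → Set (Fin 6)), WT U T → MinF U T →
      (∀ z, (T z).ncard ≤ 4) → CertS2 T)
    (V : Fin 6 → Set ℂ) (T : ℂ → Set (Fin 6)) (_ : Irr V T) (hmin : Mn V T) (H : WT V T)
    (h4 : ∀ z, (T z).ncard ≤ 4) : False :=
  H.top4w hmin h4 (s1 V T H (fun z hz s hs hne => hmin z hz s hs hne) h4)
    (s2 V T H (fun z hz s hs hne => hmin z hz s hs hne) h4)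

end Vale.Agent.P032.Six
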