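import Vale.Agent.P032.R2.H939.Final
import Vale.Agent.P032.R2.H137.S1R
import Vale.Agent.P032.R2.H659.S2R
import Vale.Agent.P032.R2.H609.S2n
import Vale.Agent.P032.R2.H616.NoSilent

/-!
# P032: the world `WT` is empty, given the five certificates

* `act` : clean points with six colours are active.
* `allS1_of`, `allS2_of`, `allS2_of'` : the certificates in all worlds `WT`.
* `h5C`, `h6C` : the hypotheses of `resultW7`.
-/

set_option autoImplicit false

open Set Filter Topology Metric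

noncomputable section

namespace Vale.Agent.P032.R2.H939

open Vale.Agent.P032.Six Vale.Agent.P032.R2.H741.Tp Vale.Agent.P032.R2.H264
open Vale.Agent.P032.R2.H137 Vale.Agent.P032.R2.H659 Vale.Agent.P032.R2.H609

/-- **clean points with six colours are active** -/
theorem act : Act := fun _ _ h hmin _ h6 hcl i =>
  R2.H616.no_silent (Vale.Agent.P032.Words6.H704.six_of h h6 hcl) hmin i

theorem allS1_of {iA iB : List (List ℕ)} (A : Crt rdS1a [] iA) (B : Crt rdS1b [] iB) : AllS1 :=
  fun _ _ H hmin => certS1w_of H hmin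
    (rootA_of H hmin A.hst
      (fun S h1 h2 h3 => A.start S h1 h2 h3 fun _ h => absurd h List.not_mem_nil) A.step A.fin)
    (rootB_of H hmin B.hst
      (fun S h1 h2 h3 => B.start S h1 h2 h3 fun _ h => absurd h List.not_mem_nil) B.step B.fin)

theorem frR2 {U : Fin 6 → Set ℂ} {T : ℂ → Set (Fin 6)} (H : WT U T) (hmin : MinF U T) :
    Fr U T rdR2 := fun hz nd hyz hy hw =>
  ⟨_, hpR2 H hmin hz nd hyz hy hw, rfl, rfl, rfl, rfl, rfl, rfl⟩

theorem frS2n {U : Fin 6 → Set ℂ} {T : ℂ → Set (Fin 6)} (H : WT U T) (hmin : MinF U T) :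
    Fr U T rdS2n := fun hz nd hyz hy hw =>
  ⟨_, hpS2n H hmin hz nd hyz hy hw, rfl, rfl, rfl, rfl, rfl, rfl⟩

theorem allS2_of' {iA iC : List (List ℕ)} (A : Crt rdR2 exA iA) (C : Crt rdR2 exC iC)
    (N : ∀ (U : Fin 6 → Set ℂ) (T : ℂ → Set (Fin 6)), WT U T → MinF U T → BoxN T) : AllS2 :=
  fun U T H hmin => H.certS2_of hmin (boxA_of (frR2 H hmin) A) (boxC_of (frR2 H hmin) C)
    (N U T H hmin)

theorem allS2_of {iA iC iN : List (List ℕ)} (A : Crt rdR2 exA iA) (C : Crt rdR2 exC iC)
    (N : Crt rdS2n exN iN) : AllS2 :=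
  allS2_of' A C fun _ _ H hmin => boxN_of (frS2n H hmin) N

end Vale.Agent.P032.R2.H939
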