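import Vale.Agent.P032.R2.H659.Contact
import Vale.Agent.P032.R2.H833.S3A
import Vale.Agent.P032.R2.H939.Pairs

/-!
# P032: harmless contacts of a two-pair point with one colour of each pair

`z = {a, b | c, d}`, `y` on `S(z)` harmless with the palette `{a, c, e, f}`.

* `Irr.hmix_ne` : the arc pair of `y` is not `{e, f}`;
* `Irr.hmix_ac` : if the arc pair is `{a, c}`, then `z` and `y` have no common neighbour with at
  most three colours;
* `Irr.hmix_ae` : if the arc pair is `{a, e}`, the common neighbours with at most three colours have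
  the palette `{a, b, e}`.
-/

open Set Filter Topology Metric

noncomputable section

namespace Vale.Agent.P032.Six

open Vale.Agent.P032.S5.H767

variable {U : Fin 6 → Set ℂ} {T : ℂ → Set (Fin 6)} {z y p : ℂ} {a b c d e f : Fin 6}

/-- **the arc pair is not `{e, f}`** -/
theorem Irr.hmix_ne (h : Irr U T) (hz : DPt T z a b c d) (nd : [a, b, c, d, e, f].Nodup)
    (hyz : dist y z = 1) (hT : T y = {a, c, e, f}) (hy : Harm T y {e, f}) : False := by
  simp only [List.nodup_cons, List.mem_cons, List.not_mem_nil, or_false, not_or, List.nodup_nil,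
    and_true, not_false_eq_true] at nd
  obtain ⟨⟨ab, ac, ad, ae, af⟩, ⟨bc, bd, be, bf⟩, ⟨cd, ce, cf⟩, ⟨de, df⟩, ef⟩ := nd
  have hzy : dist z y = 1 := by rw [dist_comm]; exact hyz
  have ya : a ∈ T y := by rw [hT]; simp
  have yc : c ∈ T y := by rw [hT]; simp
  obtain ⟨g0, hg0, hJ0⟩ := hy.arc
  obtain ⟨g, hg, hgz, hgz2⟩ := Arc.exists_off_line (y := z) (⟨hg0, hJ0⟩ : Arc T y g0 {e, f})
  have hcr := cr_ne_of hg.1 hzy hgz hgz2
  have hray : ∀ σ : ℝ, (σ = 1 ∨ σ = -1) → ∀ᶠ r : ℝ in 𝓝[>] 0,
      T (y + r * (σ * (Complex.I * (g - y)))) ⊆ {a, c} := by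
    intro σ hσ
    filter_upwards [h.ray_avoid' hg (i := e) (by simp) hσ, h.ray_avoid' hg (i := f) (by simp) hσ,
      (tendsto_rayc y _).eventually (h.nhd y)] with r h1 h2 h3
    intro i hi
    have h4 := h3 hi
    rw [hT] at h4
    rcases h4 with h5 | h5 | h5 | h5
    · left; exact h5
    · right; exact h5
    · exact absurd (h.sub _ hi) (h5 ▸ h1)
    · rw [mem_singleton_iff] at h5; exact absurd (h.sub _ hi) (h5 ▸ h2)
  obtain ⟨σ1, hσ1, hin⟩ : ∃ σ : ℝ, (σ = 1 ∨ σ = -1) ∧
      0 < ip (σ * (Complex.I * (g - y))) (z - y) := by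
    rcases lt_or_gt_of_ne hcr with h1 | h1
    · refine ⟨-1, Or.inr rfl, ?_⟩
      rw [ip_smul, ip_I]; linarith
    · refine ⟨1, Or.inl rfl, ?_⟩
      rw [ip_smul, ip_I]; linarith
  have hσ1' : -σ1 = 1 ∨ -σ1 = -1 := by
    rcases hσ1 with h1 | h1
    · right; rw [h1]
    · left; rw [h1]; norm_num
  have hout : ip ((-σ1 : ℝ) * (Complex.I * (g - y))) (z - y) < 0 := by
    rw [ip_smul, ip_I] at hin ⊢
    linarith
  have emp : ∀ σ : ℝ, (σ = 1 ∨ σ = -1) →
      (∀ᶠ r : ℝ in 𝓝[>] 0, a ∉ Pal U (y + r * (σ * (Complex.I * (g - y))))) →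
      (∀ᶠ r : ℝ in 𝓝[>] 0, c ∉ Pal U (y + r * (σ * (Complex.I * (g - y))))) → False := by
    intro σ hσ h1 h2
    obtain ⟨r, h3, h4, h5⟩ := (h1.and (h2.and (hray σ hσ))).exists
    obtain ⟨i, hi⟩ := h.ne (y + r * (σ * (Complex.I * (g - y))))
    rcases h5 hi with h6 | h6
    · exact h3 (h6 ▸ h.sub _ hi)
    · rw [mem_singleton_iff] at h6; exact h4 (h6 ▸ h.sub _ hi)
  rcases h.sides hz hyz with s1 | s1 <;> rcases h.sides hz.swap hyz with s2 | s2
  · -- `a`, `c` near
    refine emp (-σ1) hσ1' ?_ ?_
    · filter_upwards [(tendsto_rayc y _).eventually s1, rayc_out hzy hout] with r h1 h2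
      exact h1.1 h2
    · filter_upwards [(tendsto_rayc y _).eventually s2, rayc_out hzy hout] with r h1 h2
      exact h1.1 h2
  · -- `a` near, `c` far
    have h1 := h.s4r_kind_harm (a := d) (b := c) (c := a) (d := b) hz.swap.swap12 hyz s1 s2 ya yc
      hy.cardA hy.h1
    have h2 : a ∈ ({e, f} : Set (Fin 6)) := by rw [h1]; simp
    rcases h2 with h2 | h2
    · exact ae h2
    · exact af h2
  · -- `a` far, `c` near
    have h1 := h.s4r_kind_harm (a := b) (b := a) (c := c) (d := d) hz.swap12 hyz s2 s1 yc ya
      hy.cardA hy.h1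
    have h2 : a ∈ ({e, f} : Set (Fin 6)) := by rw [h1]; simp
    rcases h2 with h2 | h2
    · exact ae h2
    · exact af h2
  · -- `a`, `c` far
    refine emp σ1 hσ1 ?_ ?_
    · filter_upwards [(tendsto_rayc y _).eventually s1, rayc_in hzy hin] with r h1 h2
      exact h1.2 h2
    · filter_upwards [(tendsto_rayc y _).eventually s2, rayc_in hzy hin] with r h1 h2
      exact h1.2 h2

/-- **arc pair `{a, c}`: every common neighbour has at least four colours** -/
theorem Irr.hmix_ac (h : Irr U T) (hz : DPt T z a b c d) (nd : [a, b, c, d, e, f].Nodup)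
    (hyz : dist y z = 1) (hT : T y = {a, c, e, f}) (hy : Harm T y {a, c}) (hpz : dist p z = 1)
    (hpy : dist p y = 1) : 4 ≤ (T p).ncard := by
  by_contra h3
  have h3 : (T p).ncard ≤ 3 := by omega
  have hall := all_six nd
  simp only [List.nodup_cons, List.mem_cons, List.not_mem_nil, or_false, not_or, List.nodup_nil,
    and_true, not_false_eq_true] at nd
  obtain ⟨⟨ab, ac, ad, ae, af⟩, ⟨bc, bd, be, bf⟩, ⟨cd, ce, cf⟩, ⟨de, df⟩, ef⟩ := nd
  have hzy : dist z y = 1 := by rw [dist_comm]; exact hyz
  have F1 : ∀ (s : Set (Fin 6)) t, s ⊆ T z → ¬ ({a, b} : Set (Fin 6)) ⊆ s →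
      ¬ ({c, d} : Set (Fin 6)) ⊆ s → t ∈ T y → T p ⊆ insert t s → False :=
    fun s t h1 h2 h4 h5 h6 => lemmaFz h hpy hzy hpz (hz.face h h1 h2 h4) h6 h5
  have F2 : ∀ (s : Set (Fin 6)) t, s ⊆ T y → ¬ ({a, c} : Set (Fin 6)) ⊆ s → t ∈ T z →
      T p ⊆ insert t s → False := by
    intro s t h1 h2 h5 h6
    refine lemmaFz h hpz hyz hpy (s := s) (fun w hw hws => h2 ?_) h6 h5
    exact (hy.h1 w hw (hws.trans h1)).trans hws
  have za : a ∈ T z := by rw [hz.pal]; simp
  have zb : b ∈ T z := by rw [hz.pal]; simp
  have zc : c ∈ T z := by rw [hz.pal]; simp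
  have zd : d ∈ T z := by rw [hz.pal]; simp
  have ya : a ∈ T y := by rw [hT]; simp
  have yc : c ∈ T y := by rw [hT]; simp
  have ye : e ∈ T y := by rw [hT]; simp
  have yf : f ∈ T y := by rw [hT]; simp
  have pr : ∀ {S : Set (Fin 6)} {u v : Fin 6}, u ∈ S → v ∈ S → ({u, v} : Set (Fin 6)) ⊆ S := by
    intro S u v hu hv
    rintro i (rfl | hi)
    · exact hu
    · rw [mem_singleton_iff] at hi; subst hi; exact hv
  by_cases pb : b ∈ T p
  · by_cases pd : d ∈ T p
    · -- `b, d`
      by_cases hx : ∃ x ∈ T p, x ≠ b ∧ x ≠ d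
      · obtain ⟨x, hx, hxb, hxd⟩ := hx
        refine F1 {b, d} x (pr zb zd) (pair_not_sub ab ad) (pair_not_sub (Ne.symm bc) cd) ?_ ?_
        · rcases hall x with h1 | h1 | h1 | h1 | h1 | h1
          · rw [h1]; exact ya
          · exact absurd h1 hxb
          · rw [h1]; exact yc
          · exact absurd h1 hxd
          · rw [h1]; exact ye
          · rw [h1]; exact yf
        · intro i hi
          by_cases h1 : i = x
          · left; exact h1
          by_cases h2 : i = b
          · right; left; exact h2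
          by_cases h4 : i = d
          · right; right; exact h4
          exact (four_false h3 pb pd hx hi bd (Ne.symm hxb) (Ne.symm h2) (Ne.symm hxd)
            (Ne.symm h4) (Ne.symm h1)).elim
      · push Not at hx
        refine F1 {b, d} a (pr zb zd) (pair_not_sub ab ad) (pair_not_sub (Ne.symm bc) cd) ya ?_
        intro i hi
        by_cases h2 : i = b
        · right; left; exact h2
        · right; right; exact hx i hi h2
    · by_cases hac : a ∈ T p ∧ c ∈ T p
      · -- `{a, b, c}`
        refine h.no_three_in hz.swap hpz h3 (i := d) (Or.inr rfl) ?_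
        rw [hz.pal]
        rintro i (rfl | rfl | rfl | hi)
        · right; exact hac.1
        · right; exact pb
        · right; exact hac.2
        · left; exact hi
      · refine F2 (T p \ {b}) b ?_ (fun h1 => hac ⟨(h1 (by simp)).1, (h1 (by simp)).1⟩) zb ?_
        · rintro i ⟨hi, hib⟩
          rcases hall i with h1 | h1 | h1 | h1 | h1 | h1
          · rw [h1]; exact ya
          · exact absurd h1 hib
          · rw [h1]; exact yc
          · exact absurd hi (h1 ▸ pd)
          · rw [h1]; exact ye
          · rw [h1]; exact yf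
        · intro i hi
          by_cases h4 : i = b
          · exact Or.inl h4
          · exact Or.inr ⟨hi, h4⟩
  · by_cases pd : d ∈ T p
    · by_cases hac : a ∈ T p ∧ c ∈ T p
      · refine h.no_three_in hz hpz h3 (i := b) (Or.inr rfl) ?_
        rw [hz.pal]
        rintro i (rfl | rfl | rfl | hi)
        · right; exact hac.1
        · left; rfl
        · right; exact hac.2
        · right; rw [mem_singleton_iff] at hi; rw [hi]; exact pd
      · refine F2 (T p \ {d}) d ?_ (fun h1 => hac ⟨(h1 (by simp)).1, (h1 (by simp)).1⟩) zd ?_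
        · rintro i ⟨hi, hid⟩
          rcases hall i with h1 | h1 | h1 | h1 | h1 | h1
          · rw [h1]; exact ya
          · exact absurd hi (h1 ▸ pb)
          · rw [h1]; exact yc
          · exact absurd h1 hid
          · rw [h1]; exact ye
          · rw [h1]; exact yf
        · intro i hi
          by_cases h4 : i = d
          · exact Or.inl h4
          · exact Or.inr ⟨hi, h4⟩
    · -- inside `T y`
      have hsub : T p ⊆ T y := by
        intro i hi
        rcases hall i with h1 | h1 | h1 | h1 | h1 | h1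
        · rw [h1]; exact ya
        · exact absurd hi (h1 ▸ pb)
        · rw [h1]; exact yc
        · exact absurd hi (h1 ▸ pd)
        · rw [h1]; exact ye
        · rw [h1]; exact yf
      have hac := hy.h1 p hpy hsub
      have pa : a ∈ T p := hac (by simp)
      have pc : c ∈ T p := hac (by simp)
      by_cases pe : e ∈ T p
      · refine F1 {a, c} e (pr za zc) (pair_not_sub' (Ne.symm ab) bc)
          (pair_not_sub' (Ne.symm ad) (Ne.symm cd)) ye ?_
        intro i hi
        by_cases h1 : i = e
        · left; exact h1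
        by_cases h2 : i = a
        · right; left; exact h2
        by_cases h4 : i = c
        · right; right; exact h4
        exact (four_false h3 pa pc pe hi ac ae (Ne.symm h2) ce (Ne.symm h4) (Ne.symm h1)).elim
      · refine F1 {a, c} f (pr za zc) (pair_not_sub' (Ne.symm ab) bc)
          (pair_not_sub' (Ne.symm ad) (Ne.symm cd)) yf ?_
        intro i hi
        rcases hall i with h1 | h1 | h1 | h1 | h1 | h1
        · right; left; exact h1
        · exact absurd hi (h1 ▸ pb)
        · right; right; exact h1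
        · exact absurd hi (h1 ▸ pd)
        · exact absurd hi (h1 ▸ pe)
        · left; exact h1

/-- **arc pair `{a, e}`: the common neighbours with at most three colours** -/
theorem Irr.hmix_ae (h : Irr U T) (hz : DPt T z a b c d) (nd : [a, b, c, d, e, f].Nodup)
    (hyz : dist y z = 1) (hT : T y = {a, c, e, f}) (hy : Harm T y {a, e}) (hpz : dist p z = 1)
    (hpy : dist p y = 1) (h3 : (T p).ncard ≤ 3) : T p = {a, b, e} := by
  have hall := all_six nd
  simp only [List.nodup_cons, List.mem_cons, List.not_mem_nil, or_false, not_or, List.nodup_nil,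
    and_true, not_false_eq_true] at nd
  obtain ⟨⟨ab, ac, ad, ae, af⟩, ⟨bc, bd, be, bf⟩, ⟨cd, ce, cf⟩, ⟨de, df⟩, ef⟩ := nd
  have hzy : dist z y = 1 := by rw [dist_comm]; exact hyz
  have F1 : ∀ (s : Set (Fin 6)) t, s ⊆ T z → ¬ ({a, b} : Set (Fin 6)) ⊆ s →
      ¬ ({c, d} : Set (Fin 6)) ⊆ s → t ∈ T y → T p ⊆ insert t s → False :=
    fun s t h1 h2 h4 h5 h6 => lemmaFz h hpy hzy hpz (hz.face h h1 h2 h4) h6 h5
  have F2 : ∀ (s : Set (Fin 6)) t, s ⊆ T y → ¬ ({a, e} : Set (Fin 6)) ⊆ s → t ∈ T z →
      T p ⊆ insert t s → False := by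
    intro s t h1 h2 h5 h6
    refine lemmaFz h hpz hyz hpy (s := s) (fun w hw hws => h2 ?_) h6 h5
    exact (hy.h1 w hw (hws.trans h1)).trans hws
  have za : a ∈ T z := by rw [hz.pal]; simp
  have zb : b ∈ T z := by rw [hz.pal]; simp
  have zd : d ∈ T z := by rw [hz.pal]; simp
  have ya : a ∈ T y := by rw [hT]; simp
  have yc : c ∈ T y := by rw [hT]; simp
  have ye : e ∈ T y := by rw [hT]; simp
  have yf : f ∈ T y := by rw [hT]; simp
  have pr : ∀ {S : Set (Fin 6)} {u v : Fin 6}, u ∈ S → v ∈ S → ({u, v} : Set (Fin 6)) ⊆ S := by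
    intro S u v hu hv
    rintro i (rfl | hi)
    · exact hu
    · rw [mem_singleton_iff] at hi; subst hi; exact hv
  have off : ∀ m, (m = b ∨ m = d) → (∀ i ∈ T p, i = b ∨ i = d → i = m) → T p \ {m} ⊆ T y := by
    rintro m hm h0 i ⟨hi, him⟩
    rcases hall i with h1 | h1 | h1 | h1 | h1 | h1
    · rw [h1]; exact ya
    · exact absurd (h0 i hi (Or.inl h1)) him
    · rw [h1]; exact yc
    · exact absurd (h0 i hi (Or.inr h1)) him
    · rw [h1]; exact ye
    · rw [h1]; exact yf
  by_cases pb : b ∈ T p
  · by_cases pd : d ∈ T p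
    · exfalso
      by_cases hx : ∃ x ∈ T p, x ≠ b ∧ x ≠ d
      · obtain ⟨x, hx, hxb, hxd⟩ := hx
        refine F1 {b, d} x (pr zb zd) (pair_not_sub ab ad) (pair_not_sub (Ne.symm bc) cd) ?_ ?_
        · rcases hall x with h1 | h1 | h1 | h1 | h1 | h1
          · rw [h1]; exact ya
          · exact absurd h1 hxb
          · rw [h1]; exact yc
          · exact absurd h1 hxd
          · rw [h1]; exact ye
          · rw [h1]; exact yf
        · intro i hi
          by_cases h1 : i = x
          · left; exact h1
          by_cases h2 : i = b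
          · right; left; exact h2
          by_cases h4 : i = d
          · right; right; exact h4
          exact (four_false h3 pb pd hx hi bd (Ne.symm hxb) (Ne.symm h2) (Ne.symm hxd)
            (Ne.symm h4) (Ne.symm h1)).elim
      · push Not at hx
        refine F1 {b, d} a (pr zb zd) (pair_not_sub ab ad) (pair_not_sub (Ne.symm bc) cd) ya ?_
        intro i hi
        by_cases h2 : i = b
        · right; left; exact h2
        · right; right; exact hx i hi h2
    · by_cases hae : a ∈ T p ∧ e ∈ T p
      · ext i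
        constructor
        · intro hi
          by_cases h1 : i = a
          · left; exact h1
          by_cases h2 : i = b
          · right; left; exact h2
          by_cases h4 : i = e
          · right; right; exact h4
          exact (four_false h3 hae.1 pb hae.2 hi ab ae (Ne.symm h1) be (Ne.symm h2)
            (Ne.symm h4)).elim
        · rintro (rfl | rfl | hi)
          · exact hae.1
          · exact pb
          · rw [mem_singleton_iff] at hi; rw [hi]; exact hae.2
      · exfalso
        refine F2 (T p \ {b}) b (off b (Or.inl rfl) ?_) (fun h1 => hae ⟨(h1 (by simp)).1,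
          (h1 (by simp)).1⟩) zb ?_
        · rintro i hi (h1 | h1)
          · exact h1
          · exact absurd hi (h1 ▸ pd)
        · intro i hi
          by_cases h4 : i = b
          · exact Or.inl h4
          · exact Or.inr ⟨hi, h4⟩
  · exfalso
    by_cases pd : d ∈ T p
    · by_cases hae : a ∈ T p ∧ e ∈ T p
      · refine F1 {a, d} e (pr za zd) (pair_not_sub' (Ne.symm ab) bd)
          (pair_not_sub (Ne.symm ac) cd) ye ?_
        intro i hi
        by_cases h1 : i = e
        · left; exact h1
        by_cases h2 : i = a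
        · right; left; exact h2
        by_cases h4 : i = d
        · right; right; exact h4
        exact (four_false h3 hae.1 pd hae.2 hi ad ae (Ne.symm h2) de (Ne.symm h4)
          (Ne.symm h1)).elim
      · refine F2 (T p \ {d}) d (off d (Or.inr rfl) ?_) (fun h1 => hae ⟨(h1 (by simp)).1,
          (h1 (by simp)).1⟩) zd ?_
        · rintro i hi (h1 | h1)
          · exact absurd hi (h1 ▸ pb)
          · exact h1
        · intro i hi
          by_cases h4 : i = d
          · exact Or.inl h4
          · exact Or.inr ⟨hi, h4⟩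
    · refine F2 (T p \ {a}) a ?_ (fun h1 => (h1 (Or.inl rfl)).2 rfl) za ?_
      · rintro i ⟨hi, -⟩
        rcases hall i with h1 | h1 | h1 | h1 | h1 | h1
        · rw [h1]; exact ya
        · exact absurd hi (h1 ▸ pb)
        · rw [h1]; exact yc
        · exact absurd hi (h1 ▸ pd)
        · rw [h1]; exact ye
        · rw [h1]; exact yf
      · intro i hi
        by_cases h4 : i = a
        · exact Or.inl h4
        · exact Or.inr ⟨hi, h4⟩

end Vale.Agent.P032.Six
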