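import Vale.Agent.P032.Words.H349.TieL

/-!
# Words on a circle with crossed ends: the fact L1

`RawX` is `RawT3` without the field `two`: a point may have three letters.  A crossed end is a point
with the letters `e, f, A` (or `e, f, C`) whose two neighbours have the letter `C` (or `A`), not the
letter `e`.

`RawX.L1x`: a word in which every common point of `e` with `A` or `C` is a crossed end does not exist.
-/

namespace Vale.Agent.P032.Words

open Set Filter Topology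

/-- the word of a centre without contacts `{i, j | e, f}` -/
structure RawX (X : Fin 4 → Set ℝ) : Prop where
  closed : ∀ l, IsClosed (X l)
  cover : ∀ u, ∃ l, u ∈ X l
  per : ∀ l u, u + 6 ∈ X l ↔ u ∈ X l
  anti : ∀ u, u ∈ X 2 → u + 3 ∉ X 3
  own : ∀ u l, u ∈ X l → u + 1 ∈ X l → ∃ m, m ≠ l ∧ u ∈ X m
  own' : ∀ u l, u ∈ X l → u + 1 ∈ X l → ∃ m, m ≠ l ∧ u + 1 ∈ X m
  swap : ∀ u l m, u ∈ X l → u + 1 ∈ X l → u ∈ X m → u + 1 ∈ X m → l = m
  dbl : ∀ u l m, l ≠ m → u ∈ X l → u + 1 ∈ X l → u + 1 ∈ X m → u + 2 ∈ X m →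
    l.val < 2 ∧ m.val < 2

section
variable {X : Fin 4 → Set ℝ}

/-- no good letter: a double contact -/
theorem RawX.dbl_of (w : RawX X) {u : ℝ} (h : ¬ ∃ l, Good X u l) :
    (u ∈ X 0 ∧ u ∈ X 1) ∧ ((u - 1 ∈ X 0 ∧ u + 1 ∈ X 1) ∨ (u - 1 ∈ X 1 ∧ u + 1 ∈ X 0)) := by
  have hs : ∀ l, u ∈ X l → u - 1 ∈ X l ∨ u + 1 ∈ X l := by
    intro l hl
    by_contra hc
    push Not at hc
    exact h ⟨l, hl, hc.2, hc.1⟩
  have e : u - 1 + 1 = u := by ring
  have e2 : u - 1 + 2 = u + 1 := by ring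
  obtain ⟨l, hl⟩ := w.cover u
  obtain ⟨m, hm, hmu⟩ : ∃ m, m ≠ l ∧ u ∈ X m := by
    rcases hs l hl with h1 | h1
    · have := w.own' (u - 1) l h1 (by rw [e]; exact hl)
      rw [e] at this; exact this
    · exact w.own u l hl h1
  have key : ∀ l m : Fin 4, l ≠ m → u ∈ X l → u ∈ X m → u - 1 ∈ X l → u + 1 ∈ X m →
      (u ∈ X 0 ∧ u ∈ X 1) ∧ ((u - 1 ∈ X 0 ∧ u + 1 ∈ X 1) ∨ (u - 1 ∈ X 1 ∧ u + 1 ∈ X 0)) := by
    intro l m hlm h1 h2 h3 h4
    have d := w.dbl (u - 1) l m hlm h3 (by rw [e]; exact h1) (by rw [e]; exact h2)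
      (by rw [e2]; exact h4)
    rcases val_lt_two d.1 d.2 hlm with ⟨rfl, rfl⟩ | ⟨rfl, rfl⟩
    · exact ⟨⟨h1, h2⟩, Or.inl ⟨h3, h4⟩⟩
    · exact ⟨⟨h2, h1⟩, Or.inr ⟨h3, h4⟩⟩
  rcases hs l hl with h1 | h1 <;> rcases hs m hmu with h2 | h2
  · exact absurd (w.swap (u - 1) m l h2 (by rw [e]; exact hmu) h1 (by rw [e]; exact hl)) hm
  · exact key l m hm.symm hl hmu h1 h2
  · exact key m l hm hmu hl h2 h1
  · exact absurd (w.swap u m l hmu h2 hl h1) hm

theorem RawX.lam_mem (w : RawX X) (u : ℝ) : u ∈ X (lamT X u) := by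
  by_cases h : ∃ l, Good X u l
  · exact (lamT_good h).1
  · have := w.dbl_of h
    unfold lamT lamF
    rw [dif_neg h]
    split_ifs
    · exact this.1.2
    · exact this.1.1

theorem RawX.lam_ne (w : RawX X) (u : ℝ) : lamT X u ≠ lamT X (u + 1) := by
  intro h
  by_cases h1 : ∃ l, Good X u l
  · exact (lamT_good h1).2.1 (h ▸ w.lam_mem (u + 1))
  by_cases h2 : ∃ l, Good X (u + 1) l
  · have := (lamT_good h2).2.2
    have e : u + 1 - 1 = u := by ring
    rw [e] at this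
    exact this (h ▸ w.lam_mem u)
  obtain ⟨⟨a0, a1⟩, -⟩ := w.dbl_of h1
  obtain ⟨⟨b0, b1⟩, -⟩ := w.dbl_of h2
  exact absurd (w.swap u 0 1 a0 b0 a1 b1) (by decide)

theorem RawX.lam_per (w : RawX X) (u : ℝ) : lamT X (u + 6) = lamT X u := by
  have h1 : ∀ l, u + 6 + 1 ∈ X l ↔ u + 1 ∈ X l := by
    intro l
    have : u + 6 + 1 = u + 1 + 6 := by ring
    rw [this, w.per]
  have h2 : ∀ l, u + 6 - 1 ∈ X l ↔ u - 1 ∈ X l := by
    intro l
    have : u + 6 - 1 = u - 1 + 6 := by ring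
    rw [this, w.per]
  have hg : Good X (u + 6) = Good X u := by
    funext l
    unfold Good
    rw [w.per, h1, h2]
  unfold lamT
  rw [hg, h1, h1, h2, h2]

theorem RawX.mem_add (w : RawX X) (u : ℝ) (k : Fin 6) (l : Fin 4) :
    u + ((k + 1).val : ℝ) ∈ X l ↔ u + (k.val : ℝ) + 1 ∈ X l := by
  by_cases hk : k = 5
  · subst hk
    have h1 : ((5 : Fin 6) + 1).val = 0 := rfl
    have h2 : (5 : Fin 6).val = 5 := rfl
    rw [h1, h2]
    have : u + ((5 : ℕ) : ℝ) + 1 = (u + ((0 : ℕ) : ℝ)) + 6 := by push_cast; ring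
    rw [this, w.per]
  · have h1 : (k + 1).val = k.val + 1 := by
      have : k.val ≠ 5 := fun h => hk (Fin.ext h)
      have h6 := k.isLt
      rw [Fin.val_add_one_of_lt]
      rw [Fin.lt_def]
      show k.val < 5
      omega
    rw [h1]
    have : u + (k.val : ℝ) + 1 = u + ((k.val + 1 : ℕ) : ℝ) := by push_cast; ring
    rw [this]

theorem RawX.lam_add (w : RawX X) (u : ℝ) (k : Fin 6) :
    lamT X (u + ((k + 1).val : ℝ)) = lamT X (u + (k.val : ℝ) + 1) := by
  by_cases hk : k = 5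
  · subst hk
    have h1 : ((5 : Fin 6) + 1).val = 0 := rfl
    have h2 : (5 : Fin 6).val = 5 := rfl
    rw [h1, h2]
    have : u + ((5 : ℕ) : ℝ) + 1 = (u + ((0 : ℕ) : ℝ)) + 6 := by push_cast; ring
    rw [this, w.lam_per]
  · have h1 : (k + 1).val = k.val + 1 := by
      have : k.val ≠ 5 := fun h => hk (Fin.ext h)
      have h6 := k.isLt
      rw [Fin.val_add_one_of_lt]
      rw [Fin.lt_def]
      show k.val < 5
      omega
    rw [h1]
    have : u + (k.val : ℝ) + 1 = u + ((k.val + 1 : ℕ) : ℝ) := by push_cast; ring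
    rw [this]

theorem RawX.mem_add3 (w : RawX X) (u : ℝ) (k : Fin 6) (l : Fin 4) :
    u + ((k + 3).val : ℝ) ∈ X l ↔ u + (k.val : ℝ) + 3 ∈ X l := by
  have e : k + 3 = k + 1 + 1 + 1 := by revert k; decide
  rw [e, w.mem_add]
  have h1 := w.mem_add (u + 1) (k + 1) l
  have h2 := w.mem_add (u + 2) k l
  have e1 : u + ((k + 1 + 1).val : ℝ) + 1 = u + 1 + ((k + 1 + 1).val : ℝ) := by ring
  have e2 : u + 1 + ((k + 1).val : ℝ) + 1 = u + 2 + ((k + 1).val : ℝ) := by ring
  have e3 : u + 2 + (k.val : ℝ) + 1 = u + (k.val : ℝ) + 3 := by ring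
  rw [e1, h1, e2, h2, e3]

theorem RawX.palT (w : RawX X) (u : ℝ) : PalT (Words.palT X u) := by
  have h2 : ∀ k l, u + ((k + 1 + 1 : Fin 6).val : ℝ) ∈ X l ↔ u + (k.val : ℝ) + 2 ∈ X l := by
    intro k l
    rw [w.mem_add]
    have e : u + ((k + 1).val : ℝ) + 1 = u + 1 + ((k + 1).val : ℝ) := by ring
    rw [e, w.mem_add]
    have e : u + 1 + (k.val : ℝ) + 1 = u + (k.val : ℝ) + 2 := by ring
    rw [e]
  refine ⟨?_, ?_, ?_, ?_⟩
  · intro k l a b
    exact w.own _ l a ((w.mem_add u k l).mp b)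
  · intro k l a b
    obtain ⟨m, hm, h⟩ := w.own' _ l a ((w.mem_add u k l).mp b)
    exact ⟨m, hm, (w.mem_add u k m).mpr h⟩
  · intro k l m a b c d
    exact w.swap _ l m a ((w.mem_add u k l).mp b) c ((w.mem_add u k m).mp d)
  · intro k l m hlm a b c d
    exact w.dbl _ l m hlm a ((w.mem_add u k l).mp b) ((w.mem_add u k m).mp c) ((h2 k m).mp d)

theorem RawX.leg (w : RawX X) (u : ℝ) (g : Hx) (h1 : ∀ k, Words.palT X u k (g k))
    (h2 : ∀ k, g k ≠ g (k + 1)) : Leg4 g := by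
  refine ⟨h2, ?_⟩
  rintro k ⟨a, b⟩
  have h3 := h1 k
  have h4 := h1 (k + 3)
  rw [a] at h3
  rw [b] at h4
  exact w.anti _ h3 ((w.mem_add3 u k 3).mp h4)

theorem RawX.st_mem (w : RawX X) (u : ℝ) (k : Fin 6) : u + (k.val : ℝ) ∈ X (stT X u k) :=
  w.lam_mem _

theorem RawX.st_ne (w : RawX X) (u : ℝ) (k : Fin 6) : stT X u k ≠ stT X u (k + 1) := by
  unfold stT
  rw [w.lam_add]
  exact w.lam_ne _

theorem RawX.leg_st (w : RawX X) (u : ℝ) : Leg4 (stT X u) := w.leg u _ (w.st_mem u) (w.st_ne u)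

theorem RawX.st_add_one (w : RawX X) (u : ℝ) : stT X (u + 1) = rot (stT X u) := by
  funext k
  show lamT X (u + 1 + (k.val : ℝ)) = lamT X (u + ((k + 1).val : ℝ))
  rw [w.lam_add]
  congr 1
  ring

/-- Near `u` only letters available at `u` occur. -/
theorem RawX.near (w : RawX X) (u : ℝ) :
    ∀ᶠ v in 𝓝 u, ∀ k : Fin 6, ∀ l, v + (k.val : ℝ) ∈ X l → u + (k.val : ℝ) ∈ X l := by
  rw [eventually_all]
  intro k
  rw [eventually_all]
  intro l
  by_cases h : u + (k.val : ℝ) ∈ X l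
  · exact Eventually.of_forall fun v _ => h
  · have hc : Continuous fun v : ℝ => v + (k.val : ℝ) := by fun_prop
    have := (hc.tendsto u).eventually ((w.closed l).isOpen_compl.mem_nhds h)
    filter_upwards [this] with v hv hv'
    exact absurd hv' hv

variable {free : Fin 4 → Fin 4 → Prop} {cmp : Hx → ℕ}

/-- Two proper selections at `u`. -/
theorem RawX.cmp_eq (w : RawX X)
    (hstep : ∀ h k l, Leg4 h → Leg4 (Function.update h k l) → free (h k) l →
      cmp (Function.update h k l) = cmp h)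
    (hrefl : ∀ x, free x x) (u : ℝ) {h h' : Hx} (hh : ∀ k, u + (k.val : ℝ) ∈ X (h k))
    (hh' : ∀ k, u + (k.val : ℝ) ∈ X (h' k)) (hp : ∀ k, h k ≠ h (k + 1))
    (hp' : ∀ k, h' k ≠ h' (k + 1)) (hf : ∀ k, free (h k) (h' k)) : cmp h = cmp h' :=
  (w.palT u).path hstep hrefl (w.leg u) _ h h' le_rfl hh hh' hp hp' hf

end

section
variable {X : Fin 4 → Set ℝ}

/-- a common point of `e` and `A` at the position `k` -/
def CA (P : Fin 6 → Fin 4 → Prop) (k : Fin 6) : Prop := P k 0 ∧ P k 2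

/-- a common point of `e` and `C` at the position `k` -/
def CC (P : Fin 6 → Fin 4 → Prop) (k : Fin 6) : Prop := P k 0 ∧ P k 3

/-- six palettes around the circle, the common points of `e` with `A`, `C` are crossed -/
structure PX (P : Fin 6 → Fin 4 → Prop) : Prop where
  n23 : ∀ k, P k 2 → ¬ P k 3
  a1 : ∀ k, CA P k → P k 1
  a3 : ∀ k, CA P k → P (k + 1) 3 ∧ P (k - 1) 3
  a13 : ∀ k, CA P k → ∀ l, (P (k + 1) l ∨ P (k - 1) l) → l = 1 ∨ l = 3
  a2 : ∀ k, CA P k → ¬ P (k + 1 + 1) 3 ∧ ¬ P (k - 1 - 1) 3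
  c1 : ∀ k, CC P k → P k 1
  c3 : ∀ k, CC P k → P (k + 1) 2 ∧ P (k - 1) 2
  c13 : ∀ k, CC P k → ∀ l, (P (k + 1) l ∨ P (k - 1) l) → l = 1 ∨ l = 2
  c2 : ∀ k, CC P k → ¬ P (k + 1 + 1) 2 ∧ ¬ P (k - 1 - 1) 2

open Classical in
/-- the selection with `f` at the crossed ends and the letters of the flanks -/
noncomputable def nrm (P : Fin 6 → Fin 4 → Prop) (h : Hx) : Hx := fun k =>
  if CA P k ∨ CC P k then 1
  else if CA P (k + 1) ∨ CA P (k - 1) then 3
  else if CC P (k + 1) ∨ CC P (k - 1) then 2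
  else h k

namespace PX

variable {P : Fin 6 → Fin 4 → Prop} {h h' : Hx}

theorem sub_add (k : Fin 6) : k - 1 + 1 = k := by revert k; decide

theorem add_sub (k : Fin 6) : k + 1 - 1 = k := by revert k; decide

/-- neighbours of a crossed position are not crossed -/
theorem nbr (w : PX P) {k : Fin 6} (h : CA P k ∨ CC P k) :
    ¬ (CA P (k + 1) ∨ CC P (k + 1)) ∧ ¬ (CA P (k - 1) ∨ CC P (k - 1)) := by
  have key : ∀ j, (j = k + 1 ∨ j = k - 1) → ¬ P j 0 := by
    intro j hj h0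
    have h0' : P (k + 1) 0 ∨ P (k - 1) 0 := by
      rcases hj with rfl | rfl
      · exact Or.inl h0
      · exact Or.inr h0
    rcases h with h | h
    · rcases w.a13 k h 0 h0' with h1 | h1 <;> exact absurd h1 (by decide)
    · rcases w.c13 k h 0 h0' with h1 | h1 <;> exact absurd h1 (by decide)
  constructor
  · rintro (h1 | h1)
    · exact key _ (Or.inl rfl) h1.1
    · exact key _ (Or.inl rfl) h1.1
  · rintro (h1 | h1)
    · exact key _ (Or.inr rfl) h1.1
    · exact key _ (Or.inr rfl) h1.1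

theorem nrm_mem (w : PX P) (hh : ∀ k, P k (h k)) (k : Fin 6) : P k (nrm P h k) := by
  unfold nrm
  split_ifs with h1 h2 h3
  · rcases h1 with h1 | h1
    · exact w.a1 k h1
    · exact w.c1 k h1
  · rcases h2 with h2 | h2
    · have := (w.a3 _ h2).2
      rwa [add_sub] at this
    · have := (w.a3 _ h2).1
      rwa [sub_add] at this
  · rcases h3 with h3 | h3
    · have := (w.c3 _ h3).2
      rwa [add_sub] at this
    · have := (w.c3 _ h3).1
      rwa [sub_add] at this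
  · exact hh k

theorem nrm_ne (w : PX P) (hh : ∀ k, P k (h k)) (hp : ∀ k, h k ≠ h (k + 1)) (k : Fin 6) :
    nrm P h k ≠ nrm P h (k + 1) := by
  unfold nrm
  rw [add_sub]
  by_cases k1 : CA P k ∨ CC P k
  · have hn := (w.nbr k1).1
    rw [if_pos k1, if_neg hn]
    rcases k1 with k1 | k1
    · rw [if_pos (Or.inr k1)]; decide
    · have h2 : ¬ (CA P (k + 1 + 1) ∨ CA P k) := by
        rintro (h3 | h3)
        · have h4 := (w.a3 _ h3).2
          rw [add_sub] at h4
          rcases w.c13 k k1 3 (Or.inl h4) with h5 | h5 <;> exact absurd h5 (by decide)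
        · exact w.n23 k h3.2 k1.2
      rw [if_neg h2, if_pos (Or.inr k1)]; decide
  rw [if_neg k1]
  by_cases k2 : CA P (k + 1) ∨ CC P (k + 1)
  · rw [if_pos k2]
    rcases k2 with k2 | k2
    · rw [if_pos (Or.inl k2)]; decide
    · have h2 : ¬ (CA P (k + 1) ∨ CA P (k - 1)) := by
        rintro (h3 | h3)
        · exact w.n23 _ h3.2 k2.2
        · have h4 := (w.a3 _ h3).1
          rw [sub_add] at h4
          rcases w.c13 _ k2 3 (Or.inr (by rw [add_sub]; exact h4)) with h5 | h5 <;>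
            exact absurd h5 (by decide)
      rw [if_neg h2, if_pos (Or.inl k2)]; decide
  rw [if_neg k2]
  have e1 : k - 1 + 1 + 1 = k + 1 := by rw [sub_add]
  have e2 : k + 1 + 1 - 1 - 1 = k := by rw [add_sub, add_sub]
  have nA : CA P (k - 1) → ¬ P (k + 1) 3 := fun h3 => by
    have := (w.a2 _ h3).1
    rwa [e1] at this
  have nC : CC P (k - 1) → ¬ P (k + 1) 2 := fun h3 => by
    have := (w.c2 _ h3).1
    rwa [e1] at this
  have nA' : CA P (k + 1 + 1) → ¬ P k 3 := fun h3 => by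
    have := (w.a2 _ h3).2
    rwa [e2] at this
  have nC' : CC P (k + 1 + 1) → ¬ P k 2 := fun h3 => by
    have := (w.c2 _ h3).2
    rwa [e2] at this
  have pA : CA P (k + 1 + 1) → P (k + 1) 3 := fun h3 => by
    have := (w.a3 _ h3).2
    rwa [add_sub] at this
  have pC : CC P (k + 1 + 1) → P (k + 1) 2 := fun h3 => by
    have := (w.c3 _ h3).2
    rwa [add_sub] at this
  have r1 : (CA P (k + 1) ∨ CA P (k - 1)) → CA P (k - 1) := fun h3 => by
    rcases h3 with h3 | h3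
    · exact absurd (Or.inl h3) k2
    · exact h3
  have r2 : (CC P (k + 1) ∨ CC P (k - 1)) → CC P (k - 1) := fun h3 => by
    rcases h3 with h3 | h3
    · exact absurd (Or.inr h3) k2
    · exact h3
  have r3 : (CA P (k + 1 + 1) ∨ CA P k) → CA P (k + 1 + 1) := fun h3 => by
    rcases h3 with h3 | h3
    · exact h3
    · exact absurd (Or.inl h3) k1
  have r4 : (CC P (k + 1 + 1) ∨ CC P k) → CC P (k + 1 + 1) := fun h3 => by
    rcases h3 with h3 | h3
    · exact h3
    · exact absurd (Or.inr h3) k1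
  have hk := hh k
  have hk1 := hh (k + 1)
  split_ifs with s1 s2 s3 s4 s5 s6 s7 s8
  · exact fun _ => nA (r1 s1) (pA (r3 s2))
  · decide
  · intro h5
    exact nA (r1 s1) (by rw [h5]; exact hk1)
  · decide
  · exact fun _ => nC (r2 s4) (pC (r4 s6))
  · intro h5
    exact nC (r2 s4) (by rw [h5]; exact hk1)
  · intro h5
    exact nA' (r3 s7) (by rw [← h5]; exact hk)
  · intro h5
    exact nC' (r4 s8) (by rw [← h5]; exact hk)
  · exact hp k

theorem nrm_free (w : PX P) (hh : ∀ k, P k (h k)) (k : Fin 6) :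
    fr1 (h k).val (nrm P h k).val = true := by
  have hf1 : ∀ x : Fin 4, fr1 x.val (1 : Fin 4).val = true := by decide
  have hf : ∀ x : Fin 4, fr1 x.val x.val = true := by decide
  have h13 : fr1 (1 : Fin 4).val (3 : Fin 4).val = true := by decide
  have h12 : fr1 (1 : Fin 4).val (2 : Fin 4).val = true := by decide
  unfold nrm
  have hk := hh k
  split_ifs with h1 h2 h3
  · exact hf1 _
  · have : h k = 1 ∨ h k = 3 := by
      rcases h2 with h2 | h2
      · exact w.a13 _ h2 _ (Or.inr (by rw [add_sub]; exact hk))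
      · exact w.a13 _ h2 _ (Or.inl (by rw [sub_add]; exact hk))
    rcases this with h5 | h5 <;> rw [h5]
    · exact h13
    · exact hf 3
  · have : h k = 1 ∨ h k = 2 := by
      rcases h3 with h2 | h2
      · exact w.c13 _ h2 _ (Or.inr (by rw [add_sub]; exact hk))
      · exact w.c13 _ h2 _ (Or.inl (by rw [sub_add]; exact hk))
    rcases this with h5 | h5 <;> rw [h5]
    · exact h12
    · exact hf 2
  · exact hf _

theorem nrm_nrm (w : PX P) (hh : ∀ k, P k (h k)) (hh' : ∀ k, P k (h' k)) (k : Fin 6) :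
    fr1 (nrm P h k).val (nrm P h' k).val = true := by
  have hf : ∀ x : Fin 4, fr1 x.val x.val = true := by decide
  unfold nrm
  by_cases h1 : CA P k ∨ CC P k
  · rw [if_pos h1, if_pos h1]; exact hf 1
  rw [if_neg h1, if_neg h1]
  by_cases h2 : CA P (k + 1) ∨ CA P (k - 1)
  · rw [if_pos h2, if_pos h2]; exact hf 3
  rw [if_neg h2, if_neg h2]
  by_cases h3 : CC P (k + 1) ∨ CC P (k - 1)
  · rw [if_pos h3, if_pos h3]; exact hf 2
  rw [if_neg h3, if_neg h3]
  have n02 : P k 0 → P k 2 → False := fun h h' => h1 (Or.inl ⟨h, h'⟩)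
  have n03 : P k 0 → P k 3 → False := fun h h' => h1 (Or.inr ⟨h, h'⟩)
  have n23 : P k 2 → P k 3 → False := fun h h' => w.n23 k h h'
  have ha := hh k
  have hb := hh' k
  generalize h k = x at ha ⊢
  generalize h' k = y at hb ⊢
  fin_cases x <;> fin_cases y <;> first
    | rfl
    | exact (n02 ha hb).elim
    | exact (n02 hb ha).elim
    | exact (n03 ha hb).elim
    | exact (n03 hb ha).elim
    | exact (n23 ha hb).elim
    | exact (n23 hb ha).elim

end PX

/-- a crossed end at `u`: the neighbours have the letter `c` and not the letter `e` -/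
structure Crs (X : Fin 4 → Set ℝ) (c : Fin 4) (u : ℝ) : Prop where
  m1 : u ∈ X 1
  p1 : u + 1 ∈ X c
  q1 : u - 1 ∈ X c
  p0 : ∀ l, u + 1 ∈ X l → l = 1 ∨ l = c
  q0 : ∀ l, u - 1 ∈ X l → l = 1 ∨ l = c
  p2 : u + 2 ∉ X c
  q2 : u - 2 ∉ X c

theorem RawX.mem_sub (w : RawX X) (u : ℝ) (k : Fin 6) (l : Fin 4) :
    u + ((k - 1).val : ℝ) ∈ X l ↔ u + (k.val : ℝ) - 1 ∈ X l := by
  have h1 := w.mem_add (u - 1) (k - 1) l
  rw [PX.sub_add] at h1
  have e1 : u - 1 + (k.val : ℝ) = u + (k.val : ℝ) - 1 := by ring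
  have e2 : u - 1 + ((k - 1).val : ℝ) + 1 = u + ((k - 1).val : ℝ) := by ring
  rw [e1, e2] at h1
  exact h1.symm

theorem RawX.px (w : RawX X) (h23 : ∀ u, u ∈ X 2 → u ∉ X 3)
    (h02 : ∀ u, u ∈ X 0 → u ∈ X 2 → Crs X 3 u) (h03 : ∀ u, u ∈ X 0 → u ∈ X 3 → Crs X 2 u) (u : ℝ) :
    PX (Words.palT X u) := by
  have a2 : ∀ k l, Words.palT X u (k + 1 + 1) l ↔ u + (k.val : ℝ) + 2 ∈ X l := by
    intro k l
    have h1 := w.mem_add u (k + 1) l
    have h2 := w.mem_add (u + 1) k l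
    have e1 : u + ((k + 1).val : ℝ) + 1 = u + 1 + ((k + 1).val : ℝ) := by ring
    have e2 : u + 1 + (k.val : ℝ) + 1 = u + (k.val : ℝ) + 2 := by ring
    rw [e1, h2, e2] at h1
    exact h1
  have s2 : ∀ k l, Words.palT X u (k - 1 - 1) l ↔ u + (k.val : ℝ) - 2 ∈ X l := by
    intro k l
    have h1 := w.mem_sub u (k - 1) l
    have h2 := w.mem_sub (u - 1) k l
    have e1 : u + ((k - 1).val : ℝ) - 1 = u - 1 + ((k - 1).val : ℝ) := by ring
    have e2 : u - 1 + (k.val : ℝ) - 1 = u + (k.val : ℝ) - 2 := by ring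
    rw [e1, h2, e2] at h1
    exact h1
  have c2 : ∀ k, CA (Words.palT X u) k → Crs X 3 (u + (k.val : ℝ)) := fun k h => h02 _ h.1 h.2
  have c3 : ∀ k, CC (Words.palT X u) k → Crs X 2 (u + (k.val : ℝ)) := fun k h => h03 _ h.1 h.2
  refine
    { n23 := fun k => h23 _
      a1 := fun k h => (c2 k h).m1
      a3 := fun k h => ⟨(w.mem_add u k 3).2 (c2 k h).p1, (w.mem_sub u k 3).2 (c2 k h).q1⟩
      a13 := fun k h l hl => ?_
      a2 := fun k h => ⟨fun h1 => (c2 k h).p2 ((a2 k 3).1 h1), fun h1 => (c2 k h).q2 ((s2 k 3).1 h1)⟩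
      c1 := fun k h => (c3 k h).m1
      c3 := fun k h => ⟨(w.mem_add u k 2).2 (c3 k h).p1, (w.mem_sub u k 2).2 (c3 k h).q1⟩
      c13 := fun k h l hl => ?_
      c2 := fun k h => ⟨fun h1 => (c3 k h).p2 ((a2 k 2).1 h1),
        fun h1 => (c3 k h).q2 ((s2 k 2).1 h1)⟩ }
  · rcases hl with hl | hl
    · exact (c2 k h).p0 l ((w.mem_add u k l).1 hl)
    · exact (c2 k h).q0 l ((w.mem_sub u k l).1 hl)
  · rcases hl with hl | hl
    · exact (c3 k h).p0 l ((w.mem_add u k l).1 hl)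
    · exact (c3 k h).q0 l ((w.mem_sub u k l).1 hl)

/-- **L1 with crossed ends**: every common point of `e` with `A` or `C` is a crossed end: there is no
word -/
theorem RawX.L1x (w : RawX X) (h23 : ∀ u, u ∈ X 2 → u ∉ X 3)
    (h02 : ∀ u, u ∈ X 0 → u ∈ X 2 → Crs X 3 u) (h03 : ∀ u, u ∈ X 0 → u ∈ X 3 → Crs X 2 u) :
    False := by
  have hstep : ∀ (h : Fin 6 → Fin 4) k l, Leg4 h → Leg4 (Function.update h k l) →
      (fun x y : Fin 4 => fr1 x.val y.val = true) (h k) l →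
      (fun g => cN T1 (code g)) (Function.update h k l) = (fun g => cN T1 (code g)) h :=
    fun h k l h1 h2 h3 => step_of_chk chkFree1 h k l h1 h2 h3
  have hrefl : ∀ x : Fin 4, (fun x y : Fin 4 => fr1 x.val y.val = true) x x := by
    intro x; simp [fr1]
  have key : ∀ (u : ℝ) (h h' : Hx), (∀ k : Fin 6, u + (k.val : ℝ) ∈ X (h k)) →
      (∀ k : Fin 6, u + (k.val : ℝ) ∈ X (h' k)) → (∀ k, h k ≠ h (k + 1)) →
      (∀ k, h' k ≠ h' (k + 1)) → cN T1 (code h) = cN T1 (code h') := by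
    intro u h h' hh hh' hp hp'
    have W := w.px h23 h02 h03 u
    have e1 := w.cmp_eq (free := fun x y : Fin 4 => fr1 x.val y.val = true)
      (cmp := fun g => cN T1 (code g)) hstep hrefl u hh (W.nrm_mem hh) hp (W.nrm_ne hh hp)
      (W.nrm_free hh)
    have e2 := w.cmp_eq (free := fun x y : Fin 4 => fr1 x.val y.val = true)
      (cmp := fun g => cN T1 (code g)) hstep hrefl u hh' (W.nrm_mem hh') hp' (W.nrm_ne hh' hp')
      (W.nrm_free hh')
    have e3 := w.cmp_eq (free := fun x y : Fin 4 => fr1 x.val y.val = true)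
      (cmp := fun g => cN T1 (code g)) hstep hrefl u (W.nrm_mem hh) (W.nrm_mem hh')
      (W.nrm_ne hh hp) (W.nrm_ne hh' hp') (W.nrm_nrm hh hh')
    exact e1.trans (e3.trans e2.symm)
  have hc : Continuous (fun u => cN T1 (code (stT X u))) := by
    rw [continuous_iff_continuousAt]
    intro x
    have h1 : ∀ᶠ v in 𝓝 x, cN T1 (code (stT X v)) = cN T1 (code (stT X x)) := by
      filter_upwards [w.near x] with v hv
      exact key x _ _ (fun k => hv k _ (w.st_mem v k)) (w.st_mem x) (w.st_ne v) (w.st_ne x)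
    have : Tendsto (fun u => cN T1 (code (stT X u))) (𝓝 x) (pure (cN T1 (code (stT X x)))) := by
      rw [tendsto_pure]; exact h1
    exact this.mono_right (pure_le_nhds _)
  have hconst : cN T1 (code (stT X 0)) = cN T1 (code (stT X (0 + 1))) :=
    PreconnectedSpace.constant inferInstance hc
  rw [w.st_add_one] at hconst
  exact rot_of_chk chkRot1 (w.leg_st 0) hconst.symm

end

end Vale.Agent.P032.Words
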