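import Vale.Agent.P032.R2.H939.TwoL3
import Vale.Agent.P032.R2.H939.TieX
import Vale.Agent.P032.R2.H939.HEnd

/-!
# P032: the word of a centre without contacts `{i, j | e, f}`, in the world `WT`

* `WT.rawX` : the word is a `RawX`.
* `WT.e_end` : there is a real end of a type with `e`.
-/

open Set Filter Topology Metric

noncomputable section

namespace Vale.Agent.P032.Six

open Vale.Agent.P032.S5.H767 Vale.Agent.P032.Words

variable {U : Fin 6 → Set ℂ} {T : ℂ → Set (Fin 6)} {z y p q : ℂ} {a b c d e f : Fin 6}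

theorem fin4_939 (l : Fin 4) : l = 0 ∨ l = 1 ∨ l = 2 ∨ l = 3 := by revert l; decide

theorem nd_swap939 (nd : [a, b, c, d, e, f].Nodup) : [c, d, a, b, e, f].Nodup := by
  obtain ⟨⟨ab, ac, ad, ae, af⟩, ⟨bc, bd, be, bf⟩, ⟨cd, ce, cf⟩, ⟨de, df⟩, ef⟩ := nodup_sep nd
  simp [ab, Ne.symm ac, Ne.symm ad, ae, af, Ne.symm bc, Ne.symm bd, be, bf, cd, ce, cf, de, df, ef]

namespace WT

/-- a contact with both colours of a pair of the centre -/
theorem pal_same939 (H : WT U T) (hz : DPt T z a b c d) (nd : [a, b, c, d, e, f].Nodup)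
    (hyz : dist y z = 1) (hy4 : 4 ≤ (T y).ncard) (ha : a ∈ T y) (hb : b ∈ T y) :
    T y = {a, b, e, f} := by
  obtain ⟨⟨ab, ac, ad, ae, af⟩, ⟨bc, bd, be, bf⟩, ⟨cd, ce, cf⟩, ⟨de, df⟩, ef⟩ := nodup_sep nd
  have hy4' : (T y).ncard = 4 := by have := H.le4 hz.card.ge hyz; omega
  obtain ⟨he, hf⟩ := H.ef_of_four hz nd hyz hy4
  refine (Set.eq_of_subset_of_ncard_le ?_ ?_ (Set.toFinite _)).symm
  · rintro i (rfl | rfl | rfl | hi)
    · exact ha
    · exact hb
    · exact he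
    · rw [mem_singleton_iff] at hi; rw [hi]; exact hf
  · rw [card_four (by simp [ab, ae, af, be, bf, ef]), hy4']

/-- flanks of a contact with both colours `a, b` -/
theorem flankA (H : WT U T) (hmin : MinF U T) (hz : DPt T z a b c d)
    (nd : [a, b, c, d, e, f].Nodup) (hyz : dist y z = 1) (hy4 : 4 ≤ (T y).ncard) (ha : a ∈ T y)
    (hb : b ∈ T y) (hpz : dist p z = 1) (hpy : dist p y = 1) :
    (c ∈ T p ∧ d ∈ T p) ∧ a ∉ T p ∧ b ∉ T p :=
  H.flank_same hmin hz nd hyz (H.pal_same939 hz nd hyz hy4 ha hb) hpz hpy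

/-- flanks of a contact with both colours `c, d` -/
theorem flankC (H : WT U T) (hmin : MinF U T) (hz : DPt T z a b c d)
    (nd : [a, b, c, d, e, f].Nodup) (hyz : dist y z = 1) (hy4 : 4 ≤ (T y).ncard) (hc : c ∈ T y)
    (hd : d ∈ T y) (hpz : dist p z = 1) (hpy : dist p y = 1) :
    (a ∈ T p ∧ b ∈ T p) ∧ c ∉ T p ∧ d ∉ T p :=
  H.flankA hmin hz.swap (nd_swap939 nd) hyz hy4 hc hd hpz hpy

/-- two common letters of a contact and its flank -/
theorem swapN (H : WT U T) (hmin : MinF U T) (hz : DPt T z a b c d)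
    (nd : [a, b, c, d, e, f].Nodup) (hR : NoR T z) (hpy : dist p y = 1) (hy4 : 4 ≤ (T y).ncard)
    {l m : Fin 4} (hlm : l ≠ m) (h1 : y ∈ Lt T z a b c d e f l) (h2 : p ∈ Lt T z a b c d e f l)
    (h3 : y ∈ Lt T z a b c d e f m) (h4 : p ∈ Lt T z a b c d e f m) : False := by
  have h := H.irr
  obtain ⟨⟨ab, ac, ad, ae, af⟩, ⟨bc, bd, be, bf⟩, ⟨cd, ce, cf⟩, ⟨de, df⟩, ef⟩ := nodup_sep nd
  have hyz := Lt_dist h1
  have hpz := Lt_dist h2
  have he : e ∉ T z := by rw [hz.pal]; simp [Ne.symm ae, Ne.symm be, Ne.symm ce, Ne.symm de]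
  have hf : f ∉ T z := by rw [hz.pal]; simp [Ne.symm af, Ne.symm bf, Ne.symm cf, Ne.symm df]
  have k2 : ∀ {l : Fin 4}, y ∈ Lt T z a b c d e f l → p ∈ Lt T z a b c d e f l → l ≠ 2 := by
    rintro l g1 g2 rfl
    obtain ⟨x1, x2⟩ := let2 h g1
    exact (H.flankA hmin hz nd hyz hy4 x1 x2 hpz hpy).2.1 (let2 h g2).1
  have k3 : ∀ {l : Fin 4}, y ∈ Lt T z a b c d e f l → p ∈ Lt T z a b c d e f l → l ≠ 3 := by
    rintro l g1 g2 rfl
    obtain ⟨x1, x2⟩ := let3 h g1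
    exact (H.flankC hmin hz nd hyz hy4 x1 x2 hpz hpy).2.1 (let3 h g2).1
  have key : ∀ l m : Fin 4, l ≠ m → l ≠ 2 → l ≠ 3 → m ≠ 2 → m ≠ 3 → (l = 0 ∧ m = 1) ∨
      (l = 1 ∧ m = 0) := by decide
  have hep : e ∈ T p ∧ f ∈ T p := by
    rcases key l m hlm (k2 h1 h2) (k3 h1 h2) (k2 h3 h4) (k3 h3 h4) with ⟨rfl, rfl⟩ | ⟨rfl, rfl⟩
    · exact ⟨h2.2, h4.2⟩
    · exact ⟨h4.2, h2.2⟩
  obtain ⟨i, j, -, -, hD⟩ := H.swap_s4r hmin hz nd hyz hpz hpy hy4 hep.1 hep.2
  exact hR y i j e f hyz hD he hf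

/-- a letter shared with one neighbour, another letter shared with the other neighbour -/
theorem dblN (H : WT U T) (hmin : MinF U T) (hz : DPt T z a b c d)
    (nd : [a, b, c, d, e, f].Nodup) {y' y'' : ℂ} {l m : Fin 4} (hlm : l ≠ m)
    (hyy : dist y y' = 1) (hyy' : dist y y'' = 1) (hne : y'' ≠ y') (hne2 : y'' + y' ≠ 2 * y)
    (hl : y ∈ Lt T z a b c d e f l) (hl' : y' ∈ Lt T z a b c d e f l)
    (hm : y ∈ Lt T z a b c d e f m) (hm' : y'' ∈ Lt T z a b c d e f m) : l.val < 2 := by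
  have h := H.irr
  have C := ctr_of_dpt h hz nd
  obtain ⟨⟨ab, ac, ad, ae, af⟩, ⟨bc, bd, be, bf⟩, ⟨cd, ce, cf⟩, ⟨de, df⟩, ef⟩ := nodup_sep nd
  have hyz := Lt_dist hl
  have hyz' := Lt_dist hl'
  have hyy2 : dist y' y = 1 := by rw [dist_comm]; exact hyy
  by_contra hcon
  have h23 : ∀ l : Fin 4, ¬ l.val < 2 → l = 2 ∨ l = 3 := by decide
  rcases h23 l hcon with rfl | rfl
  · obtain ⟨x1, x2⟩ := let2 h hl
    obtain ⟨x1', x2'⟩ := let2 h hl'
    by_cases h4 : 4 ≤ (T y).ncard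
    · exact (H.flankA hmin hz nd hyz h4 x1 x2 hyz' hyy2).2.1 x1'
    by_cases h4' : 4 ≤ (T y').ncard
    · exact (H.flankA hmin hz nd hyz' h4' x1' x2' hyz hyy).2.1 x1
    exact C.dblPair hlm hyy hyy' hne hne2 (by omega) (by omega) ab hyz hyz' x1 x2 x1' x2'
      (fun h => C.ne_col hlm (Or.inl rfl) h rfl) (fun h => C.ne_col hlm (Or.inr rfl) h rfl) hm hm'
  · obtain ⟨x1, x2⟩ := let3 h hl
    obtain ⟨x1', x2'⟩ := let3 h hl'
    by_cases h4 : 4 ≤ (T y).ncard
    · exact (H.flankC hmin hz nd hyz h4 x1 x2 hyz' hyy2).2.1 x1'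
    by_cases h4' : 4 ≤ (T y').ncard
    · exact (H.flankC hmin hz nd hyz' h4' x1' x2' hyz hyy).2.1 x1
    exact C.dblPair hlm hyy hyy' hne hne2 (by omega) (by omega) cd hyz hyz' x1 x2 x1' x2'
      (fun h => C.ne_col hlm (Or.inl rfl) h rfl) (fun h => C.ne_col hlm (Or.inr rfl) h rfl) hm hm'

/-- **the word of a centre without contacts `{i, j | e, f}`** -/
theorem rawX (H : WT U T) (hmin : MinF U T) (hz : DPt T z a b c d)
    (nd : [a, b, c, d, e, f].Nodup) (hR : NoR T z) : RawX (Xs T z a b c d e f) := by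
  have C := ctr_of_dpt H.irr hz nd
  have w := C.rawU hz
  refine
    { closed := C.x_closed
      cover := C.x_cover
      per := C.x_per
      anti := w.anti
      own := fun u l h h' => C.x_own h h'
      own' := fun u l h h' => C.x_own' h h'
      swap := fun u l m h1 h2 h3 h4 => ?_
      dbl := fun u l m hlm h1 h2 h3 h4 => ?_ }
  · by_contra hlm
    by_cases h5 : 4 ≤ (T (pt z u)).ncard
    · exact H.swapN hmin hz nd hR (by rw [dist_comm]; exact dist_pt_one z u) h5 hlm h1 h2 h3 h4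
    by_cases h6 : 4 ≤ (T (pt z (u + 1))).ncard
    · exact H.swapN hmin hz nd hR (dist_pt_one z u) h6 hlm h2 h1 h4 h3
    exact hlm (C.x_swap (by omega) (by omega) h1 h2 h3 h4)
  · obtain ⟨n1, n2⟩ := pt_off z u
    have d1 : dist (pt z (u + 1)) (pt z u) = 1 := by rw [dist_comm]; exact dist_pt_one z u
    have d2 : dist (pt z (u + 1)) (pt z (u + 2)) = 1 := by
      have := dist_pt_one z (u + 1)
      have e1 : u + 1 + 1 = u + 2 := by ring
      rw [e1] at this; exact this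
    exact ⟨H.dblN hmin hz nd hlm d1 d2 n1 n2 h2 h1 h3 h4,
      H.dblN hmin hz nd hlm.symm d2 d1 n1.symm (by rw [add_comm]; exact n2) h3 h4 h2 h1⟩

/-- **flanks of a crossed end**, if there is no real end `{c, d, e}` -/
theorem flX (H : WT U T) (hmin : MinF U T) (hz : DPt T z a b c d)
    (nd : [a, b, c, d, e, f].Nodup)
    (hC : ∀ x, T x = {c, d, e} → x ∉ closure (Ex T z {c, d})) (hp : dist p z = 1)
    (h4 : 4 ≤ (T p).ncard) (ha : a ∈ T p) (hb : b ∈ T p) (hq : dist q z = 1)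
    (hqp : dist q p = 1) :
    q ∈ closure (Ex T z {c, d}) ∧ e ∉ T q ∧ a ∉ T q ∧ ∀ x, dist x z = 1 → dist q x = 1 → x ≠ p →
      x + p ≠ 2 * q → x ∉ closure (Ex T z {c, d}) := by
  have h := H.irr
  have C := ctr_of_dpt h hz nd
  have hall := all_six nd
  obtain ⟨⟨ab, ac, ad, ae, af⟩, ⟨bc, bd, be, bf⟩, ⟨cd, ce, cf⟩, ⟨de, df⟩, ef⟩ := nodup_sep nd
  obtain ⟨⟨qc, qd⟩, qa, qb⟩ := H.flankA hmin hz nd hp h4 ha hb hq hqp
  obtain ⟨pe, pf⟩ := H.ef_of_four hz nd hp h4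
  have hqp' : dist p q = 1 := by rw [dist_comm]; exact hqp
  have hq3 : (T q).ncard ≤ 3 := by
    by_contra h5
    exact H.no_tri hmin hz hp hq hqp h4 (by omega)
  have notef : ¬ (e ∈ T q ∧ f ∈ T q) := fun h5 =>
    four_false hq3 qc qd h5.1 h5.2 cd ce cf de df ef
  -- the letters of `q`
  have m2 : q ∉ Lt T z a b c d e f 2 := fun h5 => qa (let2 h h5).1
  have qe : e ∉ T q := by
    intro h5
    have hT : T q = {c, d, e} := eq_three hq3 qc qd h5 cd ce de
    have h6 := hC q hT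
    refine C.int (l := 0) hq (fun m hm => ?_) hp hqp ⟨hp, pe⟩
    rcases fin4_939 m with rfl | rfl | rfl | rfl
    · rfl
    · exact absurd ⟨h5, hm.2⟩ notef
    · exact absurd hm m2
    · exact absurd hm h6
  have qC : q ∈ closure (Ex T z {c, d}) := by
    by_contra h6
    refine C.int (l := 1) hq (fun m hm => ?_) hp hqp ⟨hp, pf⟩
    rcases fin4_939 m with rfl | rfl | rfl | rfl
    · exact absurd hm.2 qe
    · rfl
    · exact absurd hm m2
    · exact absurd hm h6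
  refine ⟨qC, qe, qa, fun x hx hqx n1 n2 hxC => ?_⟩
  have hxL : x ∈ Lt T z a b c d e f 3 := hxC
  obtain ⟨xc, xd⟩ := let3 h hxL
  have hx3 : (T x).ncard ≤ 3 := by
    by_contra h5
    exact (H.flankC hmin hz nd hx (by omega) xc xd hq hqx).2.1 qc
  by_cases qf : f ∈ T q
  · exact C.dblPair (l := 3) (m := 1) (by decide) hqx hqp (Ne.symm n1) (by rw [add_comm]; exact n2)
      hq3 hx3 cd hq hx qc qd xc xd (fun h => cf h) (fun h => df h) ⟨hq, qf⟩ ⟨hp, pf⟩
  · refine C.int (l := 3) hq (fun m hm => ?_) hx hqx hxL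
    rcases fin4_939 m with rfl | rfl | rfl | rfl
    · exact absurd hm.2 qe
    · exact absurd hm.2 qf
    · exact absurd hm m2
    · rfl

/-- **there is a real end of a type with `e`** on the circle of a centre without contacts
`{i, j | e, f}` -/
theorem e_end (H : WT U T) (hmin : MinF U T) (hz : DPt T z a b c d)
    (nd : [a, b, c, d, e, f].Nodup) (hR : NoR T z) :
    ∃ x, (T x = {a, b, e} ∧ x ∈ closure (Ex T z {a, b})) ∨
      (T x = {c, d, e} ∧ x ∈ closure (Ex T z {c, d})) := by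
  by_contra hcon
  push Not at hcon
  have h := H.irr
  have C := ctr_of_dpt h hz nd
  have hA : ∀ x, T x = {a, b, e} → x ∉ closure (Ex T z {a, b}) := fun x => (hcon x).1
  have hC : ∀ x, T x = {c, d, e} → x ∉ closure (Ex T z {c, d}) := fun x => (hcon x).2
  obtain ⟨⟨ab, ac, ad, ae, af⟩, ⟨bc, bd, be, bf⟩, ⟨cd, ce, cf⟩, ⟨de, df⟩, ef⟩ := nodup_sep nd
  have nd2 := nd_swap939 nd
  have e1 : ∀ u : ℝ, u - 1 + 1 = u := fun u => by ring
  have dR : ∀ u : ℝ, dist (pt z (u + 1)) (pt z u) = 1 := fun u => by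
    rw [dist_comm]; exact dist_pt_one z u
  have dR2 : ∀ u : ℝ, dist (pt z (u + 1)) (pt z (u + 2)) = 1 := fun u => by
    have := dist_pt_one z (u + 1)
    have e1 : u + 1 + 1 = u + 2 := by ring
    rw [e1] at this; exact this
  have dL : ∀ u : ℝ, dist (pt z (u - 1)) (pt z u) = 1 := fun u => by
    have := dist_pt_one z (u - 1)
    rw [e1] at this; exact this
  have dL2 : ∀ u : ℝ, dist (pt z (u - 1)) (pt z (u - 2)) = 1 := fun u => by
    have := dist_pt_one z (u - 2)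
    have e2 : u - 2 + 1 = u - 1 := by ring
    rw [e2, dist_comm] at this; exact this
  have oR : ∀ u : ℝ, pt z (u + 2) ≠ pt z u ∧ pt z (u + 2) + pt z u ≠ 2 * pt z (u + 1) :=
    fun u => pt_off z u
  have oL : ∀ u : ℝ, pt z (u - 2) ≠ pt z u ∧ pt z (u - 2) + pt z u ≠ 2 * pt z (u - 1) := by
    intro u
    obtain ⟨n1, n2⟩ := pt_off z (u - 2)
    have e2 : u - 2 + 1 = u - 1 := by ring
    have e3 : u - 2 + 2 = u := by ring
    rw [e3] at n1
    rw [e2, e3] at n2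
    exact ⟨n1.symm, by rw [add_comm]; exact n2⟩
  refine (H.rawX hmin hz nd hR).L1x ?_ ?_ ?_
  · intro u h2 h3
    obtain ⟨x1, x2⟩ := let2 h (show pt z u ∈ Lt T z a b c d e f 2 from h2)
    obtain ⟨x3, x4⟩ := let3 h (show pt z u ∈ Lt T z a b c d e f 3 from h3)
    exact H.not_abcd hz nd (dist_pt z u) x1 x2 x3 x4
  · intro u h0 h2
    obtain ⟨x1, x2⟩ := let2 h (show pt z u ∈ Lt T z a b c d e f 2 from h2)
    have h4 : 4 ≤ (T (pt z u)).ncard := by
      by_contra h5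
      exact hA _ (eq_three (by omega) x1 x2 h0.2 ab ae be) h2
    obtain ⟨pe, pf⟩ := H.ef_of_four hz nd (dist_pt z u) h4
    obtain ⟨r1, r2, r3, r4⟩ := H.flX hmin hz nd hC (dist_pt z u) h4 x1 x2 (dist_pt z (u + 1)) (dR u)
    obtain ⟨l1, l2, l3, l4⟩ := H.flX hmin hz nd hC (dist_pt z u) h4 x1 x2 (dist_pt z (u - 1)) (dL u)
    refine ⟨⟨dist_pt z u, pf⟩, r1, l1, fun l hl => ?_, fun l hl => ?_, ?_, ?_⟩
    · rcases fin4_939 l with rfl | rfl | rfl | rfl
      · exact absurd hl.2 r2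
      · exact Or.inl rfl
      · exact absurd (let2 h (show pt z (u + 1) ∈ Lt T z a b c d e f 2 from hl)).1 r3
      · exact Or.inr rfl
    · rcases fin4_939 l with rfl | rfl | rfl | rfl
      · exact absurd hl.2 l2
      · exact Or.inl rfl
      · exact absurd (let2 h (show pt z (u - 1) ∈ Lt T z a b c d e f 2 from hl)).1 l3
      · exact Or.inr rfl
    · exact r4 _ (dist_pt z _) (dR2 u) (oR u).1 (oR u).2
    · exact l4 _ (dist_pt z _) (dL2 u) (oL u).1 (oL u).2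
  · intro u h0 h3
    obtain ⟨x1, x2⟩ := let3 h (show pt z u ∈ Lt T z a b c d e f 3 from h3)
    have h4 : 4 ≤ (T (pt z u)).ncard := by
      by_contra h5
      exact hC _ (eq_three (by omega) x1 x2 h0.2 cd ce de) h3
    obtain ⟨pe, pf⟩ := H.ef_of_four hz nd (dist_pt z u) h4
    obtain ⟨r1, r2, r3, r4⟩ := H.flX hmin hz.swap nd2 hA (dist_pt z u) h4 x1 x2
      (dist_pt z (u + 1)) (dR u)
    obtain ⟨l1, l2, l3, l4⟩ := H.flX hmin hz.swap nd2 hA (dist_pt z u) h4 x1 x2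
      (dist_pt z (u - 1)) (dL u)
    refine ⟨⟨dist_pt z u, pf⟩, r1, l1, fun l hl => ?_, fun l hl => ?_, ?_, ?_⟩
    · rcases fin4_939 l with rfl | rfl | rfl | rfl
      · exact absurd hl.2 r2
      · exact Or.inl rfl
      · exact Or.inr rfl
      · exact absurd (let3 h (show pt z (u + 1) ∈ Lt T z a b c d e f 3 from hl)).1 r3
    · rcases fin4_939 l with rfl | rfl | rfl | rfl
      · exact absurd hl.2 l2
      · exact Or.inl rfl
      · exact Or.inr rfl
      · exact absurd (let3 h (show pt z (u - 1) ∈ Lt T z a b c d e f 3 from hl)).1 l3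
    · exact r4 _ (dist_pt z _) (dR2 u) (oR u).1 (oR u).2
    · exact l4 _ (dist_pt z _) (dL2 u) (oL u).1 (oL u).2

end WT

end Vale.Agent.P032.Six
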