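import Vale.Agent.P032.R2.H939.Pairs
import Vale.Agent.P032.S5.H80.Clean

/-!
# P032, contact S1: two points with the same four colours at distance one

`z = ab | cd` a two-pair point, `y` on `S(z)` with `T y = T z`.  No assumption on the orders of
other points.  Then `y` is a two-pair point with another pairing, one side of `S(z)` at `y` is
exactly `{a, b}`, the other side is exactly `{c, d}`.
-/

open Set Filter Topology Metric

noncomputable section

namespace Vale.Agent.P032.Six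

open Vale.Agent.P032.S5.H767

variable {k : ℕ} {U : Fin k → Set ℂ} {T : ℂ → Set (Fin k)}

/-! ### two circles in the angle coordinate -/

/-- the centre as a point of the circle about `pt z u` -/
theorem pt_back (z : ℂ) (u : ℝ) : pt (pt z u) (u + 3) = z := by
  unfold pt
  rw [show (u + 3) * (Real.pi / 3) = u * (Real.pi / 3) + Real.pi by ring, cis_add, cis_pi]
  ring

theorem pt_back' (z : ℂ) (u : ℝ) : pt (pt z (u + 3)) u = z := by
  unfold pt
  rw [show (u + 3) * (Real.pi / 3) = u * (Real.pi / 3) + Real.pi by ring, cis_add, cis_pi]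
  ring

theorem dist_back_sq (z : ℂ) (u r s : ℝ) :
    dist (pt (pt z u) (u + 3 + s)) (pt z (u + r)) ^ 2 = 1 + 2 *
      ((1 - Real.cos (s * (Real.pi / 3))) * (1 - Real.cos (r * (Real.pi / 3))) +
        Real.sin (s * (Real.pi / 3)) * Real.sin (r * (Real.pi / 3))) := by
  rw [sq_dist]
  unfold pt
  simp only [Complex.add_re, Complex.add_im, cis_re, cis_im]
  rw [show (u + 3 + s) * (Real.pi / 3) = (u * (Real.pi / 3) + s * (Real.pi / 3)) + Real.pi by ring,
    show (u + r) * (Real.pi / 3) = u * (Real.pi / 3) + r * (Real.pi / 3) by ring,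
    Real.cos_add_pi, Real.sin_add_pi, Real.cos_add, Real.sin_add, Real.cos_add, Real.sin_add]
  set C := Real.cos (u * (Real.pi / 3))
  set S := Real.sin (u * (Real.pi / 3))
  set c1 := Real.cos (s * (Real.pi / 3))
  set s1 := Real.sin (s * (Real.pi / 3))
  set c2 := Real.cos (r * (Real.pi / 3))
  set s2 := Real.sin (r * (Real.pi / 3))
  have h0 : S ^ 2 + C ^ 2 = 1 := Real.sin_sq_add_cos_sq _
  have h1 : s1 ^ 2 + c1 ^ 2 = 1 := Real.sin_sq_add_cos_sq _
  have h2 : s2 ^ 2 + c2 ^ 2 = 1 := Real.sin_sq_add_cos_sq _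
  linear_combination (1 + c1 ^ 2 + s1 ^ 2 + c2 ^ 2 + s2 ^ 2 - 2 * c1 - 2 * c2 + 2 * c1 * c2 +
    2 * s1 * s2) * h0 + h1 + h2

theorem sin_ne_of {r : ℝ} (hr : |r| ≤ 1) (h0 : r ≠ 0) :
    1 - Real.cos (r * (Real.pi / 3)) < |Real.sin (r * (Real.pi / 3))| ∧
      (0 < r → 0 < Real.sin (r * (Real.pi / 3))) ∧ (r < 0 → Real.sin (r * (Real.pi / 3)) < 0) := by
  have hpi := Real.pi_pos
  rw [abs_le] at hr
  have hpos : 0 < r → 0 < Real.sin (r * (Real.pi / 3)) := fun h =>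
    Real.sin_pos_of_pos_of_lt_pi (by positivity) (by nlinarith)
  have hneg : r < 0 → Real.sin (r * (Real.pi / 3)) < 0 := fun h =>
    Real.sin_neg_of_neg_of_neg_pi_lt (by nlinarith) (by nlinarith)
  refine ⟨?_, hpos, hneg⟩
  have hc : 0 < Real.cos (r * (Real.pi / 3)) :=
    Real.cos_pos_of_mem_Ioo ⟨by nlinarith, by nlinarith⟩
  have h1 := Real.sin_sq_add_cos_sq (r * (Real.pi / 3))
  set s := Real.sin (r * (Real.pi / 3))
  set c := Real.cos (r * (Real.pi / 3))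
  have hs0 : s ≠ 0 := by
    rcases lt_or_gt_of_ne h0 with h | h
    · exact (hneg h).ne
    · exact (hpos h).ne'
  have hs1 : 0 < |s| := abs_pos.2 hs0
  have hsq : |s| ^ 2 = s ^ 2 := sq_abs s
  have hc1 : c < 1 := by nlinarith
  nlinarith

theorem dist_back_out {z : ℂ} {u r s : ℝ} (hr : |r| ≤ 1) (hs : |s| ≤ 1) (h : 0 < r * s) :
    1 < dist (pt (pt z u) (u + 3 + s)) (pt z (u + r)) := by
  have h0 := dist_back_sq z u r s
  have hr0 : r ≠ 0 := by rintro rfl; simp at h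
  have hs0 : s ≠ 0 := by rintro rfl; simp at h
  obtain ⟨-, r1, r2⟩ := sin_ne_of hr hr0
  obtain ⟨-, s1, s2⟩ := sin_ne_of hs hs0
  have hss : 0 < Real.sin (s * (Real.pi / 3)) * Real.sin (r * (Real.pi / 3)) := by
    rcases lt_or_gt_of_ne hr0 with h1 | h1
    · have h2 : s < 0 := by by_contra h3; push Not at h3; nlinarith
      exact mul_pos_of_neg_of_neg (s2 h2) (r2 h1)
    · have h2 : 0 < s := by by_contra h3; push Not at h3; nlinarith
      exact mul_pos (s1 h2) (r1 h1)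
  have h1 := Real.cos_le_one (s * (Real.pi / 3))
  have h2 := Real.cos_le_one (r * (Real.pi / 3))
  have h3 := dist_nonneg (x := pt (pt z u) (u + 3 + s)) (y := pt z (u + r))
  nlinarith [mul_nonneg (sub_nonneg.2 h1) (sub_nonneg.2 h2)]

theorem dist_back_in {z : ℂ} {u r s : ℝ} (hr : |r| ≤ 1) (hs : |s| ≤ 1) (h : r * s < 0) :
    dist (pt (pt z u) (u + 3 + s)) (pt z (u + r)) < 1 := by
  have h0 := dist_back_sq z u r s
  have hr0 : r ≠ 0 := by rintro rfl; simp at h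
  have hs0 : s ≠ 0 := by rintro rfl; simp at h
  obtain ⟨r0, r1, r2⟩ := sin_ne_of hr hr0
  obtain ⟨s0, s1, s2⟩ := sin_ne_of hs hs0
  have hc1 := Real.cos_le_one (s * (Real.pi / 3))
  have hc2 := Real.cos_le_one (r * (Real.pi / 3))
  set x := Real.sin (s * (Real.pi / 3))
  set y := Real.sin (r * (Real.pi / 3))
  have hss : x * y = -(|x| * |y|) := by
    rcases lt_or_gt_of_ne hr0 with h1 | h1
    · have h2 : 0 < s := by by_contra h3; push Not at h3; nlinarith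
      rw [abs_of_pos (s1 h2), abs_of_neg (r2 h1)]; ring
    · have h2 : s < 0 := by by_contra h3; push Not at h3; nlinarith
      rw [abs_of_neg (s2 h2), abs_of_pos (r1 h1)]; ring
  have h3 := dist_nonneg (x := pt (pt z u) (u + 3 + s)) (y := pt z (u + r))
  have h4 : (1 - Real.cos (s * (Real.pi / 3))) * (1 - Real.cos (r * (Real.pi / 3))) <
      |x| * |y| := mul_lt_mul'' s0 r0 (by linarith) (by linarith)
  nlinarith

theorem pt_ne {z : ℂ} {u v : ℝ} (h0 : v ≠ u) (h1 : |v - u| ≤ 1) : pt z v ≠ pt z u := by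
  intro h
  have h2 := cr_ptc z u v
  rw [h] at h2
  obtain ⟨-, s1, s2⟩ := sin_ne_of h1 (sub_ne_zero.2 h0)
  have h3 : cr (pt z u - z) (pt z u - z) = 0 := by unfold cr; ring
  rw [h3] at h2
  rcases lt_or_gt_of_ne (sub_ne_zero.2 h0) with h4 | h4
  · exact (s2 h4).ne h2.symm
  · exact (s1 h4).ne h2

theorem tendsto_pt_of_le {z : ℂ} {u : ℝ} {F : Filter ℝ} (hF : F ≤ 𝓝 u) :
    Tendsto (pt z) F (𝓝 (pt z u)) := ((continuous_pt z).tendsto u).mono_left hF

/-- the sides at `z` on the circle about `y = pt z u`, from an exact arc of `S(z)` near `y` -/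
theorem Irr.back (h : Irr U T) {z : ℂ} {u v : ℝ} {a b : Fin k} (hv : |v - u| ≤ 1)
    (hg : Arc T z (pt z v) {a, b}) (hs : Sd U z (pt z v) a b) :
    (v < u → (∀ᶠ w in 𝓝[>] (u + 3), b ∉ Pal U (pt (pt z u) w)) ∧
      ∀ᶠ w in 𝓝[<] (u + 3), a ∉ Pal U (pt (pt z u) w)) ∧
    (u < v → (∀ᶠ w in 𝓝[>] (u + 3), a ∉ Pal U (pt (pt z u) w)) ∧
      ∀ᶠ w in 𝓝[<] (u + 3), b ∉ Pal U (pt (pt z u) w)) := by
  have h1 := h.sd_center hg hs
  have ev : ∀ F : Filter ℝ, F ≤ 𝓝 (u + 3) → ∀ᶠ w in F,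
      ((1 < dist (pt (pt z u) w) (pt z v) → a ∉ Pal U (pt (pt z u) w)) ∧
        (dist (pt (pt z u) w) (pt z v) < 1 → b ∉ Pal U (pt (pt z u) w))) ∧ |w - (u + 3)| ≤ 1 := by
    intro F hF
    have h2 : Tendsto (pt (pt z u)) F (𝓝 z) := by
      have := tendsto_pt_of_le (z := pt z u) hF
      rwa [pt_back] at this
    refine (h2.eventually h1).and (hF ?_)
    filter_upwards [Metric.closedBall_mem_nhds (u + 3) one_pos] with w hw
    rwa [Metric.mem_closedBall, Real.dist_eq] at hw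
  have key : ∀ w, pt (pt z u) w = pt (pt z u) (u + 3 + (w - (u + 3))) := fun w => by
    rw [show u + 3 + (w - (u + 3)) = w by ring]
  have kev : pt z v = pt z (u + (v - u)) := by rw [show u + (v - u) = v by ring]
  refine ⟨fun hvu => ⟨?_, ?_⟩, fun hvu => ⟨?_, ?_⟩⟩
  · filter_upwards [ev _ nhdsWithin_le_nhds, self_mem_nhdsWithin] with w hw hw1
    rw [mem_Ioi] at hw1
    refine hw.1.2 ?_
    rw [key w, kev]
    exact dist_back_in hv hw.2 (by nlinarith)
  · filter_upwards [ev _ nhdsWithin_le_nhds, self_mem_nhdsWithin] with w hw hw1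
    rw [mem_Iio] at hw1
    refine hw.1.1 ?_
    rw [key w, kev]
    exact dist_back_out hv hw.2 (by nlinarith)
  · filter_upwards [ev _ nhdsWithin_le_nhds, self_mem_nhdsWithin] with w hw hw1
    rw [mem_Ioi] at hw1
    refine hw.1.1 ?_
    rw [key w, kev]
    exact dist_back_out hv hw.2 (by nlinarith)
  · filter_upwards [ev _ nhdsWithin_le_nhds, self_mem_nhdsWithin] with w hw hw1
    rw [mem_Iio] at hw1
    refine hw.1.2 ?_
    rw [key w, kev]
    exact dist_back_in hv hw.2 (by nlinarith)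

/-- two of the four colours are absent, the two others are in the palette of the other centre -/
theorem Irr.pair_left (h : Irr U T) {y x : ℂ} {a b c d : Fin k} (hx : T x ⊆ {a, b, c, d})
    (hxy : dist x y = 1) (hc : c ∈ Pal U y) (hd : d ∈ Pal U y) (ha : a ∉ Pal U x)
    (hb : b ∉ Pal U x) : T x = {c, d} := by
  have hcU : x ∉ U c := h.mx.notMem hc hxy
  have hdU : x ∉ U d := h.mx.notMem hd hxy
  have h5 : T x ⊆ {c, d} := by
    intro i hi
    rcases hx hi with rfl | rfl | rfl | hid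
    · exact absurd (h.sub _ hi) ha
    · exact absurd (h.sub _ hi) hb
    · simp
    · right; exact hid
  have hcT : c ∈ T x := by
    by_contra hcT
    refine hdU (h.mem_of_single fun i hi => ?_)
    rcases h5 hi with rfl | h6
    · exact absurd hi hcT
    · exact h6
  have hdT : d ∈ T x := by
    by_contra hdT
    refine hcU (h.mem_of_single fun i hi => ?_)
    rcases h5 hi with rfl | h6
    · rfl
    · rw [mem_singleton_iff] at h6; subst h6; exact absurd hi hdT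
  refine Subset.antisymm h5 ?_
  rintro i (rfl | hi)
  · exact hcT
  · rw [mem_singleton_iff] at hi; subst hi; exact hdT

theorem Irr.pair_ev (h : Irr U T) {z : ℂ} {u : ℝ} {a b c d : Fin k} {F : Filter ℝ}
    (hF : F ≤ 𝓝 (u + 3)) (hT : T z = {a, b, c, d}) (hc : c ∈ Pal U (pt z u))
    (hd : d ∈ Pal U (pt z u)) (ha : ∀ᶠ w in F, a ∉ Pal U (pt (pt z u) w))
    (hb : ∀ᶠ w in F, b ∉ Pal U (pt (pt z u) w)) : ∀ᶠ w in F, T (pt (pt z u) w) = {c, d} := by
  have h2 : Tendsto (pt (pt z u)) F (𝓝 z) := by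
    have := tendsto_pt_of_le (z := pt z u) hF
    rwa [pt_back] at this
  filter_upwards [ha, hb, h2.eventually (h.nhd z)] with w h3 h4 h5
  rw [hT] at h5
  exact h.pair_left h5 (dist_pt _ _) hc hd h3 h4

/-- **exact `ab`-arcs with the same inner colour do not accumulate from both sides** -/
theorem Irr.oneside (h : Irr U T) {z : ℂ} {u v1 v2 : ℝ} {a b c d : Fin k} (hz : DPt T z a b c d)
    (hc : c ∈ Pal U (pt z u)) (hd : d ∈ Pal U (pt z u)) (h1 : v1 < u) (h2 : u < v2)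
    (h1' : |v1 - u| ≤ 1) (h2' : |v2 - u| ≤ 1) (hg1 : Arc T z (pt z v1) {a, b})
    (hs1 : Sd U z (pt z v1) a b) (hg2 : Arc T z (pt z v2) {a, b}) (hs2 : Sd U z (pt z v2) a b) :
    False := by
  have e1 := ((h.back h1' hg1 hs1).1 h1).1
  have e2 := ((h.back h2' hg2 hs2).2 h2).1
  have e3 := h.pair_ev (F := 𝓝[>] (u + 3)) nhdsWithin_le_nhds hz.pal hc hd e2 e1
  have h3 : Tendsto (pt (pt z u)) (𝓝[>] (u + 3)) (𝓝 z) := by
    have := tendsto_pt_of_le (z := pt z u) (u := u + 3) (F := 𝓝[>] (u + 3)) nhdsWithin_le_nhds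
    rwa [pt_back] at this
  have h4 : ∀ᶠ w in 𝓝[>] (u + 3), |w - (u + 3)| ≤ 1 := by
    refine mem_nhdsWithin_of_mem_nhds ?_
    filter_upwards [Metric.closedBall_mem_nhds (u + 3) one_pos] with w hw
    rwa [Metric.mem_closedBall, Real.dist_eq] at hw
  obtain ⟨w, h5, h6, h7, h8⟩ :=
    (e3.and ((h3.eventually (h.iso' hz)).and (h4.and self_mem_nhdsWithin))).exists
  refine h6 ?_ ⟨h.sub _ (by rw [h5]; simp), h.sub _ (by rw [h5]; simp)⟩
  have := pt_ne (z := pt z u) (u := u + 3) (v := w) (ne_of_gt h8) h7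
  rwa [pt_back] at this

/-- **the circle about `y` at `z`** when the arcs of `S(z)` at `y` are `ab` before, `cd` after -/
theorem Irr.cross939 (h : Irr U T) {z : ℂ} {u v1 v2 : ℝ} {a b c d : Fin k}
    (hT : T z = {a, b, c, d}) (hy : T z ⊆ Pal U (pt z u)) (h1 : v1 < u) (h2 : u < v2)
    (h1' : |v1 - u| ≤ 1) (h2' : |v2 - u| ≤ 1) (hg1 : Arc T z (pt z v1) {a, b})
    (hs1 : Sd U z (pt z v1) a b) (hg2 : Arc T z (pt z v2) {c, d}) (hs2 : Sd U z (pt z v2) c d) :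
    (∀ᶠ w in 𝓝[>] (u + 3), T (pt (pt z u) w) = {a, d}) ∧
      ∀ᶠ w in 𝓝[<] (u + 3), T (pt (pt z u) w) = {b, c} := by
  have e1 := (h.back h1' hg1 hs1).1 h1
  have e2 := (h.back h2' hg2 hs2).2 h2
  rw [hT] at hy
  constructor
  · exact h.pair_ev (a := b) (b := c) (c := a) (d := d) nhdsWithin_le_nhds
      (by rw [hT]; ext i; simp only [mem_insert_iff, mem_singleton_iff]; tauto)
      (hy (by simp)) (hy (by simp)) e1.1 e2.1
  · exact h.pair_ev (a := a) (b := d) (c := b) (d := c) nhdsWithin_le_nhds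
      (by rw [hT]; ext i; simp only [mem_insert_iff, mem_singleton_iff]; tauto)
      (hy (by simp)) (hy (by simp)) e1.2 e2.2

/-! ### arcs on the two sides -/

/-- an exact arc near a point of `S(z)` whose palette is inside `T z` -/
theorem Irr.arc_near_pt (h : Irr U T) {z : ℂ} {v : ℝ} {S : Set ℝ} (hS : S ∈ 𝓝 v)
    (hsub : T (pt z v) ⊆ T z) :
    ∃ v' ∈ S, Arc T z (pt z v') (T (pt z v')) ∧ T (pt z v') ⊆ T (pt z v) := by
  have h1 : ∀ᶠ q in 𝓝[sphere z 1] (pt z v), ∃ v' ∈ S, q = pt z v' := by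
    refine ev_circle z ?_
    filter_upwards [hS] with v' hv'
    exact ⟨v', hv', rfl⟩
  obtain ⟨V, hV, hVs⟩ := mem_nhdsWithin_iff_exists_mem_nhds_inter.1 h1
  obtain ⟨q, hqV, hqz, hq1, hq2, -, -⟩ := h.arc_of_sub (dist_pt z v) hsub hV
  obtain ⟨v', hv', rfl⟩ := hVs ⟨hqV, hqz⟩
  exact ⟨v', hv', ⟨hqz, hq1⟩, hq2⟩

/-- on each side of `u` there are exact arcs near `u` -/
theorem Irr.arcs_side (h : Irr U T) {z : ℂ} {u : ℝ} {a b c d : Fin k} (hz : DPt T z a b c d)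
    (hy : T (pt z u) ⊆ T z) {s : Set ℝ} (hs : IsOpen s) (hsu : (𝓝[s] u).NeBot) :
    ∃ᶠ v in 𝓝[s] u, Arc T z (pt z v) {a, b} ∨ Arc T z (pt z v) {c, d} := by
  intro hcon
  have h1 : ∀ᶠ v in 𝓝[s] u, T (pt z v) ⊆ T z := by
    have := (tendsto_pt_of_le (z := z) (u := u) (F := 𝓝[s] u) nhdsWithin_le_nhds).eventually
      (h.nhd (pt z u))
    filter_upwards [this] with v hv
    exact hv.trans hy
  obtain ⟨v, ⟨h2, h3⟩, h4⟩ := ((eventually_eventually_nhdsWithin.2 (hcon.and h1)).and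
    self_mem_nhdsWithin |>.and (Eventually.of_forall fun _ => trivial)).exists
  have h5 : ∀ᶠ v' in 𝓝 v, ¬ (Arc T z (pt z v') {a, b} ∨ Arc T z (pt z v') {c, d}) ∧
      T (pt z v') ⊆ T z := by
    rwa [hs.nhdsWithin_eq h3] at h2
  obtain ⟨v', hv', hA, -⟩ := h.arc_near_pt h5 h5.self_of_nhds.2
  rcases h.dpt_pairs hz hA hv'.2 with e | e
  · exact hv'.1 (Or.inl (e ▸ hA))
  · exact hv'.1 (Or.inr (e ▸ hA))

theorem Irr.arcs_right (h : Irr U T) {z : ℂ} {u : ℝ} {a b c d : Fin k} (hz : DPt T z a b c d)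
    (hy : T (pt z u) ⊆ T z) :
    ∃ᶠ v in 𝓝[>] u, Arc T z (pt z v) {a, b} ∨ Arc T z (pt z v) {c, d} :=
  h.arcs_side hz hy isOpen_Ioi inferInstance

theorem Irr.arcs_left (h : Irr U T) {z : ℂ} {u : ℝ} {a b c d : Fin k} (hz : DPt T z a b c d)
    (hy : T (pt z u) ⊆ T z) :
    ∃ᶠ v in 𝓝[<] u, Arc T z (pt z v) {a, b} ∨ Arc T z (pt z v) {c, d} :=
  h.arcs_side hz hy isOpen_Iio inferInstance

/-- near `u`, with the side data -/
theorem ev_side {z : ℂ} {u : ℝ} {a b : Fin k} (hs : Sd U z (pt z u) a b) {F : Filter ℝ}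
    (hF : F ≤ 𝓝 u) : ∀ᶠ v in F, Sd U z (pt z v) a b ∧ |v - u| ≤ 1 := by
  have h1 : ∀ᶠ v in F, Sd U z (pt z v) a b :=
    (tendsto_pt_of_le (z := z) hF).eventually (eventually_eventually_nhds.2 hs)
  refine h1.and (hF ?_)
  filter_upwards [Metric.closedBall_mem_nhds u one_pos] with w hw
  rwa [Metric.mem_closedBall, Real.dist_eq] at hw

/-- exact `ab`-arcs do not accumulate at `pt z u` from both sides -/
theorem Irr.oneside' (h : Irr U T) {z : ℂ} {u : ℝ} {a b c d : Fin k} (hz : DPt T z a b c d)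
    (hc : c ∈ Pal U (pt z u)) (hd : d ∈ Pal U (pt z u))
    (hl : ∃ᶠ v in 𝓝[<] u, Arc T z (pt z v) {a, b})
    (hr : ∃ᶠ v in 𝓝[>] u, Arc T z (pt z v) {a, b}) : False := by
  rcases h.sides hz (dist_pt z u) with hs | hs
  · obtain ⟨v1, h1, ⟨h2, h3⟩, h4⟩ := (hl.and_eventually
      ((ev_side hs nhdsWithin_le_nhds).and self_mem_nhdsWithin)).exists
    obtain ⟨v2, h5, ⟨h6, h7⟩, h8⟩ := (hr.and_eventually
      ((ev_side hs nhdsWithin_le_nhds).and self_mem_nhdsWithin)).exists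
    exact h.oneside hz hc hd h4 h8 h3 h7 h1 h2 h5 h6
  · obtain ⟨v1, h1, ⟨h2, h3⟩, h4⟩ := (hl.and_eventually
      ((ev_side hs nhdsWithin_le_nhds).and self_mem_nhdsWithin)).exists
    obtain ⟨v2, h5, ⟨h6, h7⟩, h8⟩ := (hr.and_eventually
      ((ev_side hs nhdsWithin_le_nhds).and self_mem_nhdsWithin)).exists
    rw [pair_comm] at h1 h5
    exact h.oneside hz.swap12 hc hd h4 h8 h3 h7 h1 h2 h5 h6

/-- one side has only `ab`-arcs, the other one only `cd`-arcs -/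
theorem Irr.s1_split (h : Irr U T) {z : ℂ} {u : ℝ} {a b c d : Fin k} (hz : DPt T z a b c d)
    (hy : T (pt z u) = T z) :
    ((∃ᶠ v in 𝓝[<] u, Arc T z (pt z v) {a, b}) ∧ (∃ᶠ v in 𝓝[>] u, Arc T z (pt z v) {c, d}) ∧
      (∀ᶠ v in 𝓝[<] u, ¬ Arc T z (pt z v) {c, d}) ∧
      ∀ᶠ v in 𝓝[>] u, ¬ Arc T z (pt z v) {a, b}) ∨
    ((∃ᶠ v in 𝓝[<] u, Arc T z (pt z v) {c, d}) ∧ (∃ᶠ v in 𝓝[>] u, Arc T z (pt z v) {a, b}) ∧
      (∀ᶠ v in 𝓝[<] u, ¬ Arc T z (pt z v) {a, b}) ∧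
      ∀ᶠ v in 𝓝[>] u, ¬ Arc T z (pt z v) {c, d}) := by
  have hmem : ∀ i ∈ T z, i ∈ Pal U (pt z u) := fun i hi => h.sub _ (hy ▸ hi)
  have ha := hmem a (by rw [hz.pal]; simp)
  have hb := hmem b (by rw [hz.pal]; simp)
  have hc := hmem c (by rw [hz.pal]; simp)
  have hd := hmem d (by rw [hz.pal]; simp)
  have hl := frequently_or_distrib.1 (h.arcs_left hz (u := u) hy.subset)
  have hr := frequently_or_distrib.1 (h.arcs_right hz (u := u) hy.subset)
  have k1 := h.oneside' hz (u := u) hc hd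
  have k2 := h.oneside' hz.swap (u := u) ha hb
  rcases hl with hl | hl
  · have h1 : ¬ ∃ᶠ v in 𝓝[>] u, Arc T z (pt z v) {a, b} := fun h0 => k1 hl h0
    have h2 := hr.resolve_left h1
    exact Or.inl ⟨hl, h2, not_frequently.1 fun h0 => k2 h0 h2, not_frequently.1 h1⟩
  · have h1 : ¬ ∃ᶠ v in 𝓝[>] u, Arc T z (pt z v) {c, d} := fun h0 => k2 hl h0
    have h2 := hr.resolve_right h1
    exact Or.inr ⟨hl, h2, not_frequently.1 fun h0 => k1 h0 h2, not_frequently.1 h1⟩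

/-- an eventual pair on one side gives an exact arc -/
theorem arc_of_ev {z : ℂ} {u : ℝ} {P : Set (Fin k)} {s : Set ℝ} (hs : IsOpen s)
    (hsu : (𝓝[s] u).NeBot) (h : ∀ᶠ v in 𝓝[s] u, T (pt z v) = P) :
    ∃ᶠ v in 𝓝[s] u, Arc T z (pt z v) P := by
  refine Eventually.frequently ?_
  filter_upwards [eventually_eventually_nhdsWithin.2 h, self_mem_nhdsWithin] with v h1 h2
  rw [hs.nhdsWithin_eq h2] at h1
  exact ⟨dist_pt z v, ev_circle z h1⟩

/-- **contact S1, one orientation**: `a`, `c` inside, `ab` before, `cd` after -/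
theorem Irr.s1_aux (h : Irr U T) {z : ℂ} {u : ℝ} {a b c d : Fin k} (hz : DPt T z a b c d)
    (hy : T (pt z u) = T z) (hab : Sd U z (pt z u) a b) (hcd : Sd U z (pt z u) c d)
    (hl : ∃ᶠ v in 𝓝[<] u, Arc T z (pt z v) {a, b})
    (hr : ∃ᶠ v in 𝓝[>] u, Arc T z (pt z v) {c, d}) :
    DPt T (pt z u) a d b c ∧ (∀ᶠ w in 𝓝[>] (u + 3), T (pt (pt z u) w) = {a, d}) ∧
      ∀ᶠ w in 𝓝[<] (u + 3), T (pt (pt z u) w) = {b, c} := by
  obtain ⟨v1, h1, ⟨h2, h3⟩, h4⟩ := (hl.and_eventually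
    ((ev_side hab nhdsWithin_le_nhds).and self_mem_nhdsWithin)).exists
  obtain ⟨v2, h5, ⟨h6, h7⟩, h8⟩ := (hr.and_eventually
    ((ev_side hcd nhdsWithin_le_nhds).and self_mem_nhdsWithin)).exists
  have h9 := h.cross939 hz.pal (fun i hi => h.sub _ (hy ▸ hi)) h4 h8 h3 h7 h1 h2 h5 h6
  refine ⟨⟨?_, hz.ab, hz.ac, hz.bd.symm, hz.cd.symm, hz.ad, hz.bc, ?_, ?_⟩, h9⟩
  · rw [hy, hz.pal]; ext i; simp only [mem_insert_iff, mem_singleton_iff]; tauto
  · obtain ⟨w, hw⟩ := (arc_of_ev isOpen_Ioi inferInstance h9.1).exists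
    exact ⟨_, hw⟩
  · obtain ⟨w, hw⟩ := (arc_of_ev isOpen_Iio inferInstance h9.2).exists
    exact ⟨_, hw⟩

end Vale.Agent.P032.Six
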