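import Vale.Agent.P032.R2.H939.S1W
import Vale.Agent.P032.R2.H659.Horn
import Vale.Agent.P032.R2.H784.ConvC

/-!
# P032, contact S1: the antipode and the third vertices
-/

open Set Filter Topology Metric

noncomputable section

namespace Vale.Agent.P032.Six

open Vale.Agent.P032.S5.H767

section general

variable {k : ℕ} {U : Fin k → Set ℂ} {T : ℂ → Set (Fin k)}

/-- the sides at the antipode -/
theorem Irr.sd_anti (h : Irr U T) {z n : ℂ} {a b c d : Fin k} (hz : DPt T z a b c d)
    (hn : dist n z = 1) (hs : Sd U z n a b) (ha : a ∈ T n ∨ b ∈ T n) :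
    Sd U z (2 * z - n) b a := by
  obtain ⟨p, hp⟩ := hz.arc2
  obtain ⟨g, hg, hgV, hgV2⟩ := hp.exists_off_line (y := n)
  have hcr := cr_ne_of hg.1 hn hgV hgV2
  obtain ⟨σ, hσ, hA, hB⟩ := h.d0' hz hg
  have hn' : dist (2 * z - n) z = 1 := by
    rw [dist_eq_norm, show 2 * z - n - z = -(n - z) by ring, norm_neg, ← dist_eq_norm, hn]
  have e1 : ∀ m : ℂ, ip (σ * (Complex.I * (g - z))) m = σ * cr (g - z) m := by
    intro m; rw [ip_smul, ip_I]
  have hB' : Ray (U b) z (-(σ * (Complex.I * (g - z)))) := by rwa [neg_mul] at hB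
  have h0 : σ * cr (g - z) (n - z) ≠ 0 := by
    rcases hσ with rfl | rfl <;> simpa using hcr
  have e2 : cr (g - z) (2 * z - n - z) = -cr (g - z) (n - z) := by
    unfold cr; simp; ring
  rcases lt_or_gt_of_ne h0 with h1 | h1
  · exfalso
    have h2 : Sd U z n b a := h.mx.sd_of_rays' hA hB' hn (by rw [e1]; exact h1)
    rcases ha with ha | hb
    · exact h.sd_unique ha hs h2
    · exact h.sd_unique hb h2 hs
  · exact h.mx.sd_of_rays' hA hB' hn' (by rw [e1, e2]; linarith)

/-- the antipode of the contact: the two outer colours are absent -/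
theorem S1W.anti (h : Irr U T) {z : ℂ} {u : ℝ} {a b c d : Fin k} (w : S1W U T z u a b c d) :
    b ∉ Pal U (2 * z - pt z u) ∧ d ∉ Pal U (2 * z - pt z u) := by
  have hT : T (pt z u) = {a, d, b, c} := w.hy.pal
  have e1 := h.sd_anti w.hz (dist_pt z u) w.sab (Or.inl (by rw [hT]; simp))
  have e2 := h.sd_anti w.hz.swap (dist_pt z u) w.scd (Or.inl (by rw [hT]; simp))
  constructor
  · intro hb
    exact h.horn w.hz (dist_pt z u) w.scd e1 (h.sub _ (by rw [hT]; simp)) hb
  · intro hd
    exact h.horn w.hz.swap (dist_pt z u) w.sab e2 (h.sub _ (by rw [hT]; simp)) hd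

/-- the palettes of the two points are equal -/
theorem S1W.eq {z : ℂ} {u : ℝ} {a b c d : Fin k} (w : S1W U T z u a b c d) :
    T (pt z u) = T z := by
  rw [w.hy.pal, w.hz.pal]; ext i; simp only [mem_insert_iff, mem_singleton_iff]; tauto

/-- **third vertex, order at most three**: at least two colours of `T z` are missing -/
theorem Irr.s1_missing (h : Irr U T) {z y p : ℂ} (hy : T y = T z) (hyz : dist y z = 1)
    (hpz : dist p z = 1) (hpy : dist p y = 1) (h3 : (T p).ncard ≤ 3) (t : Fin k) :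
    ¬ T z ⊆ insert t (T p) := by
  intro hs
  by_cases ht : t ∈ T z
  · have hzp : dist z p = 1 := by rw [dist_comm]; exact hpz
    have hzy : dist z y = 1 := by rw [dist_comm]; exact hyz
    rcases h.lemmaX (u := p) (p := z) (v := y) hzp h3 hs hzy (h.sub _ (hy ▸ ht)) with h1 | h1
    · rw [h1, dist_self] at hpy
      exact zero_ne_one hpy
    · have h2 : y - p = 2 * (z - p) := by linear_combination h1
      have h3' := congrArg norm h2
      rw [norm_mul, ← dist_eq_norm, ← dist_eq_norm, hzp, dist_comm, hpy] at h3'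
      norm_num at h3'
  · refine h.not_sub (x := p) (y := z) (by rw [dist_comm]; exact hpz) h3 fun i hi => ?_
    rcases hs hi with rfl | h4
    · exact absurd hi ht
    · exact h4

/-- **third vertex, order at most three**: there is a colour outside `T z` -/
theorem S1W.third_not_sub (h : Irr U T) {z p : ℂ} {u : ℝ} {a b c d : Fin k}
    (w : S1W U T z u a b c d) (hpz : dist p z = 1) (hpy : dist p (pt z u) = 1)
    (h3 : (T p).ncard ≤ 3) : ¬ T p ⊆ T z := by
  intro hs
  have hm := h.s1_missing w.eq (dist_pt z u) hpz hpy h3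
  have hs' : T p ⊆ T (pt z u) := by rw [w.eq]; exact hs
  obtain ⟨q, -, hq1, hq2, hq3, -, -⟩ := h.arc_of_sub hpz hs univ_mem
  obtain ⟨q', -, hq1', hq2', hq3', -, -⟩ := h.arc_of_sub hpy hs' univ_mem
  rw [w.hz.pal] at hm
  have m := hm
  rcases h.dpt_pairs w.hz ⟨hq1, hq2⟩ (hq3.trans hs) with e1 | e1 <;>
    rcases h.dpt_pairs w.hy ⟨hq1', hq2'⟩ (hq3'.trans hs') with e2 | e2 <;>
    rw [e1] at hq3 <;> rw [e2] at hq3'
  · refine hm c fun i hi => ?_
    rcases hi with rfl | rfl | rfl | hi
    · exact Or.inr (hq3 (by simp))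
    · exact Or.inr (hq3 (by simp))
    · exact Or.inl rfl
    · rw [mem_singleton_iff] at hi; subst hi; exact Or.inr (hq3' (by simp))
  · refine hm d fun i hi => ?_
    rcases hi with rfl | rfl | rfl | hi
    · exact Or.inr (hq3 (by simp))
    · exact Or.inr (hq3 (by simp))
    · exact Or.inr (hq3' (by simp))
    · rw [mem_singleton_iff] at hi; subst hi; exact Or.inl rfl
  · refine hm b fun i hi => ?_
    rcases hi with rfl | rfl | rfl | hi
    · exact Or.inr (hq3' (by simp))
    · exact Or.inl rfl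
    · exact Or.inr (hq3 (by simp))
    · rw [mem_singleton_iff] at hi; subst hi; exact Or.inr (hq3 (by simp))
  · refine hm a fun i hi => ?_
    rcases hi with rfl | rfl | rfl | hi
    · exact Or.inl rfl
    · exact Or.inr (hq3' (by simp))
    · exact Or.inr (hq3 (by simp))
    · rw [mem_singleton_iff] at hi; subst hi; exact Or.inr (hq3 (by simp))

/-- three points at mutual distance one: no common line -/
theorem tri_off {z y p : ℂ} (hyz : dist y z = 1) (hpz : dist p z = 1) :
    y ≠ z ∧ y ≠ 2 * p - z := by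
  constructor
  · rintro rfl; rw [dist_self] at hyz; exact zero_ne_one hyz
  · intro e
    have h2 : y - z = 2 * (p - z) := by linear_combination e
    have h3 := congrArg norm h2
    rw [norm_mul, ← dist_eq_norm, ← dist_eq_norm, hyz, hpz] at h3
    norm_num at h3

/-- a point at distance one from `p` on the two lines `pz`, `py` does not exist -/
theorem tri_lines {z y p v : ℂ} (hyz : dist y z = 1) (hpz : dist p z = 1)
    (h1 : v = z ∨ v + z = 2 * p) (h2 : v = y ∨ v + y = 2 * p) : False := by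
  have a1 := tri_off hyz hpz
  rcases h1 with h1 | h1 <;> rcases h2 with h2 | h2
  · exact a1.1 (h2.symm.trans h1)
  · exact a1.2 (by rw [← h1]; linear_combination h2)
  · exact a1.2 (by rw [← h2]; linear_combination h1)
  · exact a1.1 (by linear_combination h2 - h1)

/-- **third vertex**: not `{x, e}` with `x` a common colour of `z` and `y` -/
theorem Irr.s1_no_pair (h : Irr U T) {z y p : ℂ} {x e : Fin k} (hyz : dist y z = 1)
    (hpz : dist p z = 1) (hpy : dist p y = 1) (hxz : x ∈ T z) (hxy : x ∈ T y) (hxp : x ∈ T p)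
    (hs : T p ⊆ {x, e}) : False := by
  have hX : p ∈ XX U := h.mem_XX hpz hxp (h.sub _ hxz)
  obtain ⟨v, hv, he⟩ := h.partner_XX hX e
  exact tri_lines hyz hpz (h.lemmaB hs hpz hv (h.sub _ hxz) he)
    (h.lemmaB hs hpy hv (h.sub _ hxy) he)

/-- a colour on the whole of both circles near `p` -/
theorem Irr.s1_not_whole (h : Irr U T) {z y p : ℂ} {e : Fin k} (hyz : dist y z = 1)
    (hpz : dist p z = 1) (hpy : dist p y = 1) (hX : p ∈ XX U)
    (h1 : ∀ᶠ q in 𝓝[sphere z 1] p, e ∈ T q) (h2 : ∀ᶠ q in 𝓝[sphere y 1] p, e ∈ T q) :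
    False := by
  obtain ⟨v, hv, he⟩ := h.partner_XX hX e
  refine tri_lines hyz hpz (v := v) ?_ ?_
  · by_contra hcon
    push Not at hcon
    exact line_free h hpz h1 hv hcon.1 hcon.2 he
  · by_contra hcon
    push Not at hcon
    exact line_free h hpy h2 hv hcon.1 hcon.2 he

end general

/-! ### six colours -/

variable {U : Fin 6 → Set ℂ} {T : ℂ → Set (Fin 6)}

/-- a point of the circle without the colours of a pair and without `f`: `e` is on the whole of the
circle near it -/
theorem whole_of_ctr {z p : ℂ} {a b c d e f : Fin 6} (C : Ctr U T z a b c d e f)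
    (h1 : ¬ ({a, b} : Set (Fin 6)) ⊆ T p) (h2 : ¬ ({c, d} : Set (Fin 6)) ⊆ T p)
    (hf : f ∉ T p) : ∀ᶠ q in 𝓝[sphere z 1] p, e ∈ T q := by
  filter_upwards [mem_nhdsWithin_of_mem_nhds (C.irr.nhd p), self_mem_nhdsWithin] with q hq hqz
  obtain ⟨l, hl⟩ := C.cover (y := q) hqz
  have hcol := Lt_col C.irr hl
  fin_cases l
  · exact hl.2
  · exact absurd (hq hl.2) hf
  · exact absurd ((show ({a, b} : Set (Fin 6)) ⊆ T q from hcol).trans hq) h1
  · exact absurd ((show ({c, d} : Set (Fin 6)) ⊆ T q from hcol).trans hq) h2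

/-- **third vertex**: no palette `{a, c, e}`, `{b, d, e}`, `{a, c, f}`, `{b, d, f}` -/
theorem S1W.third_mixed (h : Irr U T) {z p : ℂ} {u : ℝ} {a b c d e f : Fin 6}
    (w : S1W U T z u a b c d) (nd : [a, b, c, d, e, f].Nodup) (hpz : dist p z = 1)
    (hpy : dist p (pt z u) = 1) (hf : f ∉ T p) (hab : ¬ ({a, b} : Set (Fin 6)) ⊆ T p)
    (hcd : ¬ ({c, d} : Set (Fin 6)) ⊆ T p) (had : ¬ ({a, d} : Set (Fin 6)) ⊆ T p)
    (hbc : ¬ ({b, c} : Set (Fin 6)) ⊆ T p) : T p = {e} := by
  have nd' : [a, d, b, c, e, f].Nodup := by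
    simp only [List.nodup_cons, List.mem_cons, not_or, List.not_mem_nil, not_false_eq_true,
      List.nodup_nil, and_true] at nd ⊢
    tauto
  have C := ctr_of_dpt h w.hz nd
  have C' := ctr_of_dpt h w.hy nd'
  have h1 := whole_of_ctr C hab hcd hf
  have h2 := whole_of_ctr C' had hbc hf
  have hX : p ∉ XX U := fun hX => Irr.s1_not_whole h (dist_pt z u) hpz hpy hX h1 h2
  have hno : ∀ i ∈ T z, i ∉ T p := fun i hi hip => hX (h.mem_XX hpz hip (h.sub _ hi))
  obtain ⟨i, hi⟩ := h.ne p
  ext j
  rw [mem_singleton_iff]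
  have aux : ∀ j ∈ T p, j = e := by
    intro j hj
    have hjz : j ∉ T z := fun h0 => hno j h0 hj
    rcases C.miss hjz with rfl | rfl
    · rfl
    · exact absurd hj hf
  exact ⟨aux j, by rintro rfl; rw [← aux i hi]; exact hi⟩

end Vale.Agent.P032.Six
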