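import Vale.Agent.P032.R2.H939.S1

/-!
# P032, contact S1: the words

`S1W U T z u a b c d` : all local data of a contact of two points with the same four colours, with
`a, c` inside both circles, `ab` before and `cd` after `y = pt z u` on `S(z)`.
`Irr.s1` : every contact `T y = T z` of a two-pair point is of this kind, up to the symmetries.
No assumption on the orders of other points.
-/

open Set Filter Topology Metric

noncomputable section

namespace Vale.Agent.P032.Six

open Vale.Agent.P032.S5.H767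

variable {k : ℕ} {U : Fin k → Set ℂ} {T : ℂ → Set (Fin k)}

/-- the contact `y = pt z u`, `T y = T z`, `z = ab | cd`: `a, c` inside, `ab` before, `cd` after -/
structure S1W (U : Fin k → Set ℂ) (T : ℂ → Set (Fin k)) (z : ℂ) (u : ℝ) (a b c d : Fin k) :
    Prop where
  hz : DPt T z a b c d
  hy : DPt T (pt z u) a d b c
  before : ∀ᶠ v in 𝓝[<] u, T (pt z v) = {a, b}
  after : ∀ᶠ v in 𝓝[>] u, T (pt z v) = {c, d}
  before' : ∀ᶠ w in 𝓝[<] (u + 3), T (pt (pt z u) w) = {b, c}
  after' : ∀ᶠ w in 𝓝[>] (u + 3), T (pt (pt z u) w) = {a, d}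
  sab : Sd U z (pt z u) a b
  scd : Sd U z (pt z u) c d
  sad : Sd U (pt z u) z a d
  scb : Sd U (pt z u) z c b

theorem ev_shift6_right {z : ℂ} {u : ℝ} {p : ℂ → Prop}
    (h : ∀ᶠ w in 𝓝[>] (u + 3 + 3), p (pt z w)) : ∀ᶠ v in 𝓝[>] u, p (pt z v) := by
  have h1 : Tendsto (fun v : ℝ => v + 6) (𝓝[>] u) (𝓝[>] (u + 3 + 3)) := by
    refine tendsto_nhdsWithin_of_tendsto_nhds_of_eventually_within _ ?_ ?_
    · have : Continuous fun v : ℝ => v + 6 := by fun_prop
      have h2 := this.tendsto u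
      rw [show u + 6 = u + 3 + 3 by ring] at h2
      exact h2.mono_left nhdsWithin_le_nhds
    · filter_upwards [self_mem_nhdsWithin] with v hv
      rw [mem_Ioi] at hv ⊢
      linarith
  filter_upwards [h1.eventually h] with v hv
  rwa [pt_six] at hv

theorem ev_shift6_left {z : ℂ} {u : ℝ} {p : ℂ → Prop}
    (h : ∀ᶠ w in 𝓝[<] (u + 3 + 3), p (pt z w)) : ∀ᶠ v in 𝓝[<] u, p (pt z v) := by
  have h1 : Tendsto (fun v : ℝ => v + 6) (𝓝[<] u) (𝓝[<] (u + 3 + 3)) := by
    refine tendsto_nhdsWithin_of_tendsto_nhds_of_eventually_within _ ?_ ?_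
    · have : Continuous fun v : ℝ => v + 6 := by fun_prop
      have h2 := this.tendsto u
      rw [show u + 6 = u + 3 + 3 by ring] at h2
      exact h2.mono_left nhdsWithin_le_nhds
    · filter_upwards [self_mem_nhdsWithin] with v hv
      rw [mem_Iio] at hv ⊢
      linarith
  filter_upwards [h1.eventually h] with v hv
  rwa [pt_six] at hv

theorem ev_shift6_right' {z : ℂ} {u : ℝ} {p : ℂ → Prop}
    (h : ∀ᶠ v in 𝓝[>] u, p (pt z v)) : ∀ᶠ w in 𝓝[>] (u + 3 + 3), p (pt z w) := by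
  have h1 : Tendsto (fun v : ℝ => v - 6) (𝓝[>] (u + 3 + 3)) (𝓝[>] u) := by
    refine tendsto_nhdsWithin_of_tendsto_nhds_of_eventually_within _ ?_ ?_
    · have : Continuous fun v : ℝ => v - 6 := by fun_prop
      have h2 := this.tendsto (u + 3 + 3)
      rw [show u + 3 + 3 - 6 = u by ring] at h2
      exact h2.mono_left nhdsWithin_le_nhds
    · filter_upwards [self_mem_nhdsWithin] with v hv
      rw [mem_Ioi] at hv ⊢
      linarith
  filter_upwards [h1.eventually h] with v hv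
  rw [← pt_six] at hv
  rwa [show v - 6 + 6 = v by ring] at hv

theorem ev_shift6_left' {z : ℂ} {u : ℝ} {p : ℂ → Prop}
    (h : ∀ᶠ v in 𝓝[<] u, p (pt z v)) : ∀ᶠ w in 𝓝[<] (u + 3 + 3), p (pt z w) := by
  have h1 : Tendsto (fun v : ℝ => v - 6) (𝓝[<] (u + 3 + 3)) (𝓝[<] u) := by
    refine tendsto_nhdsWithin_of_tendsto_nhds_of_eventually_within _ ?_ ?_
    · have : Continuous fun v : ℝ => v - 6 := by fun_prop
      have h2 := this.tendsto (u + 3 + 3)
      rw [show u + 3 + 3 - 6 = u by ring] at h2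
      exact h2.mono_left nhdsWithin_le_nhds
    · filter_upwards [self_mem_nhdsWithin] with v hv
      rw [mem_Iio] at hv ⊢
      linarith
  filter_upwards [h1.eventually h] with v hv
  rw [← pt_six] at hv
  rwa [show v - 6 + 6 = v by ring] at hv

theorem pair_ne_pair {a b c d x : Fin k} (hx : x ∈ ({a, b} : Set (Fin k))) (h1 : x ≠ c)
    (h2 : x ≠ d) : ({a, b} : Set (Fin k)) ≠ {c, d} := by
  intro h
  rw [h] at hx
  rcases hx with h3 | h3
  · exact h1 h3
  · exact h2 h3

/-- one orientation -/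
theorem Irr.s1_core (h : Irr U T) {z : ℂ} {u : ℝ} {a b c d : Fin k} (hz : DPt T z a b c d)
    (hy : T (pt z u) = T z) (hab : Sd U z (pt z u) a b) (hcd : Sd U z (pt z u) c d)
    (hl : ∃ᶠ v in 𝓝[<] u, Arc T z (pt z v) {a, b})
    (hr : ∃ᶠ v in 𝓝[>] u, Arc T z (pt z v) {c, d}) : S1W U T z u a b c d := by
  obtain ⟨hy', hR, hL⟩ := h.s1_aux hz hy hab hcd hl hr
  set y := pt z u with hydef
  have hzy : pt y (u + 3) = z := pt_back z u
  have fL : ∃ᶠ w in 𝓝[<] (u + 3), Arc T y (pt y w) {b, c} := arc_of_ev isOpen_Iio inferInstance hL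
  have fR : ∃ᶠ w in 𝓝[>] (u + 3), Arc T y (pt y w) {a, d} := arc_of_ev isOpen_Ioi inferInstance hR
  have hTz : T (pt y (u + 3)) = T y := by rw [hzy, hy]
  -- the crossing with roles exchanged
  have cross : ∀ p q r s : Fin k, ({p, q} : Set (Fin k)) = {b, c} → ({r, s} : Set (Fin k)) = {a, d} →
      T y = {p, q, r, s} → Sd U y z p q → Sd U y z r s →
      (∀ᶠ v in 𝓝[>] u, T (pt z v) = {p, s}) ∧ ∀ᶠ v in 𝓝[<] u, T (pt z v) = {q, r} := by
    intro p q r s e1 e2 e3 s1 s2
    rw [← hzy] at s1 s2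
    obtain ⟨w1, h1, ⟨h2, h3⟩, h4⟩ := (fL.and_eventually
      ((ev_side s1 nhdsWithin_le_nhds).and self_mem_nhdsWithin)).exists
    obtain ⟨w2, h5, ⟨h6, h7⟩, h8⟩ := (fR.and_eventually
      ((ev_side s2 nhdsWithin_le_nhds).and self_mem_nhdsWithin)).exists
    have h9 := h.cross939 (z := y) (u := u + 3) e3 (fun i hi => h.sub _ (hTz ▸ hi)) h4 h8 h3 h7
      (e1 ▸ h1) h2 (e2 ▸ h5) h6
    rw [hzy] at h9
    exact ⟨ev_shift6_right (p := fun q => T q = {p, s}) h9.1,
      ev_shift6_left (p := fun q' => T q' = {q, r}) h9.2⟩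
  have bad : ∀ x y' : Fin k, (∀ᶠ v in 𝓝[>] u, T (pt z v) = {x, y'}) →
      ({x, y'} : Set (Fin k)) = {c, d} := by
    intro x y' h1
    obtain ⟨v, h2, h3⟩ := (hr.and_eventually h1).exists
    rw [← h3, h2.mem]
  have sides1 := h.sides hy' (V := z) (by rw [← hzy]; exact dist_pt _ _)
  have sides2 := h.sides hy'.swap (V := z) (by rw [← hzy]; exact dist_pt _ _)
  have hTy : T y = {a, d, b, c} := hy'.pal
  have perm : ∀ p q r s : Fin k, (∀ i, (i = a ∨ i = d ∨ i = b ∨ i = c) ↔
      (i = p ∨ i = q ∨ i = r ∨ i = s)) → T y = {p, q, r, s} := by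
    intro p q r s hi
    rw [hTy]
    ext i
    simp only [mem_insert_iff, mem_singleton_iff]
    exact hi i
  rcases sides1 with s1 | s1 <;> rcases sides2 with s2 | s2
  · have h1 := cross b c a d rfl rfl (perm _ _ _ _ (by tauto)) s2 s1
    exact absurd (bad _ _ h1.1) (pair_ne_pair (x := b) (by simp) hz.bc hz.bd)
  · have h1 := cross c b a d (pair_comm _ _) rfl (perm _ _ _ _ (by tauto)) s2 s1
    exact ⟨hz, hy', by filter_upwards [h1.2] with v hv; rw [hv, pair_comm], h1.1, hL, hR, hab, hcd,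
      s1, s2⟩
  · have h1 := cross b c d a rfl (pair_comm _ _) (perm _ _ _ _ (by tauto)) s2 s1
    exact absurd (bad _ _ h1.1) (pair_ne_pair (x := b) (by simp) hz.bc hz.bd)
  · have h1 := cross c b d a (pair_comm _ _) (pair_comm _ _) (perm _ _ _ _ (by tauto)) s2 s1
    exact absurd (bad _ _ h1.1) (pair_ne_pair (x := a) (by simp) hz.ac hz.ad)

/-- all orientations with given inner colours -/
theorem Irr.s1_in (h : Irr U T) {z : ℂ} {u : ℝ} {a b c d : Fin k} (hz : DPt T z a b c d)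
    (hy : T (pt z u) = T z) (hab : Sd U z (pt z u) a b) (hcd : Sd U z (pt z u) c d) :
    S1W U T z u a b c d ∨ S1W U T z u c d a b := by
  rcases h.s1_split hz hy with ⟨h1, h2, -, -⟩ | ⟨h1, h2, -, -⟩
  · exact Or.inl (h.s1_core hz hy hab hcd h1 h2)
  · exact Or.inr (h.s1_core hz.swap hy hcd hab h1 h2)

/-- **contact S1** -/
theorem Irr.s1 (h : Irr U T) {z : ℂ} {u : ℝ} {a b c d : Fin k} (hz : DPt T z a b c d)
    (hy : T (pt z u) = T z) :
    (S1W U T z u a b c d ∨ S1W U T z u c d a b) ∨ (S1W U T z u b a c d ∨ S1W U T z u c d b a) ∨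
      (S1W U T z u a b d c ∨ S1W U T z u d c a b) ∨
      (S1W U T z u b a d c ∨ S1W U T z u d c b a) := by
  rcases h.sides hz (dist_pt z u) with s1 | s1 <;> rcases h.sides hz.swap (dist_pt z u) with s2 | s2
  · exact Or.inl (h.s1_in hz hy s1 s2)
  · exact Or.inr (Or.inr (Or.inl (h.s1_in hz.swap34 hy s1 s2)))
  · exact Or.inr (Or.inl (h.s1_in hz.swap12 hy s1 s2))
  · exact Or.inr (Or.inr (Or.inr (h.s1_in hz.swap12.swap34 hy s1 s2)))

/-- **contact S1, the words**: one letter before, the other one after, both exact -/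
theorem Irr.s1_words (h : Irr U T) {z : ℂ} {u : ℝ} {a b c d : Fin k} (hz : DPt T z a b c d)
    (hy : T (pt z u) = T z) :
    ((∀ᶠ v in 𝓝[<] u, T (pt z v) = {a, b}) ∧ ∀ᶠ v in 𝓝[>] u, T (pt z v) = {c, d}) ∨
      ((∀ᶠ v in 𝓝[<] u, T (pt z v) = {c, d}) ∧ ∀ᶠ v in 𝓝[>] u, T (pt z v) = {a, b}) := by
  have e1 : ({b, a} : Set (Fin k)) = {a, b} := pair_comm _ _
  have e2 : ({d, c} : Set (Fin k)) = {c, d} := pair_comm _ _
  rcases h.s1 hz hy with (w | w) | (w | w) | (w | w) | (w | w)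
  · exact Or.inl ⟨w.before, w.after⟩
  · exact Or.inr ⟨w.before, w.after⟩
  · exact Or.inl ⟨e1 ▸ w.before, w.after⟩
  · exact Or.inr ⟨w.before, e1 ▸ w.after⟩
  · exact Or.inl ⟨w.before, e2 ▸ w.after⟩
  · exact Or.inr ⟨e2 ▸ w.before, w.after⟩
  · exact Or.inl ⟨e1 ▸ w.before, e2 ▸ w.after⟩
  · exact Or.inr ⟨e2 ▸ w.before, e1 ▸ w.after⟩

/-- **contact S1**: `y` is a two-pair point with another pairing -/
theorem Irr.s1_dpt (h : Irr U T) {z y : ℂ} {a b c d : Fin k} (hz : DPt T z a b c d)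
    (hyz : dist y z = 1) (hy : T y = T z) : DPt T y a d b c ∨ DPt T y a c b d := by
  obtain ⟨u, rfl⟩ := exists_ptc hyz
  rcases h.s1 hz hy with (w | w) | (w | w) | (w | w) | (w | w)
  · exact Or.inl w.hy
  · exact Or.inl w.hy.swap.swap12.swap34
  · exact Or.inr w.hy.swap
  · exact Or.inr w.hy.swap12.swap34
  · exact Or.inr w.hy
  · exact Or.inr w.hy.swap.swap12.swap34
  · exact Or.inl w.hy.swap
  · exact Or.inl w.hy.swap12.swap34

/-- the same contact seen from the other point -/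
theorem S1W.symm {z : ℂ} {u : ℝ} {a b c d : Fin k} (w : S1W U T z u a b c d) :
    S1W U T (pt z u) (u + 3) c b a d where
  hz := w.hy.swap.swap12
  hy := by rw [pt_back]; exact w.hz.swap.swap34
  before := by
    filter_upwards [w.before'] with v hv
    rw [hv, pair_comm]
  after := w.after'
  before' := by
    rw [pt_back]
    refine ev_shift6_left' (p := fun q => T q = {b, a}) ?_
    filter_upwards [w.before] with v hv
    rw [hv, pair_comm]
  after' := by
    rw [pt_back]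
    exact ev_shift6_right' (p := fun q => T q = {c, d}) w.after
  sab := by rw [pt_back]; exact w.scb
  scd := by rw [pt_back]; exact w.sad
  sad := by rw [pt_back]; exact w.scd
  scb := by rw [pt_back]; exact w.sab

end Vale.Agent.P032.Six
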