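import Vale.Agent.P032.R2.H939.S1Third
import Vale.Agent.P032.R2.H659.Corner
import Vale.Agent.P032.R2.H609.S3At

/-!
# P032, contact S2: `z = ab | cd`, `y` on `S(z)` with `T y = {a, b, c, e}`
-/

open Set Filter Topology Metric

noncomputable section

namespace Vale.Agent.P032.Six

open Vale.Agent.P032.S5.H767

variable {U : Fin 6 → Set ℂ} {T : ℂ → Set (Fin 6)}

/-- contact S2: `z = ab | cd`, `y` on `S(z)` with the palette `{a, b, c, e}` -/
structure S2at (U : Fin 6 → Set ℂ) (T : ℂ → Set (Fin 6)) (z y : ℂ) (a b c d e f : Fin 6) :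
    Prop where
  irr : Irr U T
  dp : DPt T z a b c d
  nd : [a, b, c, d, e, f].Nodup
  dist : dist y z = 1
  pal : T y = {a, b, c, e}

namespace S2at

variable {z y : ℂ} {a b c d e f : Fin 6}

theorem ne (C : S2at U T z y a b c d e f) : (a ≠ b ∧ a ≠ c ∧ a ≠ d ∧ a ≠ e ∧ a ≠ f) ∧
    (b ≠ c ∧ b ≠ d ∧ b ≠ e ∧ b ≠ f) ∧ (c ≠ d ∧ c ≠ e ∧ c ≠ f) ∧ (d ≠ e ∧ d ≠ f) ∧ e ≠ f := by
  have h := C.nd
  simp only [List.nodup_cons, List.mem_cons, not_or, List.not_mem_nil, not_false_eq_true,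
    List.nodup_nil, and_true] at h
  tauto

theorem ctr (C : S2at U T z y a b c d e f) : Ctr U T z a b c d e f := ctr_of_dpt C.irr C.dp C.nd

theorem zy (C : S2at U T z y a b c d e f) : Dist.dist z y = 1 := by rw [dist_comm]; exact C.dist

theorem swap_ab (C : S2at U T z y a b c d e f) : S2at U T z y b a c d e f where
  irr := C.irr
  dp := C.dp.swap12
  nd := by
    have h := C.nd
    simp only [List.nodup_cons, List.mem_cons, not_or, List.not_mem_nil, not_false_eq_true,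
      List.nodup_nil, and_true] at h ⊢
    tauto
  dist := C.dist
  pal := by rw [C.pal]; ext i; simp only [mem_insert_iff, mem_singleton_iff]; tauto

theorem a_mem (C : S2at U T z y a b c d e f) : a ∈ T y := by rw [C.pal]; simp
theorem b_mem (C : S2at U T z y a b c d e f) : b ∈ T y := by rw [C.pal]; simp
theorem c_mem (C : S2at U T z y a b c d e f) : c ∈ T y := by rw [C.pal]; simp
theorem e_mem (C : S2at U T z y a b c d e f) : e ∈ T y := by rw [C.pal]; simp

theorem d_not (C : S2at U T z y a b c d e f) : d ∉ T y := by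
  obtain ⟨⟨_, _, ad, _, _⟩, ⟨_, bd, _, _⟩, ⟨cd, _, _⟩, ⟨de, _⟩, _⟩ := C.ne
  rw [C.pal]
  simp only [mem_insert_iff, mem_singleton_iff, not_or]
  exact ⟨ad.symm, bd.symm, cd.symm, de⟩

theorem f_not (C : S2at U T z y a b c d e f) : f ∉ T y := by
  obtain ⟨⟨_, _, _, _, af⟩, ⟨_, _, _, bf⟩, ⟨_, _, cf⟩, ⟨_, _⟩, ef⟩ := C.ne
  rw [C.pal]
  simp only [mem_insert_iff, mem_singleton_iff, not_or]
  exact ⟨af.symm, bf.symm, cf.symm, ef.symm⟩

theorem card (C : S2at U T z y a b c d e f) : (T y).ncard = 4 := by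
  obtain ⟨⟨ab, ac, _, ae, _⟩, ⟨bc, _, be, _⟩, ⟨_, ce, _⟩, _, _⟩ := C.ne
  rw [C.pal, Set.ncard_insert_of_notMem (by simp [ab, ac, ae]), Set.ncard_insert_of_notMem
    (by simp [bc, be]), Set.ncard_pair ce]

/-- the letters at `y` are `e` and `A` only -/
theorem letter (C : S2at U T z y a b c d e f) {l : Fin 4} (hl : y ∈ Lt T z a b c d e f l) :
    l = 0 ∨ l = 2 := by
  have hcol := Lt_col C.irr hl
  fin_cases l
  · exact Or.inl rfl
  · exact absurd hl.2 C.f_not
  · exact Or.inr rfl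
  · exact absurd ((show ({c, d} : Set (Fin 6)) ⊆ T y from hcol) (by simp)) C.d_not

/-- the palette `{d}` on a branch of `S(y)` without `a` and `b` -/
theorem only_d (C : S2at U T z y a b c d e f) :
    ∀ᶠ x in 𝓝 z, Dist.dist x y = 1 → x ≠ z → a ∉ Pal U x → b ∉ Pal U x → d ∈ T x := by
  filter_upwards [C.irr.nhd z, C.irr.iso' C.dp] with x h1 h2 h3 h4 h5 h6
  by_contra hd
  have h7 : x ∈ U c := C.irr.mem_of_single fun i hi => by
    have h8 := h1 hi
    rw [C.dp.pal] at h8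
    rcases h8 with rfl | rfl | rfl | h8
    · exact absurd (C.irr.sub _ hi) h5
    · exact absurd (C.irr.sub _ hi) h6
    · rfl
    · rw [mem_singleton_iff] at h8; subst h8; exact absurd hi hd
  exact C.irr.mx.notMem (C.irr.sub _ C.c_mem) h3 h7

/-- a colour of the arc pair is not on the whole of `S(y)` near `z` -/
theorem not_whole_d (C : S2at U T z y a b c d e f) (h : ∀ᶠ q in 𝓝[sphere y 1] z, d ∈ T q) :
    False := by
  obtain ⟨p, hp⟩ := C.dp.arc2
  obtain ⟨g, hg, h1, h2⟩ := hp.exists_off_line (y := y)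
  exact line_free C.irr C.zy h (by rw [dist_comm]; exact hg.1) h1 h2
    (C.irr.sub _ (by rw [hg.mem]; simp))

end S2at

/-- **exact `ab`-arcs accumulate at a contact S2 from one side at most** -/
theorem S2at.oneside {z : ℂ} {u : ℝ} {a b c d e f : Fin 6} (C : S2at U T z (pt z u) a b c d e f)
    (hl : ∃ᶠ v in 𝓝[<] u, Arc T z (pt z v) {a, b})
    (hr : ∃ᶠ v in 𝓝[>] u, Arc T z (pt z v) {a, b}) : False := by
  have h := C.irr
  -- one orientation
  have key : ∀ {a b : Fin 6}, S2at U T z (pt z u) a b c d e f →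
      (∃ᶠ v in 𝓝[<] u, Arc T z (pt z v) {a, b}) → (∃ᶠ v in 𝓝[>] u, Arc T z (pt z v) {a, b}) →
      Sd U z (pt z u) a b → False := by
    intro a b C hl hr hs
    obtain ⟨v1, h1, ⟨h2, h3⟩, h4⟩ := (hl.and_eventually
      ((ev_side hs nhdsWithin_le_nhds).and self_mem_nhdsWithin)).exists
    obtain ⟨v2, h5, ⟨h6, h7⟩, h8⟩ := (hr.and_eventually
      ((ev_side hs nhdsWithin_le_nhds).and self_mem_nhdsWithin)).exists
    have e1 := (h.back h3 h1 h2).1 h4
    have e2 := (h.back h7 h5 h6).2 h8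
    have hF : ∀ F : Filter ℝ, F ≤ 𝓝 (u + 3) → (∀ᶠ w in F, w ≠ u + 3) →
        (∀ᶠ w in F, a ∉ Pal U (pt (pt z u) w)) → (∀ᶠ w in F, b ∉ Pal U (pt (pt z u) w)) →
        ∀ᶠ w in F, d ∈ T (pt (pt z u) w) := by
      intro F hF hne ha hb
      have t1 : Tendsto (pt (pt z u)) F (𝓝 z) := by
        have := tendsto_pt_of_le (z := pt z u) hF
        rwa [pt_back] at this
      have t2 : ∀ᶠ w in F, |w - (u + 3)| ≤ 1 := hF (by
        filter_upwards [Metric.closedBall_mem_nhds (u + 3) one_pos] with w hw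
        rwa [Metric.mem_closedBall, Real.dist_eq] at hw)
      filter_upwards [t1.eventually C.only_d, hne, t2, ha, hb] with w k1 k2 k3 k4 k5
      refine k1 (dist_pt _ _) ?_ k4 k5
      have := pt_ne (z := pt z u) k2 k3
      rwa [pt_back] at this
    have r1 : ∀ᶠ w in 𝓝[>] (u + 3), d ∈ T (pt (pt z u) w) :=
      hF _ nhdsWithin_le_nhds (by filter_upwards [self_mem_nhdsWithin] with w hw; exact ne_of_gt hw)
        e2.1 e1.1
    have r2 : ∀ᶠ w in 𝓝[<] (u + 3), d ∈ T (pt (pt z u) w) :=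
      hF _ nhdsWithin_le_nhds (by filter_upwards [self_mem_nhdsWithin] with w hw; exact ne_of_lt hw)
        e1.2 e2.2
    have r3 : ∀ᶠ w in 𝓝 (u + 3), d ∈ T (pt (pt z u) w) := by
      have r4 : ∀ᶠ w in 𝓝[≠] (u + 3), d ∈ T (pt (pt z u) w) := by
        rw [← Iio_union_Ioi, nhdsWithin_union]
        exact ⟨r2, r1⟩
      rw [eventually_nhdsWithin_iff] at r4
      filter_upwards [r4] with w hw
      by_cases h0 : w = u + 3
      · rw [h0, pt_back, C.dp.pal]; simp
      · exact hw h0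
    refine C.not_whole_d ?_
    have := ev_circle (pt z u) (u := u + 3) (p := fun q => d ∈ T q) r3
    rwa [pt_back] at this
  rcases h.sides C.dp (dist_pt z u) with hs | hs
  · exact key C hl hr hs
  · rw [pair_comm] at hl hr
    exact key C.swap_ab hl hr hs

end Vale.Agent.P032.Six
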