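import Vale.Agent.P032.R2.H939.S2
import Vale.Agent.P032.R2.H659.Contact

/-!
# P032, contact S2: the word at `y`, and the third vertices
-/

open Set Filter Topology Metric

noncomputable section

namespace Vale.Agent.P032.Six

open Vale.Agent.P032.S5.H767

variable {U : Fin 6 → Set ℂ} {T : ℂ → Set (Fin 6)} {z y p : ℂ} {a b c d e f : Fin 6}

namespace S2at

/-- no exact `ce`-arc of `S(y)`: no point of `S(y)` with the palette inside `{c, e}` -/
theorem no_sub_ce (C : S2at U T z y a b c d e f) (hce : ¬ ∃ q, Arc T y q {c, e}) {q : ℂ}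
    (hq : Dist.dist q y = 1) : ¬ T q ⊆ {c, e} := by
  intro hs
  have hsy : T q ⊆ T y := by
    rw [C.pal]
    intro i hi
    rcases hs hi with rfl | h1
    · simp
    · rw [mem_singleton_iff] at h1; subst h1; simp
  obtain ⟨q', -, h1, h2, h3, h4, -⟩ := C.irr.arc_of_sub hq hsy univ_mem
  have h5 : T q' ⊆ {c, e} := h3.trans hs
  have h6 : T q' = {c, e} := by
    apply Set.eq_of_subset_of_ncard_le h5 _ (Set.toFinite _)
    rw [Set.ncard_pair C.ne.2.2.1.2.1]; exact h4
  exact hce ⟨q', h1, by rw [h6] at h2; exact h2⟩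

/-- a common colour is not on the whole of a circle near a third vertex -/
theorem third_not_whole (h : Irr U T) {z y p : ℂ} {t : Fin 6} (hyz : Dist.dist y z = 1)
    (hpz : Dist.dist p z = 1) (hpy : Dist.dist p y = 1) (ht : t ∈ T y)
    (hJ : ∀ᶠ q in 𝓝[sphere z 1] p, t ∈ T q) : False := by
  have h1 := tri_off hyz hpz
  exact line_free h hpz hJ hpy h1.1 (fun e => h1.2 (by linear_combination e)) (h.sub _ ht)

/-- two colours of `T y` are missing at a third vertex of order at most three (up to colours which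
are not shared) -/
theorem missing (C : S2at U T z y a b c d e f) (hpz : Dist.dist p z = 1)
    (hpy : Dist.dist p y = 1) (h3 : (T p).ncard ≤ 3) {t : Fin 6} (ht : t ∈ T z) :
    ¬ T y ⊆ insert t (T p) := by
  intro hs
  rcases C.irr.lemmaX (u := p) (p := y) (v := z) (by rw [dist_comm]; exact hpy) h3 hs C.dist
    (C.irr.sub _ ht) with h1 | h1
  · rw [h1, dist_self] at hpz; exact zero_ne_one hpz
  · exact (tri_off hpz C.dist).2 (by linear_combination h1)

theorem missing' (C : S2at U T z y a b c d e f) (hpz : Dist.dist p z = 1)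
    (hpy : Dist.dist p y = 1) (h3 : (T p).ncard ≤ 3) {t : Fin 6} (ht : t ∈ T y) :
    ¬ T z ⊆ insert t (T p) := by
  intro hs
  rcases C.irr.lemmaX (u := p) (p := z) (v := y) (by rw [dist_comm]; exact hpz) h3 hs C.zy
    (C.irr.sub _ ht) with h1 | h1
  · rw [h1, dist_self] at hpy; exact zero_ne_one hpy
  · exact (tri_off hpy C.zy).2 (by linear_combination h1)

/-- **third vertex of a contact S2**: `f ∈ T p` if `|T p| ≤ 3` -/
theorem third_f (C : S2at U T z y a b c d e f) (hce : ¬ ∃ q, Arc T y q {c, e})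
    (hpz : Dist.dist p z = 1) (hpy : Dist.dist p y = 1) (h3 : (T p).ncard ≤ 3) : f ∈ T p := by
  by_contra hf
  have h := C.irr
  have D := C.ctr
  have hzp : Dist.dist z p = 1 := by rw [dist_comm]; exact hpz
  by_cases hcd : ({c, d} : Set (Fin 6)) ⊆ T p
  · have hc : c ∈ T p := hcd (by simp)
    have hd : d ∈ T p := hcd (by simp)
    have hb : b ∉ T p := by
      intro hb
      refine C.missing' hpz hpy h3 C.a_mem ?_
      rw [C.dp.pal]
      rintro i (rfl | rfl | rfl | hi)
      · exact Or.inl rfl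
      · exact Or.inr hb
      · exact Or.inr hc
      · rw [mem_singleton_iff] at hi; subst hi; exact Or.inr hd
    have ha : a ∉ T p := by
      intro ha
      refine C.missing' hpz hpy h3 C.b_mem ?_
      rw [C.dp.pal]
      rintro i (rfl | rfl | rfl | hi)
      · exact Or.inr ha
      · exact Or.inl rfl
      · exact Or.inr hc
      · rw [mem_singleton_iff] at hi; subst hi; exact Or.inr hd
    have hwd : ∀ᶠ q in 𝓝[sphere y 1] p, d ∈ T q := by
      filter_upwards [mem_nhdsWithin_of_mem_nhds (h.nhd p), self_mem_nhdsWithin] with q hq hqy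
      by_contra hdq
      refine C.no_sub_ce hce (q := q) hqy fun i hi => ?_
      have hip := hq hi
      rcases D.all i with rfl | rfl | rfl | rfl | rfl | rfl
      · exact absurd hip ha
      · exact absurd hip hb
      · simp
      · exact absurd hi hdq
      · simp
      · exact absurd hip hf
    exact third_not_whole h C.zy hpy hpz (by rw [C.dp.pal]; simp) hwd
  · by_cases hab : ({a, b} : Set (Fin 6)) ⊆ T p
    · by_cases he : e ∈ T p
      · refine C.missing hpz hpy h3 (t := c) (by rw [C.dp.pal]; simp) ?_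
        rw [C.pal]
        rintro i (rfl | rfl | rfl | hi)
        · exact Or.inr (hab (by simp))
        · exact Or.inr (hab (by simp))
        · exact Or.inl rfl
        · rw [mem_singleton_iff] at hi; subst hi; exact Or.inr he
      · refine third_not_whole h C.dist hpz hpy C.a_mem ?_
        filter_upwards [mem_nhdsWithin_of_mem_nhds (h.nhd p), self_mem_nhdsWithin] with q hq hqz
        obtain ⟨l, hl⟩ := D.cover (y := q) hqz
        have hcol := Lt_col h hl
        fin_cases l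
        · exact absurd (hq hl.2) he
        · exact absurd (hq hl.2) hf
        · exact (show ({a, b} : Set (Fin 6)) ⊆ T q from hcol) (by simp)
        · exact absurd ((show ({c, d} : Set (Fin 6)) ⊆ T q from hcol).trans hq) hcd
    · refine third_not_whole h C.dist hpz hpy C.e_mem ?_
      exact whole_of_ctr D hab hcd hf

/-- an exact arc `{b, c}` or `{a, c}` of `S(y)` -/
theorem exists_arc (C : S2at U T z y a b c d e f) :
    (∃ q, Arc T y q {b, c}) ∨ ∃ q, Arc T y q {a, c} := by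
  have h := C.irr
  have hc := h.sub _ C.c_mem
  have hb := h.sub _ C.b_mem
  have ha := h.sub _ C.a_mem
  have hac : ({c, a} : Set (Fin 6)) = {a, c} := pair_comm _ _
  have hbc : ({c, b} : Set (Fin 6)) = {b, c} := pair_comm _ _
  rcases h.sides C.dp C.dist with s1 | s1 <;> rcases h.sides C.dp.swap C.dist with s2 | s2
  · obtain ⟨q, hq⟩ := (h.locked_acc C.dp C.dist s2 s1 hc hb).exists
    exact Or.inl ⟨q, hq⟩
  · obtain ⟨q, hq⟩ := (h.locked_acc C.dp.swap.swap12 C.dist s1 s2 ha hc).exists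
    rw [hac] at hq
    exact Or.inr ⟨q, hq⟩
  · obtain ⟨q, hq⟩ := (h.locked_acc C.dp.swap12 C.dist s2 s1 hc ha).exists
    exact Or.inr ⟨q, hq⟩
  · obtain ⟨q, hq⟩ := (h.locked_acc C.dp.swap.swap12.swap34 C.dist s1 s2 hb hc).exists
    rw [hbc] at hq
    exact Or.inl ⟨q, hq⟩

/-- `[Mn]`: no exact `ce`-arc of `S(y)` -/
theorem no_ce (C : S2at U T z y a b c d e f) (hmin : Mn U T) : ¬ ∃ q, Arc T y q {c, e} := by
  rintro ⟨q, hq⟩
  obtain ⟨⟨ab, ac, ad, ae, af⟩, ⟨bc, bd, be, bf⟩, ⟨cd, ce, cf⟩, ⟨de, df⟩, ef⟩ := C.ne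
  have key : ∀ x : Fin 6, x ∈ T y → x ≠ c → x ≠ e → ∀ q', Arc T y q' {x, c} → False := by
    intro x hx hxc hxe q' hq'
    rcases C.irr.pairs_disjoint hmin C.card hq'.1 hq.1 (by
        rw [hq'.mem]; rintro i (rfl | hi)
        · exact hx
        · rw [mem_singleton_iff] at hi; subst hi; exact C.c_mem) (by
        rw [hq.mem]; rintro i (rfl | hi)
        · exact C.c_mem
        · rw [mem_singleton_iff] at hi; subst hi; exact C.e_mem)
        (by rw [hq'.mem, Set.ncard_pair hxc]) (by rw [hq.mem, Set.ncard_pair ce]) with h1 | h1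
    · rw [hq'.mem, hq.mem] at h1
      have h2 : x ∈ ({c, e} : Set (Fin 6)) := by rw [← h1]; simp
      rcases h2 with h2 | h2
      · exact hxc h2
      · exact hxe h2
    · rw [hq'.mem, hq.mem] at h1
      exact Set.disjoint_left.1 h1 (show c ∈ ({x, c} : Set (Fin 6)) by simp) (by simp)
  rcases C.exists_arc with ⟨q', hq'⟩ | ⟨q', hq'⟩
  · exact key b C.b_mem bc be q' hq'
  · exact key a C.a_mem ac ae q' hq'

/-- `[Mn]`, **third vertex of a contact S2** -/
theorem third_f' (C : S2at U T z y a b c d e f) (hmin : Mn U T)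
    (hpz : Dist.dist p z = 1) (hpy : Dist.dist p y = 1) (h3 : (T p).ncard ≤ 3) : f ∈ T p :=
  C.third_f (C.no_ce hmin) hpz hpy h3

end S2at

/-- exact arcs accumulate at the points of their closure -/
theorem freq_of_closure {z : ℂ} {u : ℝ} {P : Set (Fin 6)} (h : pt z u ∈ closure (Ex T z P)) :
    ∃ᶠ v in 𝓝 u, Arc T z (pt z v) P := by
  intro hcon
  have h1 := ev_circle z (p := fun q => ¬ Arc T z q P) hcon
  obtain ⟨V, hV, hVs⟩ := mem_nhdsWithin_iff_exists_mem_nhds_inter.1 h1
  obtain ⟨q, hqV, hq⟩ := mem_closure_iff_nhds.1 h V hV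
  exact hVs ⟨hqV, hq.1⟩ hq

theorem freq_sides {u : ℝ} {p : ℝ → Prop} (h : ∃ᶠ v in 𝓝 u, p v) (h0 : ¬ p u) :
    (∃ᶠ v in 𝓝[<] u, p v) ∨ ∃ᶠ v in 𝓝[>] u, p v := by
  by_contra hcon
  push Not at hcon
  refine h ?_
  have h1 : ∀ᶠ v in 𝓝[≠] u, ¬ p v := by
    rw [← Iio_union_Ioi, nhdsWithin_union]
    exact ⟨hcon.1, hcon.2⟩
  rw [eventually_nhdsWithin_iff] at h1
  filter_upwards [h1] with v hv
  by_cases hvu : v = u
  · rw [hvu]; exact h0
  · exact hv hvu

namespace S2at

/-- on a side with `T ⊆ {a, b}` -/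
theorem eq_ab (h : Irr U T) {q : ℂ} (hqz : Dist.dist q z = 1) (ha : a ∈ T z) (hb : b ∈ T z)
    (hs : T q ⊆ {a, b}) : T q = {a, b} :=
  h.eq_pair_of_sub hqz (h.sub _ ha) (h.sub _ hb) hs

/-- **the word at `y`**, `y = bc | ae`, `A` a letter at `y`: exactly `{a, b}` on one side,
`T ⊆ {c, e}` with `e` on the other side -/
theorem word {u : ℝ} (C : S2at U T z (pt z u) a b c d e f) (hy : DPt T (pt z u) b c a e)
    (hA : pt z u ∈ closure (Ex T z {a, b})) :
    ((∀ᶠ v in 𝓝[<] u, T (pt z v) = {a, b}) ∧ ∀ᶠ v in 𝓝[>] u, a ∉ Pal U (pt z v) ∧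
      b ∉ Pal U (pt z v) ∧ T (pt z v) ⊆ {c, e} ∧ e ∈ T (pt z v)) ∨
    ((∀ᶠ v in 𝓝[>] u, T (pt z v) = {a, b}) ∧ ∀ᶠ v in 𝓝[<] u, a ∉ Pal U (pt z v) ∧
      b ∉ Pal U (pt z v) ∧ T (pt z v) ⊆ {c, e} ∧ e ∈ T (pt z v)) := by
  obtain ⟨⟨ab, ac, ad, ae, af⟩, ⟨bc, bd, be, bf⟩, ⟨cd, ce, cf⟩, ⟨de, df⟩, ef⟩ := C.ne
  have h := C.irr
  have haz : a ∈ T z := by rw [C.dp.pal]; simp
  have hbz : b ∈ T z := by rw [C.dp.pal]; simp
  have hcz : c ∈ T z := by rw [C.dp.pal]; simp
  have h0 : ¬ Arc T z (pt z u) {a, b} := by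
    intro h0
    have h1 := C.c_mem
    rw [h0.mem] at h1
    rcases h1 with h1 | h1
    · exact ac h1.symm
    · exact bc h1.symm
  have hfr := freq_sides (freq_of_closure hA) h0
  obtain ⟨x, w, x', w', hx, hx', hR, hL⟩ := h.hub_two_sides hy C.dist
  have hR' := ev_right (P := fun q => w ∉ Pal U q ∧ w' ∉ Pal U q ∧ T q ⊆ {x, x'}) hR
  have hL' := ev_left (P := fun q => x ∉ Pal U q ∧ x' ∉ Pal U q ∧ T q ⊆ {w, w'}) hL
  have hce : ∀ v, T (pt z v) ⊆ {c, e} → e ∈ T (pt z v) := by
    intro v hv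
    by_contra he
    have h1 : pt z v ∈ U c := h.mem_of_single fun i hi => by
      rcases hv hi with h2 | h2
      · exact h2
      · rw [mem_singleton_iff] at h2; subst h2; exact absurd hi he
    exact h.mx.notMem (h.sub _ hcz) (dist_pt z v) h1
  -- the side with the arcs
  have bad : ∀ (F : Filter ℝ) (s t : Fin 6), (∀ᶠ v in F, T (pt z v) ⊆ {s, t}) →
      (∃ᶠ v in F, Arc T z (pt z v) {a, b}) → (a = s ∨ a = t) ∧ (b = s ∨ b = t) := by
    intro F s t h1 h2
    obtain ⟨v, h3, h4⟩ := (h2.and_eventually h1).exists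
    rw [h3.mem] at h4
    exact ⟨h4 (by simp), h4 (by simp)⟩
  rcases hfr with hfr | hfr
  · left
    have k := bad _ _ _ (hL'.mono fun v hv => hv.2.2) hfr
    have e1 : w = b ∧ x = c := by
      rcases hx with ⟨r1, r2⟩ | ⟨r1, r2⟩
      · subst r1 r2
        rcases k.2 with k2 | k2
        · exact absurd k2 bc
        · rcases hx' with ⟨r3, r4⟩ | ⟨r3, r4⟩
          · exact absurd (k2.trans r4) be
          · exact absurd (k2.trans r4).symm ab
      · exact ⟨r2, r1⟩
    have e2 : w' = a ∧ x' = e := by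
      rcases hx' with ⟨r3, r4⟩ | ⟨r3, r4⟩
      · rcases k.1 with k2 | k2
        · exact absurd (k2.trans e1.1) ab
        · exact absurd (k2.trans r4) ae
      · exact ⟨r4, r3⟩
    rw [e1.1, e1.2, e2.1, e2.2] at hL'
    rw [e1.1, e1.2, e2.1, e2.2] at hR'
    refine ⟨?_, ?_⟩
    · filter_upwards [hL'] with v hv
      exact eq_ab h (dist_pt z v) haz hbz (by rw [pair_comm]; exact hv.2.2)
    · filter_upwards [hR'] with v hv
      exact ⟨hv.2.1, hv.1, hv.2.2, hce v hv.2.2⟩
  · right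
    have k := bad _ _ _ (hR'.mono fun v hv => hv.2.2) hfr
    have e1 : x = b ∧ w = c := by
      rcases hx with ⟨r1, r2⟩ | ⟨r1, r2⟩
      · exact ⟨r1, r2⟩
      · subst r1 r2
        rcases k.2 with k2 | k2
        · exact absurd k2 bc
        · rcases hx' with ⟨r3, r4⟩ | ⟨r3, r4⟩
          · exact absurd (k2.trans r3).symm ab
          · exact absurd (k2.trans r3) be
    have e2 : x' = a ∧ w' = e := by
      rcases hx' with ⟨r3, r4⟩ | ⟨r3, r4⟩
      · exact ⟨r3, r4⟩
      · rcases k.1 with k2 | k2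
        · exact absurd (k2.trans e1.1) ab
        · exact absurd (k2.trans r3) ae
    rw [e1.1, e1.2, e2.1, e2.2] at hL'
    rw [e1.1, e1.2, e2.1, e2.2] at hR'
    refine ⟨?_, ?_⟩
    · filter_upwards [hR'] with v hv
      exact eq_ab h (dist_pt z v) haz hbz (by rw [pair_comm]; exact hv.2.2)
    · filter_upwards [hL'] with v hv
      exact ⟨hv.2.1, hv.1, hv.2.2, hce v hv.2.2⟩

end S2at

end Vale.Agent.P032.Six
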