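import Vale.Agent.P032.R2.H939.W2Tri
import Vale.Agent.P032.R2.H833.S3D
import Vale.Agent.P032.S5.H349.Bridge
import Vale.Agent.P032.S5.H12.NetE

/-!
# P032: TWO and L3 for the centres without contacts `{i, j | e, f}`, in the world `WT`

`NoR T z`: no point of `S(z)` is a two-pair point one pair of which consists of the two missing
colours of `z`.

* `RawU.antip` : two antipodal clean ends of type `f | C` with nothing in between (words).
* `WT.amb` : an ambiguous pair of `S(z)` contains a real end or a contact `{i, j | e, f}`.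
* `WT.twoR` : no class has exactly one end of each kind.
* `WT.l3R` : exactly one end and two complementary ends: the centre is between them.
-/

open Set Filter Topology Metric

noncomputable section

namespace Vale.Agent.P032.Words

variable {X : Fin 4 → Set ℝ}

/-- near a mark only its two letters occur -/
theorem Mark.near939 (hcl : ∀ l, IsClosed (X l)) {a b : Fin 4} {V : ℝ} (hM : Mark X a b V) :
    ∀ᶠ u in 𝓝 V, ∀ l, u ∈ X l → l = a ∨ l = b := by
  rw [eventually_all]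
  intro l
  by_cases h : l = a ∨ l = b
  · exact Eventually.of_forall fun u _ => h
  · filter_upwards [(hcl l).isOpen_compl.mem_nhds fun h' => h (hM.only l h')] with u hu h'
    exact absurd h' hu

theorem Mark.right939 (hcl : ∀ l, IsClosed (X l)) {a b : Fin 4} {V : ℝ} (hM : Mark X a b V) :
    ∀ᶠ u in 𝓝[>] V, ∀ l, u ∈ X l → l = b := by
  filter_upwards [mem_nhdsWithin_of_mem_nhds (hM.near939 hcl), hM.right] with u h1 h2 l hl
  rcases h1 l hl with h | h
  · subst h; exact absurd hl h2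
  · exact h

theorem Mark.left939 (hcl : ∀ l, IsClosed (X l)) {a b : Fin 4} {V : ℝ} (hM : Mark X a b V) :
    ∀ᶠ u in 𝓝[<] V, ∀ l, u ∈ X l → l = a := by
  filter_upwards [mem_nhdsWithin_of_mem_nhds (hM.near939 hcl), hM.left] with u h1 h2 l hl
  rcases h1 l hl with h | h
  · exact h
  · subst h; exact absurd hl h2

/-- three consecutive points with decreasing letters, the last one has only the letter `f` -/
theorem core939 {p q : ℝ} (cp : ∃ l, p ∈ X l) (cq : ∃ l, q ∈ X l) (iq : q ∉ X 1)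
    (c1 : ∀ l m, p ∈ X l → q ∈ X m → rk1 m ≤ rk1 l) (c2 : ∀ l, q ∈ X l → 1 ≤ rk1 l)
    (i1 : ∀ l, (∀ m, p ∈ X m → m = l) → q ∉ X l) (i2 : ∀ l, (∀ m, q ∈ X m → m = l) → p ∉ X l) :
    p ∈ X 3 ∧ q ∈ X 0 := by
  have hm3 : ∀ m : Fin 4, 3 ≤ rk1 m → m = 3 := by decide
  have h1 : q ∉ X 3 := by
    intro h
    refine i1 3 (fun m hm => hm3 m ?_) h
    have := c1 m 3 hm h
    exact this
  have hq : ∀ l, q ∈ X l → l = 0 := by
    intro l hl
    have h2 := c2 l hl
    have : ∀ l : Fin 4, 1 ≤ rk1 l → l = 0 ∨ l = 1 ∨ l = 3 := by decide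
    rcases this l h2 with h | h | h
    · exact h
    · exact absurd (h ▸ hl) iq
    · exact absurd (h ▸ hl) h1
  obtain ⟨l, hl⟩ := cq
  have h0 : q ∈ X 0 := by rw [← hq l hl]; exact hl
  refine ⟨?_, h0⟩
  obtain ⟨m, hm⟩ := cp
  have h2 : rk1 0 ≤ rk1 m := c1 m 0 hm h0
  have h3 : m ≠ 0 := by
    rintro rfl
    exact i2 0 hq hm
  have : ∀ m : Fin 4, rk1 0 ≤ rk1 m → m ≠ 0 → m = 3 := by decide
  rw [← this m h2 h3]; exact hm

/-- a closed set which contains `V + t` for small `t > 0` -/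
theorem mem_of_right {S : Set ℝ} (hS : IsClosed S) {V : ℝ} (h : ∀ᶠ u in 𝓝[>] V, u ∈ S) : V ∈ S := by
  have h1 : V ∈ closure (Ioi V) := by rw [closure_Ioi]; exact self_mem_Ici
  have h2 : (𝓝[>] V).NeBot := mem_closure_iff_nhdsWithin_neBot.1 h1
  exact hS.mem_of_frequently_of_tendsto h.frequently (tendsto_id.mono_left nhdsWithin_le_nhds)

theorem mem_of_left {S : Set ℝ} (hS : IsClosed S) {V : ℝ} (h : ∀ᶠ u in 𝓝[<] V, u ∈ S) : V ∈ S := by
  have h1 : V ∈ closure (Iio V) := by rw [closure_Iio]; exact self_mem_Iic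
  have h2 : (𝓝[<] V).NeBot := mem_closure_iff_nhdsWithin_neBot.1 h1
  exact hS.mem_of_frequently_of_tendsto h.frequently (tendsto_id.mono_left nhdsWithin_le_nhds)

theorem ev_right {V c : ℝ} {p : ℝ → Prop} (h : ∀ᶠ u in 𝓝[>] V, p (u + c)) :
    ∀ᶠ u in 𝓝[>] (V + c), p u := by
  have h1 : Tendsto (fun u : ℝ => u - c) (𝓝[>] (V + c)) (𝓝[>] V) := by
    refine tendsto_nhdsWithin_of_tendsto_nhds_of_eventually_within _ ?_ ?_
    · have : Continuous fun u : ℝ => u - c := by fun_prop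
      have h2 := this.tendsto (V + c)
      rw [add_sub_cancel_right] at h2
      exact h2.mono_left nhdsWithin_le_nhds
    · filter_upwards [self_mem_nhdsWithin] with u hu
      have : V + c < u := hu
      show V < u - c
      linarith
  filter_upwards [h1.eventually h] with u hu
  rwa [sub_add_cancel] at hu

theorem ev_left {V c : ℝ} {p : ℝ → Prop} (h : ∀ᶠ u in 𝓝[<] V, p (u + c)) :
    ∀ᶠ u in 𝓝[<] (V + c), p u := by
  have h1 : Tendsto (fun u : ℝ => u - c) (𝓝[<] (V + c)) (𝓝[<] V) := by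
    refine tendsto_nhdsWithin_of_tendsto_nhds_of_eventually_within _ ?_ ?_
    · have : Continuous fun u : ℝ => u - c := by fun_prop
      have h2 := this.tendsto (V + c)
      rw [add_sub_cancel_right] at h2
      exact h2.mono_left nhdsWithin_le_nhds
    · filter_upwards [self_mem_nhdsWithin] with u hu
      have : u < V + c := hu
      show u - c < V
      linarith
  filter_upwards [h1.eventually h] with u hu
  rwa [sub_add_cancel] at hu

/-- **two antipodal clean ends `f | C`** with no ambiguous pair strictly between them -/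
theorem RawU.antip (w : RawU X) {Q : ℝ} (h0 : End X 1 3 Q) (h3 : End X 1 3 (Q + 3))
    (hamb : ∀ u ∈ Ioo Q (Q + 2), u ∈ UpS rk1 X → u ∉ DnS rk1 X) :
    (Q + 1 ∈ X 3 ∧ (∃ m, m ≠ 3 ∧ Q + 1 ∈ X m) ∧ Q + 2 ∈ X 0) ∨
      (Q + 2 ∈ X 3 ∧ (∃ m, m ≠ 3 ∧ Q + 2 ∈ X m) ∧ Q + 1 ∈ X 0) := by
  have hr := Rk.one
  have hall : (∀ u ∈ Ioo Q (Q + 2), u ∉ DnS rk1 X) ∨ (∀ u ∈ Ioo Q (Q + 2), u ∉ UpS rk1 X) := by
    by_contra hc
    push Not at hc
    obtain ⟨⟨u1, hu1, hd1⟩, ⟨u2, hu2, hd2⟩⟩ := hc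
    obtain ⟨v, hv, hvu, hvd⟩ := isPreconnected_closed_iff.1 (isPreconnected_Ioo) _ _ w.up_closed
      w.dn_closed (fun u _ => w.up_or_dn hr u) ⟨u2, hu2, hd2⟩ ⟨u1, hu1, hd1⟩
    exact hamb v hv hvu hvd
  -- comparisons
  have up : (∀ u ∈ Ioo Q (Q + 2), u ∉ DnS rk1 X) → ∀ u ∈ Ioo Q (Q + 2), ∀ l m, u ∈ X l →
      u + 1 ∈ X m → rk1 l ≤ rk1 m := by
    intro h u hu l m hl hm
    by_contra hc
    exact h u hu ⟨l, m, by omega, hl, hm⟩
  have dn : (∀ u ∈ Ioo Q (Q + 2), u ∉ UpS rk1 X) → ∀ u ∈ Ioo Q (Q + 2), ∀ l m, u ∈ X l →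
      u + 1 ∈ X m → rk1 m ≤ rk1 l := by
    intro h u hu l m hl hm
    by_contra hc
    exact h u hu ⟨l, m, by omega, hl, hm⟩
  have i1 : ∀ u l, (∀ m, u ∈ X m → m = l) → u + 1 ∉ X l := fun u l h => (w.int h).1
  have i2 : ∀ u l, (∀ m, u + 1 ∈ X m → m = l) → u ∉ X l := fun u l h => by
    have := (w.int h).2
    rwa [add_sub_cancel_right] at this
  have hm3 : ∀ m : Fin 4, 3 ≤ rk1 m → m = 3 := by decide
  have hm2 : ∀ m : Fin 4, rk1 m ≤ 1 → m ≠ 1 → m = 2 := by decide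
  have hm0 : ∀ m : Fin 4, rk1 m ≤ 0 → m = 2 := by decide
  -- small parameters
  have sR : ∀ᶠ u in 𝓝[>] Q, u ∈ Ioo Q (Q + 1) := Ioo_mem_nhdsGT (by linarith)
  have sL : ∀ᶠ u in 𝓝[<] (Q + 3), u ∈ Ioo (Q + 2) (Q + 3) := Ioo_mem_nhdsLT (by linarith)
  have neR : (𝓝[>] Q).NeBot := by
    have h1 : Q ∈ closure (Ioi Q) := by rw [closure_Ioi]; exact self_mem_Ici
    exact mem_closure_iff_nhdsWithin_neBot.1 h1
  have neL : (𝓝[<] (Q + 3)).NeBot := by
    have h1 : Q + 3 ∈ closure (Iio (Q + 3)) := by rw [closure_Iio]; exact self_mem_Iic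
    exact mem_closure_iff_nhdsWithin_neBot.1 h1
  -- the union of the other letters
  have hcl3 : IsClosed {u : ℝ | ∃ m, m ≠ 3 ∧ u ∈ X m} := by
    have : {u : ℝ | ∃ m, m ≠ 3 ∧ u ∈ X m} = X 0 ∪ X 1 ∪ X 2 := by
      ext u
      simp only [mem_ofPred_eq, mem_union]
      constructor
      · rintro ⟨m, hm, hu⟩
        fin_cases m
        · exact Or.inl (Or.inl hu)
        · exact Or.inl (Or.inr hu)
        · exact Or.inr hu
        · exact absurd rfl hm
      · rintro ((h | h) | h)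
        · exact ⟨0, by decide, h⟩
        · exact ⟨1, by decide, h⟩
        · exact ⟨2, by decide, h⟩
    rw [this]
    exact ((w.closed 0).union (w.closed 1)).union (w.closed 2)
  -- up is impossible if `C` is on the right of `Q`
  have a1 : Mark X 1 3 Q → ¬ (∀ u ∈ Ioo Q (Q + 2), u ∉ DnS rk1 X) := by
    intro hM hup
    obtain ⟨u, hu, hs⟩ := ((hM.right939 w.closed).and sR).exists
    obtain ⟨l, hl⟩ := w.cover u
    obtain ⟨m, hm⟩ := w.cover (u + 1)
    have e1 := hu l hl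
    subst e1
    have e2 := hm3 m (up hup u ⟨hs.1, by linarith [hs.2]⟩ 3 m hl hm)
    subst e2
    exact i1 u 3 hu hm
  -- down is impossible if `C` is on the left of `Q + 3`
  have a2 : Mark X 3 1 (Q + 3) → ¬ (∀ u ∈ Ioo Q (Q + 2), u ∉ UpS rk1 X) := by
    intro hM hdn
    obtain ⟨u, hu, hs⟩ := ((hM.left939 w.closed).and sL).exists
    have e : u - 1 + 1 = u := by ring
    obtain ⟨l, hl⟩ := w.cover u
    obtain ⟨m, hm⟩ := w.cover (u - 1)
    have e1 := hu l hl
    subst e1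
    have e2 := hm3 m (dn hdn (u - 1) ⟨by linarith [hs.1], by linarith [hs.2]⟩ m 3 hm
      (by rw [e]; exact hl))
    subst e2
    exact i2 (u - 1) 3 (by rw [e]; exact hu) hm
  rcases h0 with h0 | h0 <;> rcases h3 with h3 | h3
  · -- `f | C` and `f | C`
    left
    have hdn := hall.resolve_left (a1 h0)
    have hL : ∀ᶠ u in 𝓝[<] (Q + 3), u - 2 ∈ X 3 ∧ u - 1 ∈ X 0 := by
      filter_upwards [h3.left939 w.closed, sL] with u hu hs
      obtain ⟨k, hk⟩ := w.cover u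
      have e1 := hu k hk
      subst e1
      have e : u - 1 + 1 = u := by ring
      have e2 : u - 2 + 1 = u - 1 := by ring
      have m1 : u - 1 ∈ Ioo Q (Q + 2) := ⟨by linarith [hs.1], by linarith [hs.2]⟩
      have m2 : u - 2 ∈ Ioo Q (Q + 2) := ⟨by linarith [hs.1], by linarith [hs.2]⟩
      refine core939 (w.cover _) (w.cover _) ?_ ?_ ?_ ?_ ?_
      · exact i2 (u - 1) 1 (by rw [e]; exact hu)
      · intro l m hl hm
        exact dn hdn (u - 2) m2 l m hl (by rw [e2]; exact hm)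
      · intro l hl
        exact dn hdn (u - 1) m1 l 1 hl (by rw [e]; exact hk)
      · intro l hl
        have := i1 (u - 2) l hl
        rwa [e2] at this
      · intro l hl
        exact i2 (u - 2) l (by rw [e2]; exact hl)
    have hR : ∀ᶠ u in 𝓝[>] Q, u + 1 ∉ X 3 := by
      filter_upwards [h0.right939 w.closed] with u hu
      exact i1 u 3 hu
    refine ⟨?_, ?_, ?_⟩
    · refine mem_of_left (w.closed 3) ?_
      have h5 : ∀ᶠ u in 𝓝[<] (Q + 3), u + (-2) ∈ X 3 := by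
        filter_upwards [hL] with u hu
        have e : u + (-2) = u - 2 := by ring
        rw [e]; exact hu.1
      have h6 := ev_left h5
      have e : Q + 3 + (-2) = Q + 1 := by ring
      rwa [e] at h6
    · have h5 : ∀ᶠ u in 𝓝[>] (Q + 1), u ∈ {u : ℝ | ∃ m, m ≠ 3 ∧ u ∈ X m} := by
        refine ev_right (p := fun u => u ∈ {u : ℝ | ∃ m, m ≠ 3 ∧ u ∈ X m}) ?_
        filter_upwards [hR] with u hu
        obtain ⟨m, hm⟩ := w.cover (u + 1)
        refine ⟨m, ?_, hm⟩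
        rintro rfl
        exact hu hm
      exact mem_of_right hcl3 h5
    · refine mem_of_left (w.closed 0) ?_
      have h5 : ∀ᶠ u in 𝓝[<] (Q + 3), u + (-1) ∈ X 0 := by
        filter_upwards [hL] with u hu
        have e : u + (-1) = u - 1 := by ring
        rw [e]; exact hu.2
      have h6 := ev_left h5
      have e : Q + 3 + (-1) = Q + 2 := by ring
      rwa [e] at h6
  · -- `f | C` and `C | f`
    exact absurd (hall.resolve_left (a1 h0)) (a2 h3)
  · -- `C | f` and `f | C`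
    exfalso
    rcases hall with hup | hdn
    · obtain ⟨u, hu, hs⟩ := ((h3.left939 w.closed).and sL).exists
      have e : u - 1 + 1 = u := by ring
      have e2 : u - 2 + 1 = u - 1 := by ring
      have m1 : u - 1 ∈ Ioo Q (Q + 2) := ⟨by linarith [hs.1], by linarith [hs.2]⟩
      have m2 : u - 2 ∈ Ioo Q (Q + 2) := ⟨by linarith [hs.1], by linarith [hs.2]⟩
      obtain ⟨k, hk⟩ := w.cover u
      have e1 := hu k hk
      subst e1
      have h5 : ∀ l, u - 1 ∈ X l → l = 2 := by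
        intro l hl
        refine hm2 l (up hup (u - 1) m1 l 1 hl (by rw [e]; exact hk)) ?_
        rintro rfl
        exact i2 (u - 1) 1 (by rw [e]; exact hu) hl
      obtain ⟨l, hl⟩ := w.cover (u - 1)
      have e3 := h5 l hl
      subst e3
      obtain ⟨m, hm⟩ := w.cover (u - 2)
      have e4 := hm0 m (up hup (u - 2) m2 m 2 hm (by rw [e2]; exact hl))
      subst e4
      exact i2 (u - 2) 2 (by rw [e2]; exact h5) hm
    · obtain ⟨u, hu, hs⟩ := ((h0.right939 w.closed).and sR).exists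
      have e2 : u + 1 + 1 = u + 2 := by ring
      have m1 : u ∈ Ioo Q (Q + 2) := ⟨hs.1, by linarith [hs.2]⟩
      have m2 : u + 1 ∈ Ioo Q (Q + 2) := ⟨by linarith [hs.1], by linarith [hs.2]⟩
      obtain ⟨k, hk⟩ := w.cover u
      have e1 := hu k hk
      subst e1
      have h5 : ∀ l, u + 1 ∈ X l → l = 2 := by
        intro l hl
        refine hm2 l (dn hdn u m1 1 l hk hl) ?_
        rintro rfl
        exact i1 u 1 hu hl
      obtain ⟨l, hl⟩ := w.cover (u + 1)
      have e3 := h5 l hl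
      subst e3
      obtain ⟨m, hm⟩ := w.cover (u + 2)
      have e4 := hm0 m (dn hdn (u + 1) m2 2 m hl (by rw [e2]; exact hm))
      subst e4
      have := i1 (u + 1) 2 h5
      rw [e2] at this
      exact this hm
  · -- `C | f` and `C | f`
    right
    have hup : ∀ u ∈ Ioo Q (Q + 2), u ∉ DnS rk1 X := by
      rcases hall with h | h
      · exact h
      · exact absurd h (a2 h3)
    have hR : ∀ᶠ u in 𝓝[>] Q, u + 2 ∈ X 3 ∧ u + 1 ∈ X 0 := by
      filter_upwards [h0.right939 w.closed, sR] with u hu hs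
      obtain ⟨k, hk⟩ := w.cover u
      have e1 := hu k hk
      subst e1
      have e2 : u + 1 + 1 = u + 2 := by ring
      have m1 : u ∈ Ioo Q (Q + 2) := ⟨hs.1, by linarith [hs.2]⟩
      have m2 : u + 1 ∈ Ioo Q (Q + 2) := ⟨by linarith [hs.1], by linarith [hs.2]⟩
      refine core939 (w.cover _) (w.cover _) ?_ ?_ ?_ ?_ ?_
      · exact i1 u 1 hu
      · intro l m hl hm
        exact up hup (u + 1) m2 m l hm (by rw [e2]; exact hl)
      · intro l hl
        exact up hup u m1 1 l hk hl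
      · intro l hl
        exact i2 (u + 1) l (by rw [e2]; exact hl)
      · intro l hl
        have := i1 (u + 1) l hl
        rwa [e2] at this
    have hL : ∀ᶠ u in 𝓝[<] (Q + 3), u - 1 ∉ X 3 := by
      filter_upwards [h3.left939 w.closed] with u hu
      exact i2 (u - 1) 3 (by rw [sub_add_cancel]; exact hu)
    refine ⟨?_, ?_, ?_⟩
    · refine mem_of_right (w.closed 3) ?_
      exact ev_right (p := fun u => u ∈ X 3) (hR.mono fun u hu => hu.1)
    · have h5 : ∀ᶠ u in 𝓝[<] (Q + 3 + (-1)), u ∈ {u : ℝ | ∃ m, m ≠ 3 ∧ u ∈ X m} := by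
        refine ev_left (p := fun u => u ∈ {u : ℝ | ∃ m, m ≠ 3 ∧ u ∈ X m}) ?_
        filter_upwards [hL] with u hu
        obtain ⟨m, hm⟩ := w.cover (u + (-1))
        refine ⟨m, ?_, hm⟩
        rintro rfl
        exact hu (by rw [sub_eq_add_neg]; exact hm)
      have e : Q + 3 + (-1) = Q + 2 := by ring
      rw [e] at h5
      exact mem_of_left hcl3 h5
    · refine mem_of_right (w.closed 0) ?_
      exact ev_right (p := fun u => u ∈ X 0) (hR.mono fun u hu => hu.2)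

end Vale.Agent.P032.Words

namespace Vale.Agent.P032.Six

open Vale.Agent.P032.S5.H767 Vale.Agent.P032.Words

variable {U : Fin 6 → Set ℂ} {T : ℂ → Set (Fin 6)} {z y p v q q' : ℂ} {a b c d e f : Fin 6}

/-- no two-pair point on `S(z)` has the two missing colours of `z` as one of its pairs -/
def NoR (T : ℂ → Set (Fin 6)) (z : ℂ) : Prop :=
  ∀ (y : ℂ) (i j m n : Fin 6), dist y z = 1 → DPt T y i j m n → m ∉ T z → n ∉ T z → False

theorem NoR.rct (hR : NoR T z) (he : e ∉ T z) (hf : f ∉ T z) (hy : dist y z = 1) :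
    ¬ WT.RCt T a b c d e f y := by
  rintro ⟨i, j, -, -, hD⟩
  exact hR y i j e f hy hD he hf

/-- the six names of a two-pair point -/
theorem nd_of939 (hz : DPt T z a b c d) (he : e ∉ T z) (hf : f ∉ T z) (hef : e ≠ f) :
    [a, b, c, d, e, f].Nodup := by
  have hea : e ≠ a := fun h5 => he (by rw [hz.pal, h5]; simp)
  have heb : e ≠ b := fun h5 => he (by rw [hz.pal, h5]; simp)
  have hec : e ≠ c := fun h5 => he (by rw [hz.pal, h5]; simp)
  have hed : e ≠ d := fun h5 => he (by rw [hz.pal, h5]; simp)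
  have hfa : f ≠ a := fun h5 => hf (by rw [hz.pal, h5]; simp)
  have hfb : f ≠ b := fun h5 => hf (by rw [hz.pal, h5]; simp)
  have hfc : f ≠ c := fun h5 => hf (by rw [hz.pal, h5]; simp)
  have hfd : f ≠ d := fun h5 => hf (by rw [hz.pal, h5]; simp)
  simp [hz.ab, hz.ac, hz.ad, hz.bc, hz.bd, hz.cd, hea.symm, heb.symm, hec.symm, hed.symm,
    hfa.symm, hfb.symm, hfc.symm, hfd.symm, hef]

namespace WT

/-- **an ambiguous pair** of class one contains a real end or a contact `{i, j | e, f}` -/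
theorem amb (H : WT U T) (hmin : MinF U T) (hz : DPt T z a b c d) (nd : [a, b, c, d, e, f].Nodup)
    {u : ℝ} (hU : u ∈ UpS rk1 (Xs T z a b c d e f)) (hD : u ∈ DnS rk1 (Xs T z a b c d e f)) :
    (REnd T z a b c d e f (pt z u) ∨ REnd T z a b c d e f (pt z (u + 1))) ∨
      RCt T a b c d e f (pt z u) ∨ RCt T a b c d e f (pt z (u + 1)) := by
  have C := ctr_of_dpt H.irr hz nd
  have w := C.rawU hz
  obtain ⟨⟨ab, ac, ad, ae, af⟩, ⟨bc, bd, be, bf⟩, ⟨cd, ce, cf⟩, ⟨de, df⟩, ef⟩ := nodup_sep nd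
  have hX : ∀ {v : ℝ} {l : Fin 4}, v ∈ Xs T z a b c d e f l → pt z v ∈ Lt T z a b c d e f l :=
    fun h => h
  have d1 : dist (pt z (u + 1)) (pt z u) = 1 := by rw [dist_comm]; exact dist_pt_one z u
  have hint : ∀ v s : ℝ, s = v + 1 ∨ s = v - 1 → ∀ m, s ∈ Xs T z a b c d e f m →
      v ∈ Xs T z a b c d e f m → ∃ n, n ≠ m ∧ v ∈ Xs T z a b c d e f n := by
    intro v s hs m h1 h2
    by_contra hcon
    push Not at hcon
    have h3 := w.int (u := v) (l := m) fun n hn => by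
      by_contra hne
      exact hcon n hne hn
    rcases hs with rfl | rfl
    · exact h3.1 h1
    · exact h3.2 h1
  by_cases h4 : 4 ≤ (T (pt z u)).ncard
  · rcases H.pair_core hmin hz nd (dist_pt z u) (dist_pt z (u + 1)) d1 h4 hU hD
      (fun m k1 k2 => hint (u + 1) u (Or.inr (by ring)) m k1 k2) with h5 | h5
    · exact Or.inl (Or.inr h5)
    · exact Or.inr (Or.inl (H.swap_s4r hmin hz nd (dist_pt z u) (dist_pt z (u + 1)) d1 h4
        h5.2.1 h5.2.2))
  by_cases h4' : 4 ≤ (T (pt z (u + 1))).ncard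
  · obtain ⟨l, m, hlm, hl, hm⟩ := hU
    obtain ⟨l', m', hlm', hl', hm'⟩ := hD
    rcases H.pair_core hmin hz nd (dist_pt z (u + 1)) (dist_pt z u) (dist_pt_one z u) h4'
      ⟨m', l', hlm', hm', hl'⟩ ⟨m, l, hlm, hm, hl⟩
      (fun m k1 k2 => hint u (u + 1) (Or.inl rfl) m k1 k2) with h5 | h5
    · exact Or.inl (Or.inl h5)
    · exact Or.inr (Or.inr (H.swap_s4r hmin hz nd (dist_pt z (u + 1)) (dist_pt z u)
        (dist_pt_one z u) h4' h5.2.1 h5.2.2))
  · left
    rcases w.amb Rk.one hU hD with h5 | h5 | h5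
    · left
      obtain ⟨l, m, hlm, hl, hm⟩ := h5
      have hcc : ∀ l m : Fin 4, rk1 l + 2 ≤ rk1 m →
          (l = 2 ∧ m = 0) ∨ (l = 2 ∧ m = 3) ∨ (l = 1 ∧ m = 3) := by decide
      have h3 : (T (pt z u)).ncard ≤ 3 := by omega
      rcases hcc l m hlm with ⟨rfl, rfl⟩ | ⟨rfl, rfl⟩ | ⟨rfl, rfl⟩
      · obtain ⟨k1, k2⟩ := let2 H.irr (hX hl)
        exact Or.inl ⟨eq_three h3 k1 k2 hm.2 ab ae be, hl⟩
      · exact absurd hm (fun h' => C.noAC h3 hl h')
      · obtain ⟨k1, k2⟩ := let3 H.irr (hX hm)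
        exact Or.inr ⟨eq_three h3 k1 k2 hl.2 cd cf df, hm⟩
    · right
      obtain ⟨l, m, hlm, hl, hm⟩ := h5
      have hcc : ∀ l m : Fin 4, rk1 l + 2 ≤ rk1 m →
          (l = 2 ∧ m = 0) ∨ (l = 2 ∧ m = 3) ∨ (l = 1 ∧ m = 3) := by decide
      have h3 : (T (pt z (u + 1))).ncard ≤ 3 := by omega
      rcases hcc l m hlm with ⟨rfl, rfl⟩ | ⟨rfl, rfl⟩ | ⟨rfl, rfl⟩
      · obtain ⟨k1, k2⟩ := let2 H.irr (hX hl)
        exact Or.inl ⟨eq_three h3 k1 k2 hm.2 ab ae be, hl⟩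
      · exact absurd hm (fun h' => C.noAC h3 hl h')
      · obtain ⟨k1, k2⟩ := let3 H.irr (hX hm)
        exact Or.inr ⟨eq_three h3 k1 k2 hl.2 cd cf df, hm⟩
    · rcases C.swp_four h5 with h6 | h6
      · exact absurd h6 h4
      · exact absurd h6 h4'

/-- the middle point of the antipodal pattern -/
theorem mid (H : WT U T) (hmin : MinF U T) (hz : DPt T z a b c d) (nd : [a, b, c, d, e, f].Nodup)
    {p₀ p₁ p₂ : ℂ} (h0 : dist p₀ z = 1) (hT0 : T p₀ = {c, d, f}) (h10 : dist p₁ p₀ = 1)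
    (h12 : dist p₁ p₂ = 1) (n1 : p₂ ≠ p₀) (n2 : p₂ + p₀ ≠ 2 * p₁)
    (h3 : p₁ ∈ Lt T z a b c d e f 3) {m : Fin 4} (hm3 : m ≠ 3) (hm : p₁ ∈ Lt T z a b c d e f m)
    (h2 : p₂ ∈ Lt T z a b c d e f 0) (hno : ¬ REnd T z a b c d e f p₁) : False := by
  have C := ctr_of_dpt H.irr hz nd
  have hp1 : dist p₁ z = 1 := Lt_dist h3
  obtain ⟨⟨ab, ac, ad, ae, af⟩, ⟨bc, bd, be, bf⟩, ⟨cd, ce, cf⟩, ⟨de, df⟩, ef⟩ := nodup_sep nd
  obtain ⟨k1, k2⟩ := let3 H.irr h3
  have hc0 : c ∈ T p₀ := by rw [hT0]; simp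
  have hd0 : d ∈ T p₀ := by rw [hT0]; simp
  have hf0 : f ∈ T p₀ := by rw [hT0]; simp
  by_cases h4 : 4 ≤ (T p₁).ncard
  · -- a contact `{c, d, e, f}`
    have hy4' : (T p₁).ncard = 4 := by have := H.le4 hz.card.ge hp1; omega
    obtain ⟨he, hf⟩ := H.ef_of_four hz nd hp1 h4
    have hT1 : T p₁ = {c, d, e, f} := by
      refine (Set.eq_of_subset_of_ncard_le ?_ ?_ (Set.toFinite _)).symm
      · rintro i (rfl | rfl | rfl | hi)
        · exact k1
        · exact k2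
        · exact he
        · rw [mem_singleton_iff] at hi; rw [hi]; exact hf
      · rw [card_four (by simp [cd, ce, cf, de, df, ef]), hy4']
    have nd2 : [c, d, a, b, e, f].Nodup := by
      simp [ab, Ne.symm ac, Ne.symm ad, ae, af, Ne.symm bc, Ne.symm bd, be, bf, cd, ce, cf, de, df,
        ef]
    exact (H.flank_same hmin hz.swap nd2 hp1 hT1 h0 (by rw [dist_comm]; exact h10)).2.1 hc0
  · have h4' : (T p₁).ncard ≤ 3 := by omega
    have hcc : ∀ m : Fin 4, m ≠ 3 → m = 0 ∨ m = 1 ∨ m = 2 := by decide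
    have h03 : (T p₀).ncard ≤ 3 := by
      rw [hT0]; exact (Set.ncard_eq_three.2 ⟨c, d, f, cd, cf, df, rfl⟩).le
    rcases hcc m hm3 with rfl | rfl | rfl
    · refine C.dblPair (l := 3) (m := 0) (by decide) h10 h12 n1 n2 h4' h03
        cd hp1 h0 k1 k2 hc0 hd0 ?_ ?_ hm h2
      · intro h
        exact ce h
      · intro h
        exact de h
    · exact hno (Or.inr ⟨eq_three h4' k1 k2 hm.2 cd cf df, h3⟩)
    · exact C.noAC h4' hm h3

/-- **two antipodal ends `{c, d, f}`** with no end of class one strictly between them -/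
theorem no_antip (H : WT U T) (hmin : MinF U T) (hz : DPt T z a b c d)
    (nd : [a, b, c, d, e, f].Nodup) (hR : NoR T z) {Q : ℝ} (hQ : T (pt z Q) = {c, d, f})
    (hc : S5.H349.Cln T z (pt z Q)) (hQ3 : T (pt z (Q + 3)) = {c, d, f})
    (hc3 : S5.H349.Cln T z (pt z (Q + 3)))
    (hno : ∀ u ∈ Ioo Q (Q + 3), ¬ REnd T z a b c d e f (pt z u)) : False := by
  have C := ctr_of_dpt H.irr hz nd
  have w := C.rawU hz
  obtain ⟨⟨ab, ac, ad, ae, af⟩, ⟨bc, bd, be, bf⟩, ⟨cd, ce, cf⟩, ⟨de, df⟩, ef⟩ := nodup_sep nd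
  have he : e ∉ T z := by rw [hz.pal]; simp [Ne.symm ae, Ne.symm be, Ne.symm ce, Ne.symm de]
  have hf : f ∉ T z := by rw [hz.pal]; simp [Ne.symm af, Ne.symm bf, Ne.symm cf, Ne.symm df]
  have hamb : ∀ u ∈ Ioo Q (Q + 2), u ∈ UpS rk1 (Xs T z a b c d e f) →
      u ∉ DnS rk1 (Xs T z a b c d e f) := by
    intro u hu h1 h2
    rcases H.amb hmin hz nd h1 h2 with (h3 | h3) | h3 | h3
    · exact hno u ⟨hu.1, by linarith [hu.2]⟩ h3
    · exact hno (u + 1) ⟨by linarith [hu.1], by linarith [hu.2]⟩ h3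
    · exact hR.rct he hf (dist_pt z _) h3
    · exact hR.rct he hf (dist_pt z _) h3
  have e1 : Q + 1 + 1 = Q + 2 := by ring
  have e2 : Q + 2 + 1 = Q + 3 := by ring
  have d01 := dist_pt_one z Q
  have d12 := dist_pt_one z (Q + 1)
  rw [e1] at d12
  have d23 := dist_pt_one z (Q + 2)
  rw [e2] at d23
  rcases w.antip (S5.H349.end13 C hQ hc) (S5.H349.end13 C hQ3 hc3) hamb with
    ⟨k1, ⟨m, hm3, hm⟩, k2⟩ | ⟨k1, ⟨m, hm3, hm⟩, k2⟩
  · obtain ⟨n1, n2⟩ := pt_off z Q
    exact H.mid hmin hz nd (dist_pt z Q) hQ (by rw [dist_comm]; exact d01) d12 n1 n2 k1 hm3 hm k2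
      (hno (Q + 1) ⟨by linarith, by linarith⟩)
  · obtain ⟨n1, n2⟩ := pt_off z (Q + 1)
    have e3 : Q + 1 + 2 = Q + 3 := by ring
    rw [e3, e1] at n2
    rw [e3] at n1
    exact H.mid hmin hz nd (dist_pt z (Q + 3)) hQ3 d23 (by rw [dist_comm]; exact d12) n1.symm
      (by rw [add_comm]; exact n2) k1 hm3 hm k2
      (hno (Q + 2) ⟨by linarith, by linarith⟩)

/-- **TWO** for a centre without contacts `{i, j | e, f}` -/
theorem twoR (H : WT U T) (hmin : MinF U T) (h4 : ∀ x, (T x).ncard ≤ 4) (hR : NoR T z)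
    (hv : EE T z v) (hq : EE T z q) (hc : T q = (T v)ᶜ) :
    (∃ v', v' ≠ v ∧ EE T z v' ∧ T v' = T v) ∨ ∃ q', q' ≠ q ∧ EE T z q' ∧ T q' = T q := by
  by_contra hcon
  push Not at hcon
  obtain ⟨uv0, uq0⟩ := hcon
  have h := H.irr
  obtain ⟨a, b, c, d, e, f, C, -, -⟩ := exists_cfg h hv hv.dist rfl hq.dist hc
  have hz := C.dp
  have he : e ∉ T z := C.he
  have hf : f ∉ T z := C.hf
  have hTv : T v = {a, b, e} := C.TV
  have hTq : T q = {c, d, f} := C.TQ
  have hef : e ≠ f := C.ef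
  have nd := nd_of939 hz he hf hef
  have hvq : v ≠ q := by
    rintro rfl
    have h5 : e ∈ T v := by rw [hTv]; simp
    have h6 := h5
    rw [hc] at h6
    exact h6 h5
  obtain ⟨x, y, hxy, hxyu⟩ := exists_long hv.dist hq.dist hvq (hv.anti h hq hc)
  obtain ⟨u, hu, hcase⟩ := H.conv_r hmin hz nd hxy
  obtain ⟨hnv, hnq⟩ := hxyu u hu
  rcases hcase with (⟨h1, -⟩ | ⟨h1, -⟩) | h1
  · exact uv0 _ hnv (h.ee_of_full h4 hz (dist_pt z u) hq.dist h1 hTq he hf hef) (by rw [h1, hTv])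
  · exact uq0 _ hnq (h.ee_of_full h4 hz.swap (dist_pt z u) hv.dist h1 hTv hf he hef.symm)
      (by rw [h1, hTq])
  · exact hR.rct he hf (dist_pt z u) h1

/-- **L3** for a centre without contacts `{i, j | e, f}` -/
theorem l3R (H : WT U T) (hmin : MinF U T) (h4 : ∀ x, (T x).ncard ≤ 4) (hR : NoR T z)
    (hv : EE T z v) (hq : EE T z q) (hq' : EE T z q') (hne : q ≠ q') (hc : T q = (T v)ᶜ)
    (hc' : T q' = (T v)ᶜ) (uv : ∀ v', EE T z v' → T v' = T v → v' = v)
    (uq : ∀ p, EE T z p → T p = (T v)ᶜ → p = q ∨ p = q') :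
    ∃ α β γ : ℝ, 0 < α ∧ 0 < β ∧ 0 < γ ∧
      (α : ℂ) * (v - z) + (β : ℂ) * (q - z) + (γ : ℂ) * (q' - z) = 0 := by
  have h := H.irr
  obtain ⟨a, b, c, d, e, f, C, -, -⟩ := exists_cfg h hv hv.dist rfl hq.dist hc
  have hz := C.dp
  have he : e ∉ T z := C.he
  have hf : f ∉ T z := C.hf
  have hTv : T v = {a, b, e} := C.TV
  have hTq : T q = {c, d, f} := C.TQ
  have hTq' : T q' = {c, d, f} := by rw [hc', ← hc, hTq]
  have hcv : T v = (T q)ᶜ := by rw [hc, compl_compl]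
  have hef : e ≠ f := C.ef
  have nd := nd_of939 hz he hf hef
  have nde : c ≠ e ∧ d ≠ e ∧ e ≠ f := by
    obtain ⟨-, -, ⟨-, ce, -⟩, ⟨de, -⟩, -⟩ := nodup_sep nd
    exact ⟨ce, de, hef⟩
  have ne1 : ∀ {p : ℂ}, T p = {c, d, f} → v ≠ p := by
    rintro p hp rfl
    have h5 : e ∈ T v := by rw [hTv]; simp
    rw [hp] at h5
    rcases h5 with h6 | h6 | h6
    · exact nde.1 h6.symm
    · exact nde.2.1 h6.symm
    · exact nde.2.2 h6
  have hvq : v ≠ q := ne1 hTq
  have hvq' : v ≠ q' := ne1 hTq'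
  -- real ends
  have real : ∀ u : ℝ, REnd T z a b c d e f (pt z u) → pt z u = v ∨ pt z u = q ∨ pt z u = q' := by
    rintro u (⟨h1, -⟩ | ⟨h1, -⟩)
    · left
      exact uv _ (h.ee_of_full h4 hz (dist_pt z u) hq.dist h1 hTq he hf hef) (by rw [h1, hTv])
    · right
      refine uq _ (h.ee_of_full h4 hz.swap (dist_pt z u) hv.dist h1 hTv hf he hef.symm) ?_
      rw [h1, ← hTq, hc]
  have win : ∀ {x y : ℝ}, x + 3 < y → ∃ u ∈ Ioo x y, pt z u = v ∨ pt z u = q ∨ pt z u = q' := by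
    intro x y hxy
    obtain ⟨u, hu, h1 | h1⟩ := H.conv_r hmin hz nd hxy
    · exact ⟨u, hu, real u h1⟩
    · exact absurd h1 (hR.rct he hf (dist_pt z u))
  have clq : ∀ {p : ℂ}, EE T z p → T p = {c, d, f} → S5.H349.Cln T z p := by
    intro p hp hTp
    exact hp.cln h h4 hv (by rw [hTp, ← hTq, ← hcv]) hp.dist rfl
  -- angles
  obtain ⟨V, hV⟩ := exists_pt hv.dist
  have rep : ∀ {p : ℂ}, dist p z = 1 → v ≠ p → ∃ Q, p = pt z Q ∧ V < Q ∧ Q < V + 6 := by
    intro p hp hVp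
    obtain ⟨Q, hQ⟩ := exists_pt hp
    have h1 := Int.floor_le ((Q - V) / 6)
    have h2 := Int.lt_floor_add_one ((Q - V) / 6)
    have h5 : p = pt z (Q + 6 * ((-⌊(Q - V) / 6⌋ : ℤ) : ℝ)) := by rw [pt_add_six, hQ]
    refine ⟨Q + 6 * ((-⌊(Q - V) / 6⌋ : ℤ) : ℝ), h5, ?_, ?_⟩
    · refine lt_of_le_of_ne ?_ ?_
      · push_cast; linarith
      · intro h6
        exact hVp (by rw [h5, ← h6, hV])
    · push_cast; linarith
  have main : ∀ {Q Q' : ℝ}, V < Q → Q < Q' → Q' < V + 6 → EE T z (pt z Q) → EE T z (pt z Q') →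
      T (pt z Q) = {c, d, f} → T (pt z Q') = {c, d, f} →
      (∀ u : ℝ, REnd T z a b c d e f (pt z u) → pt z u = pt z V ∨ pt z u = pt z Q ∨
        pt z u = pt z Q') →
      ∃ α β γ : ℝ, 0 < α ∧ 0 < β ∧ 0 < γ ∧ (α : ℂ) * (pt z V - z) + (β : ℂ) * (pt z Q - z) +
        (γ : ℂ) * (pt z Q' - z) = 0 := by
    intro Q Q' hVQ hQQ' hQ6 hEQ hEQ' hT hT' hun
    -- no other representative
    have out : ∀ {x y u : ℝ}, u ∈ Ioo x y → (∀ n : ℤ, V + 6 * n ∉ Ioo x y) →
        (∀ n : ℤ, Q + 6 * n ∉ Ioo x y) → (∀ n : ℤ, Q' + 6 * n ∉ Ioo x y) →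
        ¬ REnd T z a b c d e f (pt z u) := by
      intro x y u hu k1 k2 k3 hr
      rcases hun u hr with h5 | h5 | h5
      · obtain ⟨n, hn⟩ := pt_eq_int h5
        exact k1 n (hn ▸ hu)
      · obtain ⟨n, hn⟩ := pt_eq_int h5
        exact k2 n (hn ▸ hu)
      · obtain ⟨n, hn⟩ := pt_eq_int h5
        exact k3 n (hn ▸ hu)
    have six : ∀ {A x y : ℝ}, x < y → (∀ n : ℤ, n ≤ 0 → A + 6 * n ≤ x) →
        (∀ n : ℤ, 1 ≤ n → y ≤ A + 6 * n) → ∀ n : ℤ, A + 6 * n ∉ Ioo x y := by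
      intro A x y _ k1 k2 n hn
      rcases le_or_gt n 0 with h5 | h5
      · linarith [k1 n h5, hn.1]
      · linarith [k2 n (by omega), hn.2]
    have cast0 : ∀ n : ℤ, n ≤ 0 → (n : ℝ) ≤ 0 := fun n hn => by exact_mod_cast hn
    have cast1 : ∀ n : ℤ, 1 ≤ n → (1 : ℝ) ≤ n := fun n hn => by exact_mod_cast hn
    have castm : ∀ n : ℤ, n ≤ -1 → (n : ℝ) ≤ -1 := fun n hn => by exact_mod_cast hn
    have gap : ∀ {x y : ℝ}, (∀ n : ℤ, V + 6 * n ∉ Ioo x y) → (∀ n : ℤ, Q + 6 * n ∉ Ioo x y) →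
        (∀ n : ℤ, Q' + 6 * n ∉ Ioo x y) → y ≤ x + 3 := by
      intro x y k1 k2 k3
      by_contra hlt
      push Not at hlt
      obtain ⟨u, hu, h1 | h1⟩ := H.conv_r hmin hz nd hlt
      · exact out hu k1 k2 k3 h1
      · exact hR.rct he hf (dist_pt z u) h1
    have av : ∀ n : ℤ, V + 6 * n ∉ Ioo V Q := six hVQ (fun n hn => by linarith [cast0 n hn])
      (fun n hn => by linarith [cast1 n hn])
    have aq : ∀ n : ℤ, Q + 6 * n ∉ Ioo V Q := by
      intro n hn
      rcases le_or_gt n (-1) with h5 | h5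
      · linarith [castm n h5, hn.1]
      · have : (0 : ℝ) ≤ n := by exact_mod_cast (by omega : (0 : ℤ) ≤ n)
        linarith [hn.2]
    have aq' : ∀ n : ℤ, Q' + 6 * n ∉ Ioo V Q := by
      intro n hn
      rcases le_or_gt n (-1) with h5 | h5
      · linarith [castm n h5, hn.1]
      · have : (0 : ℝ) ≤ n := by exact_mod_cast (by omega : (0 : ℤ) ≤ n)
        linarith [hn.2]
    have g1 : Q ≤ V + 3 := gap av aq aq'
    have bv : ∀ n : ℤ, V + 6 * n ∉ Ioo Q Q' := six hQQ' (fun n hn => by linarith [cast0 n hn])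
      (fun n hn => by linarith [cast1 n hn])
    have bq : ∀ n : ℤ, Q + 6 * n ∉ Ioo Q Q' := six hQQ' (fun n hn => by linarith [cast0 n hn])
      (fun n hn => by linarith [cast1 n hn])
    have bq' : ∀ n : ℤ, Q' + 6 * n ∉ Ioo Q Q' := by
      intro n hn
      rcases le_or_gt n (-1) with h5 | h5
      · linarith [castm n h5, hn.1]
      · have : (0 : ℝ) ≤ n := by exact_mod_cast (by omega : (0 : ℤ) ≤ n)
        linarith [hn.2]
    have g2 : Q' ≤ Q + 3 := gap bv bq bq'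
    have g3 : V + 6 ≤ Q' + 3 := by
      refine gap (x := Q') (y := V + 6) ?_ ?_ ?_
      · exact six hQ6 (fun n hn => by linarith [cast0 n hn]) (fun n hn => by linarith [cast1 n hn])
      · exact six hQ6 (fun n hn => by linarith [cast0 n hn]) (fun n hn => by linarith [cast1 n hn])
      · exact six hQ6 (fun n hn => by linarith [cast0 n hn]) (fun n hn => by linarith [cast1 n hn])
    -- strictness
    have hvV : EE T z (pt z V) := hV ▸ hv
    have hTV : T (pt z V) = {a, b, e} := hV ▸ hTv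
    have hcomp : ({c, d, f} : Set (Fin 6)) = ({a, b, e} : Set (Fin 6))ᶜ := by
      rw [← hTq, ← hTv]; exact hc
    have s1 : Q ≠ V + 3 := by
      intro h5
      refine hvV.anti h hEQ (by rw [hT, hTV]; exact hcomp) ?_
      rw [h5, pt_three]; ring
    have s3 : V + 6 ≠ Q' + 3 := by
      intro h5
      refine hvV.anti h hEQ' (by rw [hT', hTV]; exact hcomp) ?_
      have h6 : Q' = V + 3 := by linarith
      rw [h6, pt_three]; ring
    have s2 : Q' ≠ Q + 3 := by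
      intro h5
      subst h5
      exact H.no_antip hmin hz nd hR hT (clq hEQ hT) hT' (clq hEQ' hT')
        (fun u hu => out hu bv bq bq')
    have t1 : Q < V + 3 := lt_of_le_of_ne g1 s1
    have t2 : Q' < Q + 3 := lt_of_le_of_ne g2 s2
    have t3 : V + 6 < Q' + 3 := lt_of_le_of_ne g3 s3
    have hpi := Real.pi_pos
    refine ⟨Real.sin (Q' * (Real.pi / 3) - Q * (Real.pi / 3)),
      Real.sin (V * (Real.pi / 3) - Q' * (Real.pi / 3)),
      Real.sin (Q * (Real.pi / 3) - V * (Real.pi / 3)), ?_, ?_, ?_, ?_⟩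
    · apply Real.sin_pos_of_pos_of_lt_pi
      · nlinarith
      · nlinarith
    · have e1 : V * (Real.pi / 3) - Q' * (Real.pi / 3) =
          (V + 6 - Q') * (Real.pi / 3) - 2 * Real.pi := by ring
      rw [e1, Real.sin_sub_two_pi]
      apply Real.sin_pos_of_pos_of_lt_pi
      · nlinarith
      · nlinarith
    · apply Real.sin_pos_of_pos_of_lt_pi
      · nlinarith
      · nlinarith
    · have := S5.H349.tri_id (V * (Real.pi / 3)) (Q * (Real.pi / 3)) (Q' * (Real.pi / 3))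
      unfold pt
      rw [add_sub_cancel_left, add_sub_cancel_left, add_sub_cancel_left]
      exact this
  obtain ⟨Q, hQ, hQ1, hQ2⟩ := rep hq.dist hvq
  obtain ⟨Q', hQ', hQ1', hQ2'⟩ := rep hq'.dist hvq'
  rcases lt_trichotomy Q Q' with hlt | heq | hlt
  · obtain ⟨α, β, γ, h1, h2, h5, h6⟩ := main hQ1 hlt hQ2' (hQ ▸ hq) (hQ' ▸ hq') (hQ ▸ hTq)
      (hQ' ▸ hTq') (fun u hu => by rw [← hV, ← hQ, ← hQ']; exact real u hu)
    exact ⟨α, β, γ, h1, h2, h5, by rw [hV, hQ, hQ']; exact h6⟩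
  · exact absurd (by rw [hQ, hQ', heq]) hne
  · obtain ⟨α, β, γ, h1, h2, h5, h6⟩ := main hQ1' hlt hQ2 (hQ' ▸ hq') (hQ ▸ hq) (hQ' ▸ hTq')
      (hQ ▸ hTq) (fun u hu => by
        rw [← hV, ← hQ, ← hQ']
        rcases real u hu with k | k | k
        · exact Or.inl k
        · exact Or.inr (Or.inr k)
        · exact Or.inr (Or.inl k))
    exact ⟨α, γ, β, h1, h5, h2, by rw [hV, hQ, hQ']; linear_combination h6⟩

end WT

end Vale.Agent.P032.Six
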